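import Vale.Agent.P032.H383.Far2
import Vale.Agent.P032.H383.Loc

/-!
# P032: vertices of the chain (quasi-full two-pair points), world without plain ends of the connecting pair

Angles in units of 60 degrees: `pt V u = V + cis (u π / 3)`.

`QF0 T V a b m n e f V1 V2` : `T V = {a, b, m, n}`, pairs `ab | mn`, the other colours are `e`, `f`; `ab` is the
connecting pair: the points of `S(V)` with the colours `a`, `b` are one closed arc shorter than 60
degrees with the ends `V1`, `V2`, its inner points have exactly these two colours; `V1`, `V2` are the only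
points of `S(V)` with four colours; the borders `am`, `bn` at `V` are on `S(V1)`, the borders `an`, `bm` on
`S(V2)` : one of `am`, `nb` is a pair of `V1`, one of `an`, `mb` a pair of `V2`.

`QF` : moreover `a` is the colour inside `S(V)` and `b` the colour outside.

`Link T V a b m n V1` : at the end `V1` : STAY (connecting pair `a, m`, inner colour `a`, other pair `g, b`)
or SWITCH (connecting pair `n, b`, inner colour `n`, other pair `a, g`); the point `V` is an end of the arc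
of `V1`.  `g = n` (resp. `m`) is a J-link.  The link at `V2` is `Link T V a b n m V2`.

`QFW T` : every point with four colours is quasi-full with links at both ends.
-/

open Set Filter Topology Metric

noncomputable section

namespace Vale.Agent.P032.H961

open Vale.Agent.P032.Six Vale.Agent.P032.S5.H767

/-- quasi-full point with the connecting pair `a, b`, symmetric in `a`, `b` -/
structure QF0 (T : ℂ → Set (Fin 6)) (V : ℂ) (a b m n e f : Fin 6) (V1 V2 : ℂ) : Prop where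
  nd : [a, b, m, n, e, f].Nodup
  dpt : DPt T V a b m n
  arc : ∃ s t : ℝ, s < t ∧ t < s + 1 ∧
    (V1 = pt V t ∧ V2 = pt V s ∨ V1 = pt V s ∧ V2 = pt V t) ∧
    (∀ u ∈ Ioo s t, T (pt V u) = {a, b}) ∧
    ∀ y, dist y V = 1 → a ∈ T y → b ∈ T y → y ∈ pt V '' Icc s t
  lk1 : ∃ g, DPt T V1 a m b g ∨ DPt T V1 n b a g
  lk2 : ∃ g, DPt T V2 a n b g ∨ DPt T V2 m b a g
  ord : ∀ y, dist y V = 1 → 4 ≤ (T y).ncard → y = V1 ∨ y = V2

/-- quasi-full point with the connecting pair `a, b`, the colour `a` inside, `b` outside -/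
structure QF (T : ℂ → Set (Fin 6)) (V : ℂ) (a b m n e f : Fin 6) (V1 V2 : ℂ) : Prop extends
    QF0 T V a b m n e f V1 V2 where
  inn : ∀ y, dist y V = 1 → T y = {a, b} →
    ∀ᶠ x in 𝓝 y, (b ∈ T x → 1 ≤ dist x V) ∧ (a ∈ T x → dist x V ≤ 1)

/-- the link at the end `V1` (STAY or SWITCH) -/
def Link (T : ℂ → Set (Fin 6)) (V : ℂ) (a b m n : Fin 6) (V1 : ℂ) : Prop :=
  ∃ (g e' f' : Fin 6) (W : ℂ), QF T V1 a m g b e' f' W V ∨ QF T V1 n b a g e' f' W V

/-- the world of quasi-full points -/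
structure QFW (T : ℂ → Set (Fin 6)) : Prop where
  qf : ∀ V, 4 ≤ (T V).ncard → ∃ (a b m n e f : Fin 6) (V1 V2 : ℂ), QF T V a b m n e f V1 V2
  link : ∀ {V V1 V2 : ℂ} {a b m n e f : Fin 6}, QF T V a b m n e f V1 V2 → Link T V a b m n V1

variable {U : Fin 6 → Set ℂ} {T : ℂ → Set (Fin 6)} {V V1 V2 W : ℂ} {a b m n e f g e' f' : Fin 6}

/-! ### symmetries -/

theorem nodup_cd (h : [a, b, m, n, e, f].Nodup) : [a, b, n, m, e, f].Nodup := by
  simp only [List.nodup_cons, List.mem_cons, List.not_mem_nil, or_false, not_or,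
    List.nodup_nil, and_true, not_false_eq_true] at h ⊢
  obtain ⟨⟨hab, hac, had, hae, haf⟩, ⟨hbc, hbd, hbe, hbf⟩, ⟨hcd, hce, hcf⟩, ⟨hde, hdf⟩, hef⟩ := h
  exact ⟨⟨hab, had, hac, hae, haf⟩, ⟨hbd, hbc, hbe, hbf⟩, ⟨Ne.symm hcd, hde, hdf⟩, ⟨hce, hcf⟩, hef⟩

theorem nodup_ab (h : [a, b, m, n, e, f].Nodup) : [b, a, m, n, e, f].Nodup := by
  simp only [List.nodup_cons, List.mem_cons, List.not_mem_nil, or_false, not_or,
    List.nodup_nil, and_true, not_false_eq_true] at h ⊢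
  obtain ⟨⟨hab, hac, had, hae, haf⟩, ⟨hbc, hbd, hbe, hbf⟩, ⟨hcd, hce, hcf⟩, ⟨hde, hdf⟩, hef⟩ := h
  exact ⟨⟨Ne.symm hab, hbc, hbd, hbe, hbf⟩, ⟨hac, had, hae, haf⟩, ⟨hcd, hce, hcf⟩, ⟨hde, hdf⟩, hef⟩

theorem nodup_ef (h : [a, b, m, n, e, f].Nodup) : [a, b, m, n, f, e].Nodup := by
  simp only [List.nodup_cons, List.mem_cons, List.not_mem_nil, or_false, not_or,
    List.nodup_nil, and_true, not_false_eq_true] at h ⊢
  obtain ⟨⟨hab, hac, had, hae, haf⟩, ⟨hbc, hbd, hbe, hbf⟩, ⟨hcd, hce, hcf⟩, ⟨hde, hdf⟩, hef⟩ := h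
  exact ⟨⟨hab, hac, had, haf, hae⟩, ⟨hbc, hbd, hbf, hbe⟩, ⟨hcd, hcf, hce⟩, ⟨hdf, hde⟩, Ne.symm hef⟩

/-- mirror image -/
theorem QF0.mirror (h : QF0 T V a b m n e f V1 V2) : QF0 T V a b n m e f V2 V1 where
  nd := nodup_cd h.nd
  dpt := h.dpt.swap34
  arc := by
    obtain ⟨s, t, h1, h2, h3, h4⟩ := h.arc
    refine ⟨s, t, h1, h2, ?_, h4⟩
    rcases h3 with h3 | h3
    · exact Or.inr ⟨h3.2, h3.1⟩
    · exact Or.inl ⟨h3.2, h3.1⟩
  lk1 := h.lk2
  lk2 := h.lk1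
  ord := fun y h1 h2 => (h.ord y h1 h2).symm

theorem QF.mirror (h : QF T V a b m n e f V1 V2) : QF T V a b n m e f V2 V1 :=
  ⟨h.toQF0.mirror, h.inn⟩

theorem QF0.swapEF (h : QF0 T V a b m n e f V1 V2) : QF0 T V a b m n f e V1 V2 :=
  ⟨nodup_ef h.nd, h.dpt, h.arc, h.lk1, h.lk2, h.ord⟩

theorem QF.swapEF (h : QF T V a b m n e f V1 V2) : QF T V a b m n f e V1 V2 :=
  ⟨h.toQF0.swapEF, h.inn⟩

/-- inner and outer colour exchanged -/
theorem QF0.swapAB (h : QF0 T V a b m n e f V1 V2) : QF0 T V b a n m e f V1 V2 where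
  nd := nodup_ab (nodup_cd h.nd)
  dpt := h.dpt.swap12.swap34
  arc := by
    obtain ⟨s, t, h1, h2, h3, h4, h5⟩ := h.arc
    exact ⟨s, t, h1, h2, h3, fun u hu => by rw [h4 u hu, Set.pair_comm],
      fun y g1 g2 g3 => h5 y g1 g3 g2⟩
  lk1 := by
    obtain ⟨g, hg | hg⟩ := h.lk1
    · exact ⟨g, Or.inr hg.swap12⟩
    · exact ⟨g, Or.inl hg.swap12⟩
  lk2 := by
    obtain ⟨g, hg | hg⟩ := h.lk2
    · exact ⟨g, Or.inr hg.swap12⟩
    · exact ⟨g, Or.inl hg.swap12⟩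
  ord := h.ord

/-! ### first consequences -/

theorem QF0.pal (h : QF0 T V a b m n e f V1 V2) : T V = {a, b, m, n} := h.dpt.pal

theorem card4 {z : ℂ} {a b c d : Fin 6} (h : DPt T z a b c d) : (T z).ncard = 4 := by
  rw [h.pal, Set.ncard_insert_of_notMem, Set.ncard_insert_of_notMem, Set.ncard_pair h.cd]
  · simp only [mem_insert_iff, mem_singleton_iff, not_or]
    exact ⟨h.bc, h.bd⟩
  · simp only [mem_insert_iff, mem_singleton_iff, not_or]
    exact ⟨h.ab, h.ac, h.ad⟩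

theorem QF0.ord0 (h : QF0 T V a b m n e f V1 V2) : (T V).ncard = 4 := card4 h.dpt

theorem QF0.ord1 (h : QF0 T V a b m n e f V1 V2) : (T V1).ncard = 4 := by
  obtain ⟨g, hg | hg⟩ := h.lk1 <;> exact card4 hg

theorem QF0.ord2 (h : QF0 T V a b m n e f V1 V2) : (T V2).ncard = 4 := h.mirror.ord1

theorem QF0.dist1 (h : QF0 T V a b m n e f V1 V2) : dist V1 V = 1 := by
  obtain ⟨s, t, -, -, ⟨h1, -⟩ | ⟨h1, -⟩, -⟩ := h.arc <;> rw [h1] <;> exact dist_pt _ _

theorem QF0.dist2 (h : QF0 T V a b m n e f V1 V2) : dist V2 V = 1 := h.mirror.dist1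

theorem QF0.dist12 (h : QF0 T V a b m n e f V1 V2) : dist V1 V2 < 1 := by
  obtain ⟨s, t, h1, h2, ⟨h3, h4⟩ | ⟨h3, h4⟩, -⟩ := h.arc <;> rw [h3, h4] <;>
    exact H383.dist_pt_lt V (abs_lt.2 ⟨by linarith, by linarith⟩)

theorem cos_lt_one {x : ℝ} (h1 : 0 < x) (h2 : x ≤ Real.pi) : Real.cos x < 1 := by
  have := Real.cos_lt_cos_of_nonneg_of_le_pi le_rfl h2 h1
  rwa [Real.cos_zero] at this

/-- different angles at most 180 degrees apart -/
theorem pt_ne {s t : ℝ} (h1 : s < t) (h2 : t ≤ s + 3) : pt V s ≠ pt V t := by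
  intro h3
  have h4 := H383.sq_dist_pt V t s
  rw [h3, dist_self] at h4
  have hpi := Real.pi_pos
  have h5 : Real.cos ((t - s) * (Real.pi / 3)) < 1 := by
    refine cos_lt_one ?_ ?_
    · exact mul_pos (by linarith) (by positivity)
    · nlinarith
  norm_num at h4
  linarith

theorem QF0.ne12 (h : QF0 T V a b m n e f V1 V2) : V1 ≠ V2 := by
  obtain ⟨s, t, h1, h2, ⟨h3, h4⟩ | ⟨h3, h4⟩, -⟩ := h.arc <;> rw [h3, h4]
  · exact (pt_ne h1 (by linarith)).symm
  · exact pt_ne h1 (by linarith)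

theorem QF0.ne1 (h : QF0 T V a b m n e f V1 V2) : V1 ≠ V := by
  intro h1
  have := h.dist1
  rw [h1, dist_self] at this
  exact zero_ne_one this

/-- the exact points -/
theorem ex_sub {s t : ℝ}
    (hst : ∀ y, dist y V = 1 → a ∈ T y → b ∈ T y → y ∈ pt V '' Icc s t) :
    Ex T V {a, b} ⊆ pt V '' Icc s t := by
  intro y hy
  have h1 := ex_self hy
  exact hst y hy.1 (by rw [h1]; simp) (by rw [h1]; simp)

/-- the interior of the arc is exact -/
theorem QF0.ex_int (h : QF0 T V a b m n e f V1 V2) {y : ℂ} (h1 : dist y V = 1) (h2 : a ∈ T y)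
    (h3 : b ∈ T y) (h4 : y ≠ V1) (h5 : y ≠ V2) : T y = {a, b} := by
  obtain ⟨s, t, g1, g2, g3, g4, g5⟩ := h.arc
  obtain ⟨u, hu, rfl⟩ := g5 y h1 h2 h3
  refine g4 u ⟨lt_of_le_of_ne hu.1 ?_, lt_of_le_of_ne hu.2 ?_⟩
  · rintro rfl
    rcases g3 with ⟨g6, g7⟩ | ⟨g6, g7⟩
    · exact h5 g7.symm
    · exact h4 g6.symm
  · rintro rfl
    rcases g3 with ⟨g6, g7⟩ | ⟨g6, g7⟩
    · exact h4 g6.symm
    · exact h5 g7.symm

theorem QF0.ex_iff (h : Irr U T) (hV : QF0 T V a b m n e f V1 V2) {y : ℂ} :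
    y ∈ Ex T V {a, b} ↔ dist y V = 1 ∧ T y = {a, b} := by
  refine ⟨fun hy => ⟨hy.1, ex_self hy⟩, fun hy => ⟨hy.1, ?_⟩⟩
  have h1 := H383.XA_open h hV.dpt (x := y) hy
  filter_upwards [mem_nhdsWithin_of_mem_nhds h1, self_mem_nhdsWithin] with q h2 h3
  exact (h2 h3).2

/-- the points with the connecting colours are the closed arc, the closure of the exact points -/
theorem QF0.arc' (h : Irr U T) (hV : QF0 T V a b m n e f V1 V2) : ∃ s t : ℝ, s < t ∧ t < s + 1 ∧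
    (V1 = pt V t ∧ V2 = pt V s ∨ V1 = pt V s ∧ V2 = pt V t) ∧
    (∀ u ∈ Ioo s t, pt V u ∈ Ex T V {a, b}) ∧ closure (Ex T V {a, b}) = pt V '' Icc s t := by
  obtain ⟨s, t, h1, h2, h3, h4, h5⟩ := hV.arc
  have h6 : ∀ u ∈ Ioo s t, pt V u ∈ Ex T V {a, b} := fun u hu =>
    (hV.ex_iff h).2 ⟨dist_pt _ _, h4 u hu⟩
  refine ⟨s, t, h1, h2, h3, h6, ?_⟩
  refine Subset.antisymm (H383.closure_arc (ex_sub h5)) ?_
  rw [← closure_Ioo h1.ne]
  refine (image_closure_subset_closure_image (continuous_pt V)).trans (closure_mono ?_)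
  rintro _ ⟨u, hu, rfl⟩
  exact h6 u hu

theorem QF0.mem1 (h : Irr U T) (hV : QF0 T V a b m n e f V1 V2) :
    V1 ∈ closure (Ex T V {a, b}) := by
  obtain ⟨s, t, h1, -, h3, -, h5⟩ := hV.arc' h
  rw [h5]
  rcases h3 with h3 | h3
  · exact ⟨t, ⟨h1.le, le_rfl⟩, h3.1.symm⟩
  · exact ⟨s, ⟨le_rfl, h1.le⟩, h3.1.symm⟩

theorem QF0.mem2 (h : Irr U T) (hV : QF0 T V a b m n e f V1 V2) :
    V2 ∈ closure (Ex T V {a, b}) := hV.mirror.mem1 h

/-- points of the arc are at distance at most one -/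
theorem QF0.diam (h : Irr U T) (hV : QF0 T V a b m n e f V1 V2) {p q : ℂ}
    (hp : p ∈ closure (Ex T V {a, b})) (hq : q ∈ closure (Ex T V {a, b})) : dist p q < 1 := by
  obtain ⟨s, t, h1, h2, -, -, h5⟩ := hV.arc' h
  rw [h5] at hp hq
  obtain ⟨x, hx, rfl⟩ := hp
  obtain ⟨y, hy, rfl⟩ := hq
  exact H383.dist_pt_lt V (abs_lt.2 ⟨by linarith [hx.1, hy.2], by linarith [hx.2, hy.1]⟩)

/-- the points of the closed arc : ends or exact -/
theorem QF0.cases (h : Irr U T) (hV : QF0 T V a b m n e f V1 V2) {p : ℂ}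
    (hp : p ∈ closure (Ex T V {a, b})) : p = V1 ∨ p = V2 ∨ T p = {a, b} := by
  by_cases h1 : p = V1
  · exact Or.inl h1
  by_cases h2 : p = V2
  · exact Or.inr (Or.inl h2)
  have h3 := sub_of_closure h hp
  exact Or.inr (Or.inr (hV.ex_int (dist_of_closure hp) (h3 (by simp)) (h3 (by simp)) h1 h2))

/-- a point of `S(V)` is in the closed arc or has at most three colours -/
theorem QF0.le3 (h : Irr U T) (hV : QF0 T V a b m n e f V1 V2) {p : ℂ} (hp : dist p V = 1) :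
    p ∈ closure (Ex T V {a, b}) ∨ (T p).ncard ≤ 3 := by
  rcases le_or_gt (T p).ncard 3 with h1 | h1
  · exact Or.inr h1
  · rcases hV.ord p hp h1 with rfl | rfl
    · exact Or.inl (hV.mem1 h)
    · exact Or.inl (hV.mem2 h)

end Vale.Agent.P032.H961
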