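import Vale.Agent.P032.H961.DHa
import Vale.Agent.P032.H564.IntHt

/-!
# P032, row D2 of the degree theorem: an end of the arc is not harmless

`V` two-pair with pairs `{a, b}`, `{c, d}`, one exact `ab`-arc, its two ends the only points of `S(V)`
with four colours; at the end `y` at most two points of `S(y)` have four colours.  `RowD2` of H800:
`y` is not harmless.  Proof by heights of the letters `e`, `f`, `cd` off the arc (H564).
-/

open Set Filter Topology Metric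

noncomputable section

namespace Vale.Agent.P032.H961

open Vale.Agent.P032.Six Vale.Agent.P032.S5.H767 Vale.Agent.P032.H564

variable {U : Fin 6 → Set ℂ} {T : ℂ → Set (Fin 6)} {V : ℂ} {P : ℝ → ℂ} {α : ℝ}
  {a b c d e f g : Fin 6}

theorem card_dpt (hV : DPt T V a b c d) : (T V).ncard = 4 := by
  rw [hV.pal, Set.ncard_insert_of_notMem, Set.ncard_insert_of_notMem, Set.ncard_pair hV.cd]
  · simp only [mem_insert_iff, mem_singleton_iff, not_or]; exact ⟨hV.bc, hV.bd⟩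
  · simp only [mem_insert_iff, mem_singleton_iff, not_or]; exact ⟨hV.ab, hV.ac, hV.ad⟩

/-- the labels off the arc -/
def mm : Fin 3 → Fin 4 := ![0, 1, 3]

theorem mm_ne : ∀ {l m : Fin 3}, l ≠ m → mm l ≠ mm m := by decide

theorem mm_surj : ∀ l : Fin 4, l ≠ 2 → ∃ l', mm l' = l := by decide

/-- the letters off the arc: `0 = e`, `1 = f`, `2` = exact `cd` -/
def Qd (T : ℂ → Set (Fin 6)) (V : ℂ) (a b c d e f : Fin 6) (P : ℝ → ℂ) (u : ℝ) : Set (Fin 3) :=
  {l | P u ∈ Lt T V a b c d e f (mm l)}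

/-- the data of the arc with the end `P 0` -/
structure Ar (U : Fin 6 → Set ℂ) (T : ℂ → Set (Fin 6)) (V : ℂ) (a b : Fin 6) (P : ℝ → ℂ) (α : ℝ) :
    Prop where
  irr : Irr U T
  circ : Circ V P
  α0 : 0 < α
  α1 : α ≤ 1
  off : ∀ u ∈ Ioo α 6, P u ∉ closure (Ex T V {a, b})
  three : ∀ u ∈ Ioo α 6, (T (P u)).ncard ≤ 3
  four0 : 4 ≤ (T (P 0)).ncard
  fourα : 4 ≤ (T (P α)).ncard
  n3 : ∀ y1 y2 y3, dist y1 (P 0) = 1 → dist y2 (P 0) = 1 → dist y3 (P 0) = 1 →
    4 ≤ (T y1).ncard → 4 ≤ (T y2).ncard → 4 ≤ (T y3).ncard → y1 = y2 ∨ y1 = y3 ∨ y2 = y3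

theorem qd0 (hC : Circ V P) {u : ℝ} : (0 : Fin 3) ∈ Qd T V a b c d e f P u ↔ e ∈ T (P u) :=
  ⟨fun h => h.2, fun h => ⟨hC.dst u, h⟩⟩

theorem qd1 (hC : Circ V P) {u : ℝ} : (1 : Fin 3) ∈ Qd T V a b c d e f P u ↔ f ∈ T (P u) :=
  ⟨fun h => h.2, fun h => ⟨hC.dst u, h⟩⟩

theorem qd2 {u : ℝ} : (2 : Fin 3) ∈ Qd T V a b c d e f P u ↔ P u ∈ closure (Ex T V {c, d}) :=
  Iff.rfl

theorem inc_aux (C : Ctr U T V a b c d e f) {x x' : ℂ} (hx : dist x V = 1) (hx' : dist x' V = 1)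
    (hxx : dist x x' = 1) (h3 : (T x).ncard ≤ 3) (h3' : (T x').ncard ≤ 3)
    (ho : x ∉ closure (Ex T V {a, b}))
    (hs : ∀ l : Fin 3, x ∈ Lt T V a b c d e f (mm l) → x' ∈ Lt T V a b c d e f (mm l)) : False := by
  by_cases h1 : ∃ l m, l ≠ m ∧ x ∈ Lt T V a b c d e f (mm l) ∧ x ∈ Lt T V a b c d e f (mm m)
  · obtain ⟨l, m, hlm, hl, hm⟩ := h1
    exact C.noswap (mm_ne hlm) hxx h3 h3' hl hm (hs l hl) (hs m hm)
  · push Not at h1
    have hne : ∀ m : Fin 4, x ∈ Lt T V a b c d e f m → m ≠ 2 := by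
      rintro m hm rfl
      exact ho hm
    obtain ⟨l, hl⟩ := C.cover hx
    obtain ⟨l', hl'⟩ := mm_surj l (hne l hl)
    subst hl'
    refine C.int hx (fun m hm => ?_) hx' hxx (hs l' hl)
    obtain ⟨m', hm'⟩ := mm_surj m (hne m hm)
    subst hm'
    by_contra hcon
    exact h1 m' l' (fun h2 => hcon (by rw [h2])) hm hl

theorem Ar.intCov (A : Ar U T V a b P α) (C : Ctr U T V a b c d e f) :
    IntCov (Qd T V a b c d e f P) α 6 where
  ne t ht := by
    obtain ⟨l, hl⟩ := C.cover (A.circ.dst t)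
    have h2 : l ≠ 2 := by
      rintro rfl
      exact A.off t ht hl
    obtain ⟨l', hl'⟩ := mm_surj l h2
    subst hl'
    exact ⟨l', hl⟩
  nu t ht := by
    by_contra hcon
    push Not at hcon
    have h0 : P t ∈ Lt T V a b c d e f (mm 0) := hcon 0
    have h1 : P t ∈ Lt T V a b c d e f (mm 1) := hcon 1
    have h2 : P t ∈ Lt T V a b c d e f (mm 2) := hcon 2
    rcases C.two (A.three t ht) h0 h1 h2 with h | h | h
    · exact absurd h (by decide)
    · exact absurd h (by decide)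
    · exact absurd h (by decide)
  usc t _ := by
    have h1 : ∀ l : Fin 3, l ∉ Qd T V a b c d e f P t → ∀ᶠ s in 𝓝 t, l ∉ Qd T V a b c d e f P s :=
      fun l hl => ((Lt_closed C.irr (mm l)).preimage A.circ.cont).isOpen_compl.mem_nhds hl
    have h2 : ∀ᶠ s in 𝓝 t, ∀ l : Fin 3, l ∉ Qd T V a b c d e f P t →
        l ∉ Qd T V a b c d e f P s := by
      rw [eventually_all]
      intro l
      by_cases hl : l ∈ Qd T V a b c d e f P t
      · exact Eventually.of_forall fun s k => absurd hl k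
      · filter_upwards [h1 l hl] with s hs _
        exact hs
    filter_upwards [h2] with s hs l hl
    by_contra hcon
    exact hs l hcon hl
  inc t h1 h2 := fun hs => inc_aux C (A.circ.dst t) (A.circ.dst (t + 1)) (A.circ.one t)
    (A.three t ⟨h1, by linarith⟩) (A.three (t + 1) ⟨by linarith, h2⟩)
    (A.off t ⟨h1, by linarith⟩) fun l hl => hs hl
  inc' t h1 h2 := fun hs => inc_aux C (A.circ.dst (t + 1)) (A.circ.dst t)
    (by rw [dist_comm]; exact A.circ.one t) (A.three (t + 1) ⟨by linarith, h2⟩)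
    (A.three t ⟨h1, by linarith⟩) (A.off (t + 1) ⟨by linarith, h2⟩) fun l hl => hs hl

/-- the partner of a meeting point -/
theorem Ar.meet (A : Ar U T V a b P α) (hV : DPt T V a b c d) (hg : g ∉ T V)
    (hcov : ∀ q, dist q (P 0) = 1 → g ∈ T q ∨ c ∈ T q ∨ d ∈ T q) {s : ℝ} (hs : s ∈ Ioo α 6)
    (h2 : P s ∈ closure (Ex T V {c, d})) (hgs : g ∈ T (P s)) :
    4 ≤ (T (P s + P 0 - V)).ncard ∧ P s + P 0 - V ≠ V :=
  meet4 A.irr hV (A.circ.dst 0) A.four0 hg hcov h2 hgs (A.three s hs)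

theorem Ar.eq_of (A : Ar U T V a b P α) (hV4 : 4 ≤ (T V).ncard) {s s' : ℝ} (hs : s ∈ Ioo α 6)
    (hs' : s' ∈ Ioo α 6) (h : 4 ≤ (T (P s + P 0 - V)).ncard ∧ P s + P 0 - V ≠ V)
    (h' : 4 ≤ (T (P s' + P 0 - V)).ncard ∧ P s' + P 0 - V ≠ V) : s = s' := by
  have k1 : dist V (P 0) = 1 := by rw [dist_comm]; exact A.circ.dst 0
  rcases A.n3 V (P s + P 0 - V) (P s' + P 0 - V) k1 (by rw [dist_partner']; exact A.circ.dst s)
    (by rw [dist_partner']; exact A.circ.dst s') hV4 h.1 h'.1 with h1 | h1 | h1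
  · exact absurd h1.symm h.2
  · exact absurd h1.symm h'.2
  · have h2 : P s = P s' := by linear_combination h1
    have hα := A.α0
    rcases lt_trichotomy s s' with h3 | h3 | h3
    · exact absurd h2 (A.circ.inj s s' h3 (by linarith [hs.1, hs'.2]))
    · exact h3
    · exact absurd h2.symm (A.circ.inj s' s h3 (by linarith [hs'.1, hs.2]))

/-- the meeting direction is unique -/
theorem Ar.delta (A : Ar U T V a b P α) (hV4 : 4 ≤ (T V).ncard) (M : ℝ → Prop)
    (hM : ∀ s ∈ Ioo α 6, M s → 4 ≤ (T (P s + P 0 - V)).ncard ∧ P s + P 0 - V ≠ V) :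
    ∃ δ, ∀ s ∈ Ioo α 6, M s → s = δ := by
  by_cases hex : ∃ s ∈ Ioo α 6, M s
  · obtain ⟨δ, hδ, hMδ⟩ := hex
    exact ⟨δ, fun s hs hMs => A.eq_of hV4 hs hδ (hM s hs hMs) (hM δ hδ hMδ)⟩
  · push Not at hex
    exact ⟨0, fun s hs hMs => absurd hMs (hex s hs)⟩

/-- an arc of length one: no meeting beyond the direction two -/
theorem Ar.no_meet (A : Ar U T V a b P α) (hV4 : 4 ≤ (T V).ncard) (hα : α = 1) {s : ℝ}
    (hs : s ∈ Ioo 2 6) (h : 4 ≤ (T (P s + P 0 - V)).ncard ∧ P s + P 0 - V ≠ V) : False := by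
  have k1 : dist V (P 0) = 1 := by rw [dist_comm]; exact A.circ.dst 0
  have k2 : dist (P 1) (P 0) = 1 := by
    have := A.circ.one 0
    rw [zero_add] at this
    rw [dist_comm]
    exact this
  have k3 : 4 ≤ (T (P 1)).ncard := hα ▸ A.fourα
  have k4 := A.circ.sum 0
  rw [zero_add, zero_add] at k4
  rcases A.n3 V (P 1) (P s + P 0 - V) k1 k2 (by rw [dist_partner']; exact A.circ.dst s) hV4 k3 h.1
    with h1 | h1 | h1
  · have h2 := A.circ.dst 1
    rw [← h1, dist_self] at h2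
    exact zero_ne_one h2
  · exact h.2 h1.symm
  · have h2 : P s = P 2 := by linear_combination -h1 - k4
    exact A.circ.inj 2 s hs.1 (by linarith [hs.2]) h2.symm

/-- near the end the palettes are inside the palette of the end -/
theorem Ar.near6 (A : Ar U T V a b P α) : ∀ᶠ t in 𝓝[<] (6 : ℝ), T (P t) ⊆ T (P 0) := by
  have h1 : P 6 = P 0 := by
    have := A.circ.six 0
    rwa [zero_add] at this
  have h2 := A.circ.cont.continuousAt (x := 6)
  rw [ContinuousAt, h1] at h2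
  exact (h2.mono_left nhdsWithin_le_nhds).eventually (A.irr.nhd (P 0))

theorem Ar.ev6 (A : Ar U T V a b P α) : ∀ᶠ t in 𝓝[<] (6 : ℝ), t ∈ Ioo α 6 := by
  have h1 := A.α1
  filter_upwards [Ioo_mem_nhdsLT (show α < 6 by linarith)] with t ht
  exact ht

/-- **first type** : before the end only `f`, and `e`, `cd` meet at most at one direction -/
theorem Ar.typeK (A : Ar U T V a b P α) (hV : DPt T V a b c d) (hnd : [a, b, c, d, e, f].Nodup)
    (hcov : ∀ q, dist q (P 0) = 1 → e ∈ T q ∨ c ∈ T q ∨ d ∈ T q)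
    (hf : ∀ᶠ t in 𝓝[<] (6 : ℝ), f ∈ T (P t)) : False := by
  have C := ctr_of_dpt A.irr hV hnd
  have hI := A.intCov C
  have hV4 : 4 ≤ (T V).ncard := (card_dpt hV).ge
  have heV : e ∉ T V := by
    intro he
    have h1 := C.nd
    rw [hV.pal] at he
    simp only [List.nodup_cons, List.mem_cons, List.not_mem_nil, or_false, not_or,
      List.nodup_nil, and_true, not_false_eq_true] at h1
    obtain ⟨⟨-, -, -, hae, -⟩, ⟨-, -, hbe, -⟩, ⟨-, hce, -⟩, ⟨hde, -⟩, -⟩ := h1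
    rcases he with he | he | he | he
    · exact hae he.symm
    · exact hbe he.symm
    · exact hce he.symm
    · rw [mem_singleton_iff] at he; exact hde he.symm
  have hM : ∀ s ∈ Ioo α 6, (0 ∈ Qd T V a b c d e f P s ∧ 2 ∈ Qd T V a b c d e f P s) →
      4 ≤ (T (P s + P 0 - V)).ncard ∧ P s + P 0 - V ≠ V := fun s hs h =>
    A.meet hV heV hcov hs h.2 h.1.2
  rcases A.α1.lt_or_eq with h1 | h1
  · obtain ⟨δ, hδ⟩ := A.delta hV4 _ hM
    obtain ⟨t, ht, ht2⟩ := (hf.and (Ioo_mem_nhdsLT (show α + 5 < 6 by linarith))).exists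
    exact H564.a1' hI (l0 := 0) (l1 := 1) (l2 := 2) (by decide) (by decide) (by decide)
      (fun s hs h0 h2 => hδ s hs ⟨h0, h2⟩) ht2.1 ht2.2 ⟨A.circ.dst t, ht⟩
  · refine H564.a4 hI (l0 := 0) (l1 := 1) (l2 := 2) (by decide) (by decide) (by decide) (c := 2)
      (fun s hs h2 => ?_) (by linarith) (by norm_num)
    exact A.no_meet hV4 h1 hs (hM s ⟨by linarith [hs.1, A.α1], hs.2⟩ h2)

end Vale.Agent.P032.H961
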