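import Vale.Agent.P032.H961.DH
import Vale.Agent.P032.S5.H585.Pinch

/-!
# P032, row D2 of the degree theorem: an end of the arc is not harmless, conclusion

the three types of the palette and the pair of a harmless end; the data of the arc from the
parametrization (`ar_of`).
-/

open Set Filter Topology Metric

noncomputable section

namespace Vale.Agent.P032.H961

open Vale.Agent.P032.Six Vale.Agent.P032.S5.H767 Vale.Agent.P032.H564

variable {U : Fin 6 → Set ℂ} {T : ℂ → Set (Fin 6)} {V : ℂ} {P : ℝ → ℂ} {α : ℝ}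
  {a b c d e f g x : Fin 6} {B : Set (Fin 6)}

theorem free_notMem (hV : DPt T V a b c d) (hnd : [a, b, c, d, e, f].Nodup) :
    e ∉ T V ∧ f ∉ T V := by
  rw [hV.pal]
  simp only [List.nodup_cons, List.mem_cons, List.not_mem_nil, or_false, not_or,
    List.nodup_nil, and_true, not_false_eq_true] at hnd
  obtain ⟨⟨-, -, -, hae, haf⟩, ⟨-, -, hbe, hbf⟩, ⟨-, hce, hcf⟩, ⟨hde, hdf⟩, -⟩ := hnd
  constructor
  · rintro (h | h | h | h)
    · exact hae h.symm
    · exact hbe h.symm
    · exact hce h.symm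
    · rw [mem_singleton_iff] at h; exact hde h.symm
  · rintro (h | h | h | h)
    · exact haf h.symm
    · exact hbf h.symm
    · exact hcf h.symm
    · rw [mem_singleton_iff] at h; exact hdf h.symm

/-- the colours on the circle of a harmless point with the palette `{a, b, e, f}` -/
theorem covH (hnd : [a, b, c, d, e, f].Nodup) {y : ℂ} (hT : T y = {a, b, e, f})
    (hB : Six.Harm T y B) {q : ℂ} (hq : dist q y = 1) : B ⊆ T q ∨ c ∈ T q ∨ d ∈ T q := by
  by_cases hs : T q ⊆ T y
  · exact Or.inl (hB.h1 q hq hs)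
  · rw [not_subset] at hs
    obtain ⟨i, hi, hi'⟩ := hs
    rw [hT] at hi'
    simp only [mem_insert_iff, mem_singleton_iff, not_or] at hi'
    rcases six_cases hnd i with h | h | h | h | h | h
    · exact absurd h hi'.1
    · exact absurd h hi'.2.1
    · exact Or.inr (Or.inl (h ▸ hi))
    · exact Or.inr (Or.inr (h ▸ hi))
    · exact absurd h hi'.2.2.1
    · exact absurd h hi'.2.2.2

/-- the same for `{a, b, c, f}` -/
theorem covK (hnd : [a, b, c, d, e, f].Nodup) {y : ℂ} (hT : T y = {a, b, c, f})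
    (hB : Six.Harm T y B) (hc : c ∈ B) {q : ℂ} (hq : dist q y = 1) :
    e ∈ T q ∨ c ∈ T q ∨ d ∈ T q := by
  by_cases hs : T q ⊆ T y
  · exact Or.inr (Or.inl (hB.h1 q hq hs hc))
  · rw [not_subset] at hs
    obtain ⟨i, hi, hi'⟩ := hs
    rw [hT] at hi'
    simp only [mem_insert_iff, mem_singleton_iff, not_or] at hi'
    rcases six_cases hnd i with h | h | h | h | h | h
    · exact absurd h hi'.1
    · exact absurd h hi'.2.1
    · exact absurd h hi'.2.2.1
    · exact Or.inr (Or.inr (h ▸ hi))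
    · exact Or.inl (h ▸ hi)
    · exact absurd h hi'.2.2.2

/-- palette `{a, b, c, f}` -/
theorem Ar.endK (A : Ar U T V a b P α) (hV : DPt T V a b c d) (hnd : [a, b, c, d, e, f].Nodup)
    (hT : T (P 0) = {a, b, c, f}) (hB : Six.Harm T (P 0) B) (hc : c ∈ B) : False := by
  have C := ctr_of_dpt A.irr hV hnd
  refine A.typeK hV hnd (fun q hq => covK hnd hT hB hc hq) ?_
  have hnd' := hnd
  simp only [List.nodup_cons, List.mem_cons, List.not_mem_nil, or_false, not_or,
    List.nodup_nil, and_true, not_false_eq_true] at hnd'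
  obtain ⟨⟨hab, hac, had, hae, haf⟩, ⟨hbc, hbd, hbe, hbf⟩, ⟨hcd, hce, hcf⟩, ⟨hde, hdf⟩, hef⟩ := hnd'
  filter_upwards [A.near6, A.ev6] with t h1 h2
  rw [hT] at h1
  obtain ⟨l, hl⟩ := C.cover (A.circ.dst t)
  fin_cases l
  · exfalso
    rcases h1 hl.2 with h | h | h | h
    · exact hae h.symm
    · exact hbe h.symm
    · exact hce h.symm
    · exact hef h
  · exact hl.2
  · exact absurd hl (A.off t h2)
  · exfalso
    have h3 : d ∈ T (P t) := sub_of_closure A.irr hl (by simp)
    rcases h1 h3 with h | h | h | h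
    · exact had h.symm
    · exact hbd h.symm
    · exact hcd h.symm
    · exact hdf h

/-- palette `{a, b, e, f}`, pair `{x, e}` -/
theorem Ar.endH (A : Ar U T V a b P α) (hV : DPt T V a b c d) (hnd : [a, b, c, d, e, f].Nodup)
    (hT : T (P 0) = {a, b, e, f}) (hB : Six.Harm T (P 0) B) (heB : e ∈ B) (hx : x ∈ B)
    (hxV : x ∈ T V) : False := by
  have C := ctr_of_dpt A.irr hV hnd
  have hI := A.intCov C
  have hV4 : 4 ≤ (T V).ncard := (card_dpt hV).ge
  obtain ⟨heV, hfV⟩ := free_notMem hV hnd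
  have hnd' := hnd
  simp only [List.nodup_cons, List.mem_cons, List.not_mem_nil, or_false, not_or,
    List.nodup_nil, and_true, not_false_eq_true] at hnd'
  obtain ⟨⟨hab, hac, had, hae, haf⟩, ⟨hbc, hbd, hbe, hbf⟩, ⟨hcd, hce, hcf⟩, ⟨hde, hdf⟩, hef⟩ := hnd'
  have hcov : ∀ q, dist q (P 0) = 1 → e ∈ T q ∨ c ∈ T q ∨ d ∈ T q := fun q hq =>
    (covH hnd hT hB hq).imp_left fun h => h heB
  have hM : ∀ s ∈ Ioo α 6, (0 ∈ Qd T V a b c d e f P s ∧ 2 ∈ Qd T V a b c d e f P s) →
      4 ≤ (T (P s + P 0 - V)).ncard ∧ P s + P 0 - V ≠ V := fun s hs h =>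
    A.meet hV heV hcov hs h.2 h.1.2
  rcases A.α1.lt_or_eq with h1 | h1
  · obtain ⟨δ, hδ⟩ := A.delta hV4 _ hM
    have hd : ∀ s ∈ Ioo α 6, 0 ∈ Qd T V a b c d e f P s → 2 ∈ Qd T V a b c d e f P s → s = δ :=
      fun s hs h0 h2 => hδ s hs ⟨h0, h2⟩
    have h1' : ∀ t, α + 5 < t → t < 6 → f ∉ T (P t) := fun t k1 k2 hf =>
      H564.a1' hI (l0 := 0) (l1 := 1) (l2 := 2) (by decide) (by decide) (by decide) hd k1 k2
        ⟨A.circ.dst t, hf⟩
    have hQ : ∀ᶠ t in 𝓝[<] (6 : ℝ), Qd T V a b c d e f P t ⊆ {0} := by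
      filter_upwards [A.near6, Ioo_mem_nhdsLT (show α + 5 < 6 by linarith)] with t k1 k2 l hl
      rw [hT] at k1
      fin_cases l
      · rfl
      · exact absurd hl.2 (h1' t k2.1 k2.2)
      · exfalso
        have h3 : c ∈ T (P t) := sub_of_closure A.irr (P := {c, d}) hl (by simp)
        rcases k1 h3 with h | h | h | h
        · exact hac h.symm
        · exact hbc h.symm
        · exact hce h
        · exact hcf h
    obtain ⟨k1, k2⟩ := H564.a2e hI (l0 := 0) (l1 := 1) (l2 := 2) (by decide) (by decide) (by decide) hd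
      (by linarith) hQ
    have e1 : (6 : ℝ) - 1 = 5 := by norm_num
    have e2 : (6 : ℝ) - 2 = 4 := by norm_num
    rw [e1] at k1
    rw [e2] at k2
    have s6 : P 6 = P 0 := by
      have := A.circ.six 0
      rwa [zero_add] at this
    have s4 : P 4 + P 0 - V = P 5 := by
      have h4 := A.circ.sum 4
      rw [show (4 : ℝ) + 2 = 6 by norm_num, show (4 : ℝ) + 1 = 5 by norm_num, s6] at h4
      linear_combination h4
    have hfp : f ∈ T (P 5) := k1.2
    have hyE : P 0 ∉ Ex T V {c, d} := by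
      intro h3
      have h4 := ex_self h3
      have h5 := A.four0
      rw [h4, Set.ncard_pair hcd] at h5
      omega
    have hBp : B ⊆ T (P 5) := by
      rw [← s4]
      refine prod_closure A.irr (A.circ.dst 0) hyE (fun q hq hP => ?_) k2
      rcases covH hnd hT hB hq with h3 | h3 | h3
      · exact h3
      · exact absurd h3 (hP c (by simp))
      · exact absurd h3 (hP d (by simp))
    have h53 : (T (P 5)).ncard ≤ 3 := A.three 5 ⟨by linarith, by norm_num⟩
    have hxe : x ≠ e := by rintro rfl; exact heV hxV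
    have hxf : x ≠ f := by rintro rfl; exact hfV hxV
    have hTp : T (P 5) = {x, e, f} := by
      symm
      refine Set.eq_of_subset_of_ncard_le ?_ ?_ (Set.toFinite _)
      · rintro i (rfl | rfl | rfl)
        · exact hBp hx
        · exact hBp heB
        · exact hfp
      · rw [Set.ncard_insert_of_notMem, Set.ncard_pair hef]
        · exact h53
        · simp only [mem_insert_iff, mem_singleton_iff, not_or]
          exact ⟨hxe, hxf⟩
    have hsub : T (P 5) ⊆ T (P 0) := by
      rw [hTp]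
      rintro i (rfl | rfl | rfl)
      · exact hB.sub hx
      · exact hB.sub heB
      · rw [hT]; simp
    have h56 : dist (P 5) (P 0) = 1 := by
      have := A.circ.one 5
      rwa [show (5 : ℝ) + 1 = 6 by norm_num, s6] at this
    obtain ⟨j1, j2⟩ := tri (z := V) (y := P 5) (y' := P 0) (A.circ.dst 5) (A.circ.dst 0)
    refine line_free A.irr (z := P 0) (y := P 5) (v := V) (t := x) h56 ?_ (A.circ.dst 5) j1 j2
      (A.irr.sub _ hxV)
    filter_upwards [mem_nhdsWithin_of_mem_nhds (A.irr.nhd (P 5)), self_mem_nhdsWithin]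
      with q h3 h4
    exact hB.h1 q h4 (h3.trans hsub) hx
  · refine H564.a4 hI (l0 := 0) (l1 := 1) (l2 := 2) (by decide) (by decide) (by decide) (c := 2)
      (fun s hs h2 => ?_) (by linarith) (by norm_num)
    exact A.no_meet hV4 h1 hs (hM s ⟨by linarith [hs.1, A.α1], hs.2⟩ h2)

/-- palette `{a, b, e, f}`, pair `{e, f}` -/
theorem Ar.endEF (A : Ar U T V a b P α) (hV : DPt T V a b c d) (hnd : [a, b, c, d, e, f].Nodup)
    (hT : T (P 0) = {a, b, e, f}) (hB : Six.Harm T (P 0) B) (heB : e ∈ B) (hfB : f ∈ B) :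
    False := by
  have C := ctr_of_dpt A.irr hV hnd
  have hI := A.intCov C
  have hV4 : 4 ≤ (T V).ncard := (card_dpt hV).ge
  obtain ⟨heV, hfV⟩ := free_notMem hV hnd
  have hM : ∀ s ∈ Ioo α 6, (2 ∈ Qd T V a b c d e f P s ∧
      (0 ∈ Qd T V a b c d e f P s ∨ 1 ∈ Qd T V a b c d e f P s)) →
      4 ≤ (T (P s + P 0 - V)).ncard ∧ P s + P 0 - V ≠ V := by
    rintro s hs ⟨h2, h0 | h0⟩
    · exact A.meet hV heV (fun q hq => (covH hnd hT hB hq).imp_left fun h => h heB) hs h2 h0.2
    · exact A.meet hV hfV (fun q hq => (covH hnd hT hB hq).imp_left fun h => h hfB) hs h2 h0.2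
  obtain ⟨δ, hδ⟩ := A.delta hV4 _ hM
  exact H564.a3 hI (l0 := 0) (l1 := 1) (l2 := 2) (by decide) (by decide) (by decide)
    (fun s hs h2 h0 => hδ s hs ⟨h2, h0⟩) (by linarith [A.α1])

theorem nodup_swap34 (h : [a, b, c, d, e, f].Nodup) : [a, b, d, c, e, f].Nodup := by
  simp only [List.nodup_cons, List.mem_cons, List.not_mem_nil, or_false, not_or,
    List.nodup_nil, and_true, not_false_eq_true] at h ⊢
  tauto

theorem nodup_swap56 (h : [a, b, c, d, e, f].Nodup) : [a, b, c, d, f, e].Nodup := by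
  simp only [List.nodup_cons, List.mem_cons, List.not_mem_nil, or_false, not_or,
    List.nodup_nil, and_true, not_false_eq_true] at h ⊢
  tauto

/-- the data of the arc from the parametrization -/
theorem ar_of (h : Irr U T) (hV : DPt T V a b c d) {s t : ℝ} (hst : s < t) (hst1 : t ≤ s + 1)
    (hall : ∀ y, dist y V = 1 → T y = {a, b} → y ∈ pt V '' Ioo s t)
    (hs4 : 4 ≤ (T (pt V s)).ncard) (ht4 : 4 ≤ (T (pt V t)).ncard)
    (hord : ∀ y, dist y V = 1 → 4 ≤ (T y).ncard → y = pt V s ∨ y = pt V t) {θ o : ℝ}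
    (ho : (o = 1 ∧ θ = s) ∨ (o = -1 ∧ θ = t))
    (n3 : ∀ y1 y2 y3, dist y1 (pt V θ) = 1 → dist y2 (pt V θ) = 1 → dist y3 (pt V θ) = 1 →
      4 ≤ (T y1).ncard → 4 ≤ (T y2).ncard → 4 ≤ (T y3).ncard → y1 = y2 ∨ y1 = y3 ∨ y2 = y3) :
    Ar U T V a b (fun u => pt V (θ + o * u)) (t - s) := by
  have hC : Circ V fun u => pt V (θ + o * u) :=
    circ_pt V θ (ho.imp (fun h1 => h1.1) fun h1 => h1.1)
  have e0 : θ + o * 0 = θ := by ring
  have hab : (pt V s = pt V (θ + o * 0) ∧ pt V t = pt V (θ + o * (t - s))) ∨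
      (pt V t = pt V (θ + o * 0) ∧ pt V s = pt V (θ + o * (t - s))) := by
    rcases ho with ⟨rfl, rfl⟩ | ⟨rfl, rfl⟩
    · left
      constructor <;> congr 1 <;> ring
    · right
      constructor <;> congr 1 <;> ring
  have hα0 : 0 < t - s := by linarith
  have hne0 : ∀ u ∈ Ioo (t - s) 6, pt V (θ + o * u) ≠ pt V (θ + o * 0) := fun u hu =>
    (hC.inj 0 u (by linarith [hu.1]) (by linarith [hu.2])).symm
  have hneα : ∀ u ∈ Ioo (t - s) 6, pt V (θ + o * u) ≠ pt V (θ + o * (t - s)) := fun u hu =>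
    (hC.inj (t - s) u hu.1 (by linarith [hu.2])).symm
  refine ⟨h, hC, hα0, by linarith, fun u hu hcl => ?_, fun u hu => ?_, ?_, ?_, ?_⟩
  · have h1 : Ex T V {a, b} ⊆ pt V '' Icc s t := fun q hq =>
      image_mono Ioo_subset_Icc_self (hall q hq.1 (ex_self hq))
    have h2 : IsClosed (pt V '' Icc s t) := (isCompact_Icc.image (continuous_pt V)).isClosed
    obtain ⟨v, hv, hv'⟩ := closure_minimal h1 h2 hcl
    -- `v` in the parametrization
    obtain ⟨w, hw, hw'⟩ : ∃ w ∈ Icc 0 (t - s), pt V v = pt V (θ + o * w) := by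
      rcases ho with ⟨rfl, rfl⟩ | ⟨rfl, rfl⟩
      · refine ⟨v - θ, ⟨by linarith [hv.1], by linarith [hv.2]⟩, ?_⟩
        congr 1
        ring
      · refine ⟨θ - v, ⟨by linarith [hv.2], by linarith [hv.1]⟩, ?_⟩
        congr 1
        ring
    exact hC.inj w u (by linarith [hw.2, hu.1]) (by linarith [hw.1, hu.2]) (by
      show pt V (θ + o * w) = pt V (θ + o * u)
      rw [← hw', hv'])
  · by_contra hcon
    have h4 : 4 ≤ (T (pt V (θ + o * u))).ncard := by omega
    rcases hord _ (dist_pt V _) h4 with h1 | h1 <;> rcases hab with ⟨k1, k2⟩ | ⟨k1, k2⟩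
    · exact hne0 u hu (h1.trans k1)
    · exact hneα u hu (h1.trans k2)
    · exact hneα u hu (h1.trans k2)
    · exact hne0 u hu (h1.trans k1)
  · show 4 ≤ (T (pt V (θ + o * 0))).ncard
    rcases hab with ⟨k1, k2⟩ | ⟨k1, k2⟩
    · rw [← k1]; exact hs4
    · rw [← k1]; exact ht4
  · show 4 ≤ (T (pt V (θ + o * (t - s)))).ncard
    rcases hab with ⟨k1, k2⟩ | ⟨k1, k2⟩
    · rw [← k2]; exact ht4
    · rw [← k2]; exact hs4
  · simp only [e0]
    exact n3

end Vale.Agent.P032.H961
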