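import Vale.Agent.P032.H961.WorldF
import Vale.Agent.P032.H383.QFar

/-!
# P032: the circle of a quasi-full point beyond the ends of the connecting arc

* `far_beyond` : the points of `S(V)` beyond the ends of the connecting arc are at distance more than
  one from every complement `u` of a face of `V` with `dist u V < 2`;
* `no_tangent` : sweep argument for the tangent position `u = 2 y - V`.
-/

open Set Filter Topology Metric

noncomputable section

namespace Vale.Agent.P032.H961

open Vale.Agent.P032.Six Vale.Agent.P032.S5.H767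

variable {U : Fin 6 → Set ℂ} {T : ℂ → Set (Fin 6)}
  {V V1 V2 W u : ℂ} {a b m n e g g' e0 f0 e1 f1 : Fin 6} {s : Set (Fin 6)}

/-! ### the points beyond the end of the arc -/

theorem cos_lt {x y : ℝ} (h1 : |x| < |y|) (h2 : |y| ≤ 3) :
    Real.cos (y * (Real.pi / 3)) < Real.cos (x * (Real.pi / 3)) := by
  have hpi := Real.pi_pos
  rw [← Real.cos_abs (x * (Real.pi / 3)), ← Real.cos_abs (y * (Real.pi / 3)), abs_mul,
    abs_mul, abs_of_pos (by positivity : 0 < Real.pi / 3)]
  refine Real.cos_lt_cos_of_nonneg_of_le_pi (by positivity) ?_ ?_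
  · nlinarith
  · exact mul_lt_mul_of_pos_right h1 (by positivity)

/-- a chord of an arc and the two chords to a point beyond the arc -/
theorem sq_chord_lt {s t x y r : ℝ} (hst : t ≤ s + 1) (hx : x ∈ Icc s t) (hy : y ∈ Icc s t)
    (hr : t < r ∧ r ≤ t + 1 ∨ s - 1 ≤ r ∧ r < s) : dist (pt V x) (pt V y) ^ 2 <
      dist (pt V x) (pt V r) ^ 2 + dist (pt V y) (pt V r) ^ 2 := by
  have hle : ∀ r : ℝ, Real.cos (r * (Real.pi / 3)) ≤ 1 := fun r => Real.cos_le_one _
  rw [H383.sq_dist_pt, H383.sq_dist_pt, H383.sq_dist_pt]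
  have h1 := hx.1
  have h2 := hx.2
  have h3 := hy.1
  have h4 := hy.2
  rcases hr with ⟨k1, k2⟩ | ⟨k1, k2⟩
  · rcases le_total x y with h6 | h6
    · have h7 := cos_lt (x := x - y) (y := x - r) (by
        rw [abs_of_nonpos (by linarith), abs_of_nonpos (by linarith)]
        linarith) (by rw [abs_of_nonpos (by linarith)]; linarith)
      have h8 := hle (y - r)
      linarith
    · have h7 := cos_lt (x := x - y) (y := y - r) (by
        rw [abs_of_nonneg (by linarith), abs_of_nonpos (by linarith)]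
        linarith) (by rw [abs_of_nonpos (by linarith)]; linarith)
      have h8 := hle (x - r)
      linarith
  · rcases le_total x y with h6 | h6
    · have h7 := cos_lt (x := x - y) (y := y - r) (by
        rw [abs_of_nonpos (by linarith), abs_of_nonneg (by linarith)]
        linarith) (by rw [abs_of_nonneg (by linarith)]; linarith)
      have h8 := hle (x - r)
      linarith
    · have h7 := cos_lt (x := x - y) (y := x - r) (by
        rw [abs_of_nonneg (by linarith), abs_of_nonneg (by linarith)]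
        linarith) (by rw [abs_of_nonneg (by linarith)]; linarith)
      have h8 := hle (y - r)
      linarith

/-- **the points of the circle beyond the ends of the connecting arc see no complement of a face**
at distance less than two from the centre -/
theorem far_beyond (h : Irr U T) (H : QF0 T V a b m n e0 f0 V1 V2) (F : Fc T u s)
    (hs : s = ({a, b, m} : Set (Fin 6))ᶜ ∨ s = ({a, b, n} : Set (Fin 6))ᶜ) {s0 t0 r : ℝ}
    (hst : t0 ≤ s0 + 1) (hcl : closure (Ex T V {a, b}) = pt V '' Icc s0 t0)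
    (hr : t0 < r ∧ r ≤ t0 + 1 ∨ s0 - 1 ≤ r ∧ r < s0) (h2 : dist u V < 2) :
    1 < dist u (pt V r) := by
  have hne : u ≠ V := by
    rcases hs with hs | hs
    · exact H383.fc_ne F H.dpt.swap34 hs h
    · exact H383.fc_ne F H.dpt hs h
  obtain ⟨p, p', g1, g2, g3, g4, g5, g6, g7, g8⟩ := H678.two_common h2 hne
  have k1 := H383.qf_cv h H F hs g2 g3 g6
  have k2 := H383.qf_cv h H F hs g4 g5 g7
  rw [hcl] at k1 k2
  obtain ⟨x, hx, rfl⟩ := k1
  obtain ⟨y, hy, rfl⟩ := k2
  have h4 := sq_third g3 g5 (dist_pt V r) g8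
  have h5 := sq_chord_lt (V := V) hst hx hy hr
  nlinarith [dist_nonneg (x := u) (y := pt V r)]

/-- the tangent position -/
theorem tangent {y : ℂ} (h1 : dist y V = 1) (h2 : dist u y ≤ 1) (h3 : 2 ≤ dist u V) :
    u = 2 * y - V := by
  have h4 := dist_triangle u y V
  have h5 : dist u V = 2 := by linarith
  have h6 : dist u y = 1 := by linarith
  have e1 := H678.sq_dist' u V
  have e2 := H678.sq_dist' u y
  have e3 := H678.sq_dist' y V
  rw [h5] at e1
  rw [h6] at e2
  rw [h1] at e3
  obtain ⟨A, hA⟩ : ∃ A, A = u - y := ⟨_, rfl⟩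
  obtain ⟨B, hB⟩ : ∃ B, B = y - V := ⟨_, rfl⟩
  have e4 : u - V = A + B := by rw [hA, hB]; ring
  rw [e4] at e1
  rw [← hA] at e2
  rw [← hB] at e3
  have e5 : Complex.normSq (A - B) = 0 := by
    rw [Complex.normSq_apply] at e1 e2 e3 ⊢
    simp only [Complex.add_re, Complex.add_im, Complex.sub_re, Complex.sub_im] at *
    nlinarith
  rw [Complex.normSq_eq_zero, hA, hB] at e5
  linear_combination e5

theorem pt_per (k : ℤ) (v : ℝ) : pt V (v - 6 * k) = pt V v := by
  unfold pt
  have h1 : cis ((v - 6 * k) * (Real.pi / 3)) = cis (v * (Real.pi / 3)) := by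
    have e1 : (v - 6 * k) * (Real.pi / 3) = v * (Real.pi / 3) - k * (2 * Real.pi) := by ring
    unfold cis
    apply Complex.ext
    · rw [Complex.exp_ofReal_mul_I_re, Complex.exp_ofReal_mul_I_re, e1,
        Real.cos_sub_int_mul_two_pi]
    · rw [Complex.exp_ofReal_mul_I_im, Complex.exp_ofReal_mul_I_im, e1,
        Real.sin_sub_int_mul_two_pi]
  rw [h1]

/-- a point of the circle, angle near `r` -/
theorem exists_pt {q : ℂ} (hq : dist q V = 1) (r : ℝ) : ∃ v ∈ Icc (r - 3) (r + 3), q = pt V v := by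
  obtain ⟨w, rfl⟩ : ∃ w, q = pt V w := by
    obtain ⟨t0, ht0⟩ := exists_cis (u := q - V) (by rw [← dist_eq_norm]; exact hq)
    refine ⟨t0 / (Real.pi / 3), ?_⟩
    unfold pt
    rw [div_mul_cancel₀ _ (by positivity : Real.pi / 3 ≠ 0), ← ht0]; ring
  refine ⟨w - 6 * (round ((w - r) / 6) : ℤ), ?_, (pt_per _ w).symm⟩
  have h1 := abs_sub_round ((w - r) / 6)
  rw [abs_le] at h1
  constructor <;> linarith [h1.1, h1.2]

/-- points of the circle near `pt V r` have angles near `r` -/
theorem near_angle {lo hi r : ℝ} (hr : r ∈ Ioo lo hi) :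
    ∀ᶠ q in 𝓝 (pt V r), dist q V = 1 → ∃ v ∈ Ioo lo hi, q = pt V v := by
  have hK : IsCompact (pt V '' (Icc (r - 3) (r + 3) \ Ioo lo hi)) :=
    (isCompact_Icc.diff isOpen_Ioo).image (continuous_pt V)
  have hno : pt V r ∉ pt V '' (Icc (r - 3) (r + 3) \ Ioo lo hi) := by
    rintro ⟨v, ⟨hv1, hv2⟩, hv3⟩
    rcases lt_trichotomy v r with h1 | h1 | h1
    · exact pt_ne h1 (by linarith [hv1.1]) hv3
    · exact hv2 (h1 ▸ hr)
    · exact pt_ne h1 (by linarith [hv1.2]) hv3.symm
  filter_upwards [hK.isClosed.isOpen_compl.mem_nhds hno] with q h1 h2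
  obtain ⟨v, hv, rfl⟩ := exists_pt h2 r
  refine ⟨v, ?_, rfl⟩
  by_contra h3
  exact h1 ⟨v, ⟨hv, h3⟩, rfl⟩

/-- **sweep** : the circle carries the colour `i` near `pt V r`; the tangent point `2 * pt V r - V` is
not a limit of `i`-points of the closed disc about `pt V r` -/
theorem no_tangent (h : Irr U T) {i : Fin 6} {lo hi r : ℝ} (hr : r ∈ Ioo lo hi)
    (hi' : ∀ v ∈ Ioo lo hi, i ∈ T (pt V v))
    (hw : ∃ᶠ w in 𝓝[closedBall (pt V r) 1 \ {2 * pt V r - V}] (2 * pt V r - V), i ∈ T w) :
    False := by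
  obtain ⟨y, hy⟩ : ∃ y, y = pt V r := ⟨_, rfl⟩
  obtain ⟨u, hu⟩ : ∃ u, u = 2 * y - V := ⟨_, rfl⟩
  rw [← hy, ← hu] at hw
  -- a second point of the arc
  obtain ⟨ε, hε, hε1, hε2⟩ : ∃ ε > 0, ε ≤ 1 ∧ r + ε < hi := by
    refine ⟨min 1 ((hi - r) / 2), lt_min one_pos (by linarith [hr.2]), min_le_left _ _, ?_⟩
    have := min_le_right 1 ((hi - r) / 2)
    linarith [hr.2]
  have hpi := Real.pi_pos
  have huV : dist u V = 2 := by
    rw [hu, dist_eq_norm, show 2 * y - V - V = 2 * (y - V) by ring, norm_mul, ← dist_eq_norm, hy,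
      dist_pt]
    norm_num
  have huy : dist u y = 1 := by
    rw [hu, dist_eq_norm, show 2 * y - V - y = y - V by ring, ← dist_eq_norm, hy, dist_pt]
  have hu1 : 1 < dist u (pt V (r + ε)) := by
    have h1 : pt V (r + ε) ≠ y := by
      rw [hy]; exact (pt_ne (by linarith) (by linarith)).symm
    have h2 : dist u V ≤ dist u (pt V (r + ε)) + dist (pt V (r + ε)) V := dist_triangle _ _ _
    rw [dist_pt, huV] at h2
    refine lt_of_le_of_ne (by linarith) fun h3 => h1 ?_
    have h4 := tangent (u := u) (V := V) (dist_pt V (r + ε)) h3.ge huV.ge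
    rw [hu] at h4
    linear_combination (-1 / 2 : ℂ) * h4
  -- the radial projection tends to `y`
  have hcont : ContinuousAt (fun w : ℂ => V + (w - V) / (‖w - V‖ : ℂ)) u := by
    refine continuousAt_const.add ((continuousAt_id.sub continuousAt_const).div ?_ ?_)
    · fun_prop
    · rw [← dist_eq_norm, huV]; norm_num
  have hproj : (fun w : ℂ => V + (w - V) / (‖w - V‖ : ℂ)) u = y := by
    simp only
    rw [← dist_eq_norm, huV, hu]
    push_cast
    ring
  -- points of the circle near `y` are on the arc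
  have hnear : ∀ᶠ q in 𝓝 y, dist q V = 1 → ∃ v ∈ Ioo lo (r + ε), q = pt V v := by
    rw [hy]
    exact near_angle ⟨hr.1, by linarith⟩
  have e1 : ∀ᶠ w in 𝓝 u, 1 < dist w (pt V (r + ε)) :=
    (continuous_id.dist continuous_const).continuousAt.eventually_const_lt hu1
  have e3 : ∀ᶠ w in 𝓝 u, w ≠ V := by
    refine continuousAt_id.eventually_ne ?_
    intro h1
    rw [show u = V from h1, dist_self] at huV
    norm_num at huV
  have e2 : ∀ᶠ w in 𝓝 u, ∃ v ∈ Ioo lo (r + ε), V + (w - V) / (‖w - V‖ : ℂ) = pt V v := by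
    have h1 : Tendsto (fun w : ℂ => V + (w - V) / (‖w - V‖ : ℂ)) (𝓝 u) (𝓝 y) := by
      rw [← hproj]; exact hcont
    filter_upwards [h1.eventually hnear, e3] with w h3 h4
    refine h3 ?_
    have h5 : 0 < ‖w - V‖ := norm_pos_iff.2 (sub_ne_zero.2 h4)
    rw [dist_eq_norm, add_sub_cancel_left, norm_div, Complex.norm_real, norm_norm,
      div_self h5.ne']
  -- the point `w`
  obtain ⟨w, hiw, ⟨hw1, hw2⟩, hwE1, hwV, v, hv, hpv⟩ := (hw.and_eventually
    ((eventually_mem_nhdsWithin).and (eventually_nhdsWithin_of_eventually_nhds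
      (e1.and (e3.and e2))))).exists
  rw [mem_closedBall] at hw1
  have hw3 : dist w V < 2 := by
    by_contra hcon
    push Not at hcon
    have h1 := tangent (u := w) (V := V) (y := y) (by rw [hy]; exact dist_pt _ _) hw1 hcon
    exact hw2 (by rw [hu]; exact h1)
  have hw0 : 0 < dist w V := dist_pos.2 hwV
  have hlt : dist w (pt V v) < 1 := by
    rw [← hpv, dist_eq_norm]
    rw [dist_eq_norm] at hw0 hw3
    have h1 : w - (V + (w - V) / (‖w - V‖ : ℂ)) =
        (w - V) / (‖w - V‖ : ℂ) * ((‖w - V‖ - 1 : ℝ) : ℂ) := by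
      have h2 : (‖w - V‖ : ℂ) ≠ 0 := by exact_mod_cast hw0.ne'
      push_cast
      field_simp
      ring
    rw [h1, norm_mul, norm_div, Complex.norm_real, norm_norm, div_self hw0.ne', one_mul,
      Complex.norm_real, Real.norm_eq_abs, abs_lt]
    constructor <;> linarith
  -- a pure point near `w`
  obtain ⟨w', hw', h1, h2⟩ := ((h.pure w i hiw).and_eventually
    (((continuous_id.dist continuous_const).continuousAt.eventually_lt_const hlt).and
      ((continuous_id.dist continuous_const).continuousAt.eventually_const_lt hwE1))).exists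
  simp only [id] at h1 h2
  -- intermediate value
  have hf : ContinuousOn (fun v => dist w' (pt V v)) (Icc v (r + ε)) :=
    (continuous_const.dist (continuous_pt V)).continuousOn
  obtain ⟨v', hv', h3⟩ := intermediate_value_Icc hv.2.le hf ⟨h1.le, h2.le⟩
  have h4 : w' ∈ U i := h.mem_of_single (by rw [hw'])
  have h5 : i ∈ T (pt V v') := hi' v' ⟨by linarith [hv.1, hv'.1], by linarith [hv'.2]⟩
  simp only at h3
  exact h.mx.notMem' h4 h3 (h.sub _ h5)

end Vale.Agent.P032.H961
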