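import Vale.Agent.P032.H961.XL2
import Vale.Agent.P032.H961.Beyond
import Vale.Agent.P032.S5.H767.Let

/-!
# P032: product rule for two unit circles with centres at distance one, letters off the exact arc

* `exact_free` : the product rule for an exact point `x` of `S(V)`: its colours are absent at
  `x + y - V`;
* `prod_closure` : closure form;
* `meet4` : if `g ∉ T V` and every point of `S(y)` has one of the colours `g, c, d`, a point with three
  colours of `S(V)` with the colour `g` in the closure of the exact `cd`-arcs has a partner on `S(y)` with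
  at least four colours;
* `Circ` : a parametrization of the circle, `Qd` : the letters off the exact `ab`-arc.
-/

open Set Filter Topology Metric

noncomputable section

namespace Vale.Agent.P032.H961

open Vale.Agent.P032.Six Vale.Agent.P032.S5.H767

variable {U : Fin 6 → Set ℂ} {T : ℂ → Set (Fin 6)} {V y x w : ℂ} {a b c d e f g : Fin 6}
  {P : Set (Fin 6)}

theorem ctr_of_dpt (h : Irr U T) (hV : DPt T V a b c d) (hnd : [a, b, c, d, e, f].Nodup) :
    Ctr U T V a b c d e f where
  irr := h
  pal := hV.pal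
  nd := hnd
  pairs y hy hc hs := h.twoPairs hV y hy hc hs

theorem dist_partner (x y V : ℂ) : dist x (x + y - V) = dist y V := by
  rw [dist_eq_norm, dist_eq_norm, ← norm_neg (y - V)]
  congr 1
  ring

theorem dist_partner' (x y V : ℂ) : dist (x + y - V) y = dist x V := by
  rw [dist_eq_norm, dist_eq_norm]
  congr 1
  ring

/-- **product rule** -/
theorem exact_free (h : Irr U T) (hx : x ∈ Ex T V P) (hy : dist y V = 1) (hxy : x ≠ y)
    (hw : x + y - V ≠ V) : ∀ i ∈ P, i ∉ T (x + y - V) := by
  intro i hi hiw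
  refine line_free h hx.1 (t := i) (hx.2.mono fun q hq => by rw [hq]; exact hi)
    (v := x + y - V) (by rw [dist_partner]; exact hy) hw (fun h1 => hxy ?_) (h.sub _ hiw)
  linear_combination -h1

/-- the points of `Ex` are not isolated -/
theorem ex_not_iso (hx : x ∈ Ex T V P) : x ∈ closure (Ex T V P \ {x}) := by
  obtain ⟨u, -, hu⟩ := exists_pt hx.1 0
  have h1 : ∀ᶠ q in 𝓝[sphere V 1] x, q ∈ Ex T V P := ex_open hx
  have h2 : Tendsto (pt V) (𝓝[>] u) (𝓝[sphere V 1] x) := by
    refine tendsto_nhdsWithin_iff.2 ⟨?_, Eventually.of_forall fun v => dist_pt V v⟩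
    have h3 := (continuous_pt V).continuousAt (x := u)
    rw [ContinuousAt, ← hu] at h3
    exact h3.mono_left nhdsWithin_le_nhds
  refine mem_closure_of_tendsto (h2.mono_right nhdsWithin_le_nhds) ?_
  have h3 : ∀ᶠ v in 𝓝[>] u, v < u + 1 :=
    mem_nhdsWithin_of_mem_nhds (Iio_mem_nhds (by linarith))
  filter_upwards [h2.eventually h1, h3, self_mem_nhdsWithin] with v hv hv1 hv2
  have hv2 : u < v := hv2
  refine ⟨hv, fun h4 => ?_⟩
  rw [mem_singleton_iff, hu] at h4
  exact pt_ne (V := V) hv2 (by linarith) h4.symm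

/-- **product rule, closure form** -/
theorem prod_closure (h : Irr U T) {G : Set (Fin 6)} (hy : dist y V = 1) (hyE : y ∉ Ex T V P)
    (hcov : ∀ q, dist q y = 1 → (∀ i ∈ P, i ∉ T q) → G ⊆ T q) (hx : x ∈ closure (Ex T V P)) :
    G ⊆ T (x + y - V) := by
  intro i hi
  have hcl : IsClosed {x' : ℂ | i ∈ T (x' + y - V)} := by
    have h1 : Continuous fun x' : ℂ => x' + y - V := by fun_prop
    exact (h.closed i).preimage h1
  have h1 : {x' | x' ∈ Ex T V P ∧ x' + y - V ≠ V} ⊆ {x' : ℂ | i ∈ T (x' + y - V)} := by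
    rintro x' ⟨h2, h3⟩
    refine hcov _ (by rw [dist_partner']; exact h2.1) (exact_free h h2 hy ?_ h3) hi
    rintro rfl
    exact hyE h2
  have h2 : Ex T V P ⊆ {x' : ℂ | i ∈ T (x' + y - V)} := by
    intro x' hx'
    by_cases h3 : x' + y - V = V
    · refine closure_minimal (fun q hq => h1 ⟨hq.1, fun h4 => hq.2 ?_⟩) hcl (ex_not_iso hx')
      rw [mem_singleton_iff]
      linear_combination h4 - h3
    · exact h1 ⟨hx', h3⟩
  exact closure_minimal h2 hcl hx

/-- **the meeting points** -/
theorem meet4 (h : Irr U T) (hV : DPt T V a b c d) (hy : dist y V = 1) (hy4 : 4 ≤ (T y).ncard)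
    (hg : g ∉ T V) (hcov : ∀ q, dist q y = 1 → g ∈ T q ∨ c ∈ T q ∨ d ∈ T q)
    (hx : x ∈ closure (Ex T V {c, d})) (hgx : g ∈ T x) (h3 : (T x).ncard ≤ 3) :
    4 ≤ (T (x + y - V)).ncard ∧ x + y - V ≠ V := by
  have hxV : dist x V = 1 := dist_of_closure hx
  have hsub := sub_of_closure h hx
  have hcx : c ∈ T x := hsub (by simp)
  have hdx : d ∈ T x := hsub (by simp)
  have hyE : y ∉ Ex T V {c, d} := by
    intro h1
    have h2 := ex_self h1
    rw [h2, Set.ncard_pair hV.cd] at hy4
    omega
  have hgw : g ∈ T (x + y - V) := by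
    refine prod_closure (G := {g}) h hy hyE (fun q hq hP => ?_) hx rfl
    rintro _ rfl
    rcases hcov q hq with h1 | h1 | h1
    · exact h1
    · exact absurd h1 (hP c (by simp))
    · exact absurd h1 (hP d (by simp))
  have hwV : x + y - V ≠ V := fun h1 => hg (h1 ▸ hgw)
  refine ⟨?_, hwV⟩
  by_contra hlt
  have hw3 : (T (x + y - V)).ncard ≤ 3 := by omega
  have hxy : x ≠ y := by rintro rfl; omega
  have hgc : g ≠ c := by rintro rfl; exact hg (by rw [hV.pal]; simp)
  have hgd : g ≠ d := by rintro rfl; exact hg (by rw [hV.pal]; simp)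
  have hTx : T x = {c, d, g} := by
    symm
    refine Set.eq_of_subset_of_ncard_le ?_ ?_ (Set.toFinite _)
    · rintro i (rfl | rfl | rfl) <;> assumption
    · rw [Set.ncard_insert_of_notMem, Set.ncard_pair hgd.symm]
      · exact h3
      · simp only [mem_insert_iff, mem_singleton_iff, not_or]
        exact ⟨hV.cd, hgc.symm⟩
  have key : ∀ i, i ∈ T V → T x ⊆ insert i (T (x + y - V)) → False := by
    intro i hi hs
    rcases h.lemmaX (u := x + y - V) (p := x) (v := V) (t := i)
      (by rw [dist_partner]; exact hy) hw3 hs hxV (h.sub _ hi) with h1 | h1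
    · exact hwV h1.symm
    · exact hxy (by linear_combination -h1)
  have hcd : c ∈ T (x + y - V) ∨ d ∈ T (x + y - V) := by
    by_contra hcon
    push Not at hcon
    refine line_free h (z := y) (y := x + y - V) (v := x) (t := g)
      (by rw [dist_partner']; exact hxV) ?_ (by rw [dist_comm, dist_partner]; exact hy) hxy
      (fun h1 => hwV ?_) (h.sub _ hgx)
    · filter_upwards [mem_nhdsWithin_of_mem_nhds (h.nhd (x + y - V)), self_mem_nhdsWithin]
        with q h1 h2
      rcases hcov q h2 with h4 | h4 | h4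
      · exact h4
      · exact absurd (h1 h4) hcon.1
      · exact absurd (h1 h4) hcon.2
    · linear_combination -h1
  rcases hcd with h1 | h1
  · refine key d (by rw [hV.pal]; simp) ?_
    rw [hTx]
    rintro i (rfl | rfl | rfl)
    · exact Or.inr h1
    · exact Or.inl rfl
    · exact Or.inr hgw
  · refine key c (by rw [hV.pal]; simp) ?_
    rw [hTx]
    rintro i (rfl | rfl | rfl)
    · exact Or.inl rfl
    · exact Or.inr h1
    · exact Or.inr hgw

/-! ### The circle -/

/-- a parametrization of `S(V)` by angles (unit 60 degrees) -/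
structure Circ (V : ℂ) (P : ℝ → ℂ) : Prop where
  dst : ∀ u, dist (P u) V = 1
  cont : Continuous P
  six : ∀ u, P (u + 6) = P u
  one : ∀ u, dist (P u) (P (u + 1)) = 1
  sum : ∀ u, P u + P (u + 2) = P (u + 1) + V
  inj : ∀ u v, u < v → v < u + 6 → P u ≠ P v
  surj : ∀ x, dist x V = 1 → ∀ r, ∃ v ∈ Icc (r - 3) (r + 3), x = P v

theorem pt_ne6 {s t : ℝ} (h1 : s < t) (h2 : t < s + 6) : pt V s ≠ pt V t := by
  rcases le_or_gt t (s + 3) with h3 | h3
  · exact pt_ne h1 h3
  · intro h4
    refine pt_ne (V := V) (s := t) (t := s + 6) h2 (by linarith) ?_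
    rw [pt_six, h4]

theorem circ_pt (V : ℂ) (θ : ℝ) {o : ℝ} (ho : o = 1 ∨ o = -1) :
    Circ V fun u => pt V (θ + o * u) where
  dst u := dist_pt V _
  cont := (continuous_pt V).comp (by fun_prop)
  six u := by
    rcases ho with rfl | rfl
    · have : θ + 1 * (u + 6) = θ + 1 * u + 6 := by ring
      simp only [this, pt_six]
    · have : θ + -1 * u = θ + -1 * (u + 6) + 6 := by ring
      simp only [this, pt_six]
  one u := by
    rcases ho with rfl | rfl
    · have : θ + 1 * (u + 1) = θ + 1 * u + 1 := by ring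
      simp only [this]
      exact dist_pt_one V _
    · have : θ + -1 * u = θ + -1 * (u + 1) + 1 := by ring
      simp only [this]
      rw [dist_comm]
      exact dist_pt_one V _
  sum u := by
    rcases ho with rfl | rfl
    · have e1 : θ + 1 * (u + 1) = θ + 1 * u + 1 := by ring
      have e2 : θ + 1 * (u + 2) = θ + 1 * u + 2 := by ring
      simp only [e1, e2]
      exact pt_sum V _
    · have e1 : θ + -1 * (u + 1) = θ + -1 * (u + 2) + 1 := by ring
      have e2 : θ + -1 * u = θ + -1 * (u + 2) + 2 := by ring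
      simp only [e1, e2]
      rw [add_comm]
      exact pt_sum V _
  inj u v h1 h2 := by
    rcases ho with rfl | rfl
    · exact pt_ne6 (by linarith) (by linarith)
    · exact (pt_ne6 (by linarith) (by linarith)).symm
  surj x hx r := by
    obtain ⟨v, hv, hxv⟩ := exists_pt hx (θ + o * r)
    rcases ho with rfl | rfl
    · refine ⟨v - θ, ⟨by linarith [hv.1], by linarith [hv.2]⟩, ?_⟩
      rw [hxv]
      congr 1
      ring
    · refine ⟨θ - v, ⟨by linarith [hv.2], by linarith [hv.1]⟩, ?_⟩
      rw [hxv]
      congr 1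
      ring

end Vale.Agent.P032.H961
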