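import Vale.Agent.P032.H961.QF
import Vale.Agent.P032.H678.VW2

/-!
# P032: three-points whose palette is complementary to a face of a quasi-full point

`V` quasi-full with the connecting pair `a, b` and the other pair `m, n` (`QF0`), ends `V1`, `V2`;
`u` with the palette `{a, b, n}ᶜ` (or `{a, b, m}ᶜ`: use `QF0.mirror`).

* `contacts` : if `dist u V < 2`, both common points of the circles are on the closed arc of `V`;
* `far` : `3 ≤ dist u V ^ 2`;
* `far_end` : `1 ≤ dist u V1` : the complements of the faces of `V` are absent in the open discs of its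
  two neighbours (row V_(±1));
* `no_two` (X.CONT.3) : `V1` quasi-full and `u` complementary to a face of `V` and to a face of `V1` :
  `2 ≤ dist u V`; `no_stay`, `no_switch` : the two kinds of links.
-/

open Set Filter Topology Metric

noncomputable section

namespace Vale.Agent.P032.H961

open Vale.Agent.P032.Six Vale.Agent.P032.S5.H767

variable {U : Fin 6 → Set ℂ} {T : ℂ → Set (Fin 6)} {V V1 V2 W W1 W2 u : ℂ}
  {a b m n e f g a' b' m' n' e' f' : Fin 6}

/-- distance from the fourth vertex of the rhombus `V, p, u, p'` to a point of `S(V)` -/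
theorem sq_third {p p' q : ℂ} (h1 : dist p V = 1) (h2 : dist p' V = 1) (h3 : dist q V = 1)
    (hs : p + p' = u + V) :
    dist u q ^ 2 = 1 - dist p p' ^ 2 + dist p q ^ 2 + dist p' q ^ 2 := by
  obtain ⟨A, hA⟩ : ∃ A, A = p - V := ⟨_, rfl⟩
  obtain ⟨B, hB⟩ : ∃ B, B = p' - V := ⟨_, rfl⟩
  obtain ⟨D, hD⟩ : ∃ D, D = q - V := ⟨_, rfl⟩
  have e1 : p - q = A - D := by rw [hA, hD]; ring
  have e2 : p' - q = B - D := by rw [hB, hD]; ring
  have e3 : u - q = A + B - D := by rw [hA, hB, hD]; linear_combination -hs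
  have e4 : p - p' = A - B := by rw [hA, hB]; ring
  have n1 : Complex.normSq A = 1 := by rw [hA]; exact H678.normSq_one h1
  have n2 : Complex.normSq B = 1 := by rw [hB]; exact H678.normSq_one h2
  have n3 : Complex.normSq D = 1 := by rw [hD]; exact H678.normSq_one h3
  rw [H678.sq_dist', H678.sq_dist', H678.sq_dist', H678.sq_dist', e1, e2, e3, e4]
  rw [Complex.normSq_apply] at n1 n2 n3
  rw [Complex.normSq_apply, Complex.normSq_apply, Complex.normSq_apply, Complex.normSq_apply]
  simp only [Complex.sub_re, Complex.sub_im, Complex.add_re, Complex.add_im]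
  linear_combination n1 + n2 - n3

/-- both common points are on the closed arc -/
theorem QF0.contacts (h : Irr U T) (hV : QF0 T V a b m n e f V1 V2) (h3 : (T u).ncard ≤ 3)
    (hu : T u = ({a, b, n} : Set (Fin 6))ᶜ) (h2 : dist u V < 2) :
    ∃ p p', p ≠ p' ∧ dist p V = 1 ∧ dist p' V = 1 ∧ dist p u = 1 ∧ dist p' u = 1 ∧
      p + p' = u + V ∧ p ∈ closure (Ex T V {a, b}) ∧ p' ∈ closure (Ex T V {a, b}) := by
  have hne : u ≠ V := by
    rintro rfl
    have h1 : a ∈ T u := by rw [hV.pal]; simp
    rw [hu] at h1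
    exact h1 (by simp)
  obtain ⟨p, p', g1, g2, g3, g4, g5, g6, g7, g8⟩ := H678.two_common h2 hne
  refine ⟨p, p', g1, g3, g5, g2, g4, g8, ?_, ?_⟩
  · rcases hV.le3 h g3 with h5 | h5
    · exact h5
    · exact H227.contact_three h hV.dpt h3 hu g2 g3 g6 h5
  · rcases hV.le3 h g5 with h5 | h5
    · exact h5
    · exact H227.contact_three h hV.dpt h3 hu g4 g5 g7 h5

/-- a complement of a face is at distance at least root three -/
theorem QF0.far (h : Irr U T) (hV : QF0 T V a b m n e f V1 V2) (h3 : (T u).ncard ≤ 3)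
    (hu : T u = ({a, b, n} : Set (Fin 6))ᶜ) : 3 ≤ dist u V ^ 2 := by
  rcases lt_or_ge (dist u V) 2 with h2 | h2
  swap
  · nlinarith
  obtain ⟨p, p', g1, g2, g3, g4, g5, g6, g7, g8⟩ := hV.contacts h h3 hu h2
  exact H678.far_of_diam g4 g5 g6 (hV.diam h g7 g8).le

/-- **X.CONT.3** : a three-point complementary to a face of `V` and to a face of its neighbour `V1` -/
theorem QF0.no_two (h : Irr U T) (hV : QF0 T V a b m n e f V1 V2)
    (hV1 : QF0 T V1 a' b' m' n' e' f' W1 W2) (h3 : (T u).ncard ≤ 3)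
    (hu : T u = ({a, b, n} : Set (Fin 6))ᶜ) (hu' : T u = ({a', b', n'} : Set (Fin 6))ᶜ) :
    2 ≤ dist u V := by
  by_contra h2
  push Not at h2
  obtain ⟨p, p', g1, g2, g3, g4, g5, g6, g7, g8⟩ := hV.contacts h h3 hu h2
  have h4 := H678.near_end g2 g3 g6 g1 hV.dist1 (hV.diam h g7 (hV.mem1 h)).le
    (hV.diam h g8 (hV.mem1 h)).le
  have h5 := hV1.far h h3 hu'
  linarith

/-- STAY at `V1` : the complement of the face `{a, b, m}` -/
theorem QF0.no_stay (h : Irr U T) (hV : QF0 T V a b m n e f V1 V2)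
    (hV1 : QF0 T V1 a m g b e' f' W1 W2) (h3 : (T u).ncard ≤ 3)
    (hu : T u = ({a, b, m} : Set (Fin 6))ᶜ) : 2 ≤ dist u V := by
  by_contra h2
  push Not at h2
  obtain ⟨p, p', g1, g2, g3, g4, g5, g6, g7, g8⟩ := hV.mirror.contacts h h3 hu h2
  have h4 := H678.near_end g2 g3 g6 g1 hV.dist1 (hV.diam h g7 (hV.mem1 h)).le
    (hV.diam h g8 (hV.mem1 h)).le
  have h5 := hV1.far h h3 (by rw [hu, Set.pair_comm b m])
  linarith

/-- SWITCH at `V1` : the complement of the face `{a, b, n}` -/
theorem QF0.no_switch (h : Irr U T) (hV : QF0 T V a b m n e f V1 V2)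
    (hV1 : QF0 T V1 n b a g e' f' W1 W2) (h3 : (T u).ncard ≤ 3)
    (hu : T u = ({a, b, n} : Set (Fin 6))ᶜ) : 2 ≤ dist u V := by
  refine hV.no_two h hV1.mirror h3 hu ?_
  rw [hu]
  ext x
  simp only [mem_compl_iff, mem_insert_iff, mem_singleton_iff]
  tauto

/-- **row V_(±1)** : complements of the faces of `V` are not in the open discs of its neighbours -/
theorem QF0.far_end (h : Irr U T) (hV : QF0 T V a b m n e f V1 V2) (h3 : (T u).ncard ≤ 3)
    (hu : T u = ({a, b, n} : Set (Fin 6))ᶜ) : 1 ≤ dist u V1 := by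
  rcases lt_or_ge (dist u V) 2 with h2 | h2
  swap
  · have h1 := dist_triangle u V1 V
    rw [hV.dist1] at h1
    linarith
  obtain ⟨p, p', g1, g2, g3, g4, g5, g6, g7, g8⟩ := hV.contacts h h3 hu h2
  have h4 := sq_third g2 g3 hV.dist1 g6
  have key : dist p p' ^ 2 ≤ dist p V1 ^ 2 + dist p' V1 ^ 2 := by
    obtain ⟨s, t, k1, k2, k3, -, k5⟩ := hV.arc' h
    rw [k5] at g7 g8
    obtain ⟨x, hx, rfl⟩ := g7
    obtain ⟨y, hy, rfl⟩ := g8
    have hpi := Real.pi_pos
    have hcos : ∀ r r' : ℝ, |r| ≤ |r'| → |r'| ≤ 1 →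
        Real.cos (r' * (Real.pi / 3)) ≤ Real.cos (r * (Real.pi / 3)) := by
      intro r r' h6 h7
      rw [← Real.cos_abs (r * (Real.pi / 3)), ← Real.cos_abs (r' * (Real.pi / 3)), abs_mul,
        abs_mul, abs_of_pos (by positivity : 0 < Real.pi / 3)]
      refine Real.cos_le_cos_of_nonneg_of_le_pi (by positivity) ?_ ?_
      · nlinarith
      · exact mul_le_mul_of_nonneg_right h6 (by positivity)
    have hle : ∀ r : ℝ, Real.cos (r * (Real.pi / 3)) ≤ 1 := fun r => Real.cos_le_one _
    rcases k3 with ⟨k3, -⟩ | ⟨k3, -⟩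
    · rw [k3, H383.sq_dist_pt, H383.sq_dist_pt, H383.sq_dist_pt]
      rcases le_total x y with h6 | h6
      · have h7 := hcos (x - y) (x - t) (by
          rw [abs_of_nonpos (by linarith), abs_of_nonpos (by linarith [hx.2])]
          linarith [hy.2]) (by
          rw [abs_of_nonpos (by linarith [hx.2])]; linarith [hx.1])
        have h8 := hle (y - t)
        linarith
      · have h7 := hcos (x - y) (y - t) (by
          rw [abs_of_nonneg (by linarith), abs_of_nonpos (by linarith [hy.2])]
          linarith [hx.2]) (by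
          rw [abs_of_nonpos (by linarith [hy.2])]; linarith [hy.1])
        have h8 := hle (x - t)
        linarith
    · rw [k3, H383.sq_dist_pt, H383.sq_dist_pt, H383.sq_dist_pt]
      rcases le_total x y with h6 | h6
      · have h7 := hcos (x - y) (y - s) (by
          rw [abs_of_nonpos (by linarith), abs_of_nonneg (by linarith [hy.1])]
          linarith [hx.1]) (by
          rw [abs_of_nonneg (by linarith [hy.1])]; linarith [hy.2])
        have h8 := hle (x - s)
        linarith
      · have h7 := hcos (x - y) (x - s) (by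
          rw [abs_of_nonneg (by linarith), abs_of_nonneg (by linarith [hx.1])]
          linarith [hy.1]) (by
          rw [abs_of_nonneg (by linarith [hx.1])]; linarith [hx.2])
        have h8 := hle (y - s)
        linarith
  nlinarith [dist_nonneg (x := u) (y := V1)]

end Vale.Agent.P032.H961
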