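import Vale.Agent.P032.H961.QI

/-!
# P032: uniqueness of the data of a quasi-full point; the world of H678

* `dpt_pairs` : the two pairs of a two-pair point;
* `pair_unique` : the connecting pair of a quasi-full point is unique (`QF0`), `QIW.pair_unique` (world
  with invisible points);
* `inner_unique` : inner and outer colour;
* `QI0.uniq` : the ends and the colours `m`, `n`;
* `QIW.toQW` : the world `QW` of H678 for `QQ T Inv`.
-/

open Set Filter Topology Metric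

noncomputable section

namespace Vale.Agent.P032.H961

open Vale.Agent.P032.Six Vale.Agent.P032.S5.H767

variable {U : Fin 6 → Set ℂ} {T : ℂ → Set (Fin 6)} {Inv Inv' : ℂ → ℂ → Prop}
  {V V1 V2 V1' V2' W W1 W2 u z : ℂ} {a b c d m n e f g g' a' b' c' d' m' n' e' f' : Fin 6}

/-- the pairs of a two-pair point -/
theorem dpt_pairs (h : Irr U T) (H : DPt T z a b c d) (H' : DPt T z a' b' c' d') :
    ({a', b'} : Set (Fin 6)) = {a, b} ∨ ({a', b'} : Set (Fin 6)) = {c, d} := by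
  obtain ⟨p, hp⟩ := H'.arc1
  have h1 : p ∈ sphere z 1 := hp.1
  have e1 : T p = {a', b'} := hp.2.self_of_nhdsWithin h1
  have h2 := h.twoPairs H p hp.1 (hp.2.mono fun q hq => hq.trans e1.symm) (by
    rw [e1, H'.pal]
    rintro i (rfl | rfl) <;> simp)
  rwa [e1] at h2

theorem pair_cases {i j k l : Fin 6} (h : ({i, j} : Set (Fin 6)) = {k, l}) :
    i = k ∧ j = l ∨ i = l ∧ j = k := Set.pair_eq_pair_iff.1 h

/-- the colours at `V1` fix the name `m` -/
theorem lk_unique (h : Irr U T) (hnd : [a, b, m, n, e, f].Nodup)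
    (h1 : ∃ g, DPt T V1 a m b g ∨ DPt T V1 n b a g)
    (h2 : ∃ g, DPt T V1 a n b g ∨ DPt T V1 m b a g) : False := by
  simp only [List.nodup_cons, List.mem_cons, List.not_mem_nil, or_false, not_or,
    List.nodup_nil, and_true, not_false_eq_true] at hnd
  obtain ⟨⟨hab, ham, han, hae, haf⟩, ⟨hbm, hbn, hbe, hbf⟩, ⟨hmn, hme, hmf⟩, ⟨hne, hnf⟩, hef⟩ := hnd
  obtain ⟨g, h1 | h1⟩ := h1 <;> obtain ⟨g', h2 | h2⟩ := h2
  · rcases dpt_pairs h h1 h2 with h3 | h3 <;> rcases pair_cases h3 with ⟨h4, h5⟩ | ⟨h4, h5⟩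
    · exact hmn h5.symm
    · exact ham h4
    · exact hab h4
    · exact hbn h5.symm
  · rcases dpt_pairs h h1 h2 with h3 | h3 <;> rcases pair_cases h3 with ⟨h4, h5⟩ | ⟨h4, h5⟩
    · exact ham h4.symm
    · exact hab h5.symm
    · exact hbm h4.symm
    · exact h1.bd h4
  · rcases dpt_pairs h h1 h2 with h3 | h3 <;> rcases pair_cases h3 with ⟨h4, h5⟩ | ⟨h4, h5⟩
    · exact han h4
    · exact hab h4
    · exact h1.ad h5
    · exact han h5.symm
  · rcases dpt_pairs h h1 h2 with h3 | h3 <;> rcases pair_cases h3 with ⟨h4, h5⟩ | ⟨h4, h5⟩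
    · exact hmn h4
    · exact hbm h4.symm
    · exact ham h4.symm
    · exact hab h5.symm

/-- the middle of the arc -/
def mid (V V1 V2 : ℂ) : ℂ := V + (V1 + V2 - 2 * V) / (‖V1 + V2 - 2 * V‖ : ℂ)

theorem mid_comm : mid V V1 V2 = mid V V2 V1 := by
  unfold mid
  rw [add_comm V1 V2]

theorem mid_pt {s t : ℝ} (h1 : s < t) (h2 : t ≤ s + 1) :
    mid V (pt V t) (pt V s) = pt V ((s + t) / 2) := by
  have hpi := Real.pi_pos
  obtain ⟨α, hα⟩ : ∃ α, α = (s + t) / 2 * (Real.pi / 3) := ⟨_, rfl⟩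
  obtain ⟨β, hβ⟩ : ∃ β, β = (t - s) / 2 * (Real.pi / 3) := ⟨_, rfl⟩
  have hc : 0 < Real.cos β := by
    refine Real.cos_pos_of_mem_Ioo ⟨?_, ?_⟩
    · rw [hβ]; nlinarith
    · rw [hβ]; nlinarith
  have e : pt V t + pt V s - 2 * V = ((2 * Real.cos β : ℝ) : ℂ) * cis α := by
    unfold pt
    have e1 : t * (Real.pi / 3) = α + β := by rw [hα, hβ]; ring
    have e2 : s * (Real.pi / 3) = α - β := by rw [hα, hβ]; ring
    rw [e1, e2]
    unfold cis
    apply Complex.ext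
    · simp only [Complex.add_re, Complex.sub_re, Complex.mul_re, Complex.exp_ofReal_mul_I_re,
        Complex.ofReal_re, Complex.ofReal_im, Complex.re_ofNat, Complex.im_ofNat, zero_mul,
        sub_zero]
      rw [Real.cos_add, Real.cos_sub]; ring
    · simp only [Complex.add_im, Complex.sub_im, Complex.mul_im, Complex.exp_ofReal_mul_I_im,
        Complex.ofReal_re, Complex.ofReal_im, Complex.re_ofNat, Complex.im_ofNat, zero_mul,
        add_zero]
      rw [Real.sin_add, Real.sin_sub]; ring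
  have hn : ‖pt V t + pt V s - 2 * V‖ = 2 * Real.cos β := by
    rw [e, norm_mul, norm_cis, mul_one, Complex.norm_real, Real.norm_eq_abs,
      abs_of_pos (by positivity)]
  unfold mid
  rw [hn, e, mul_comm, mul_div_assoc, div_self, mul_one]
  · rw [hα]; rfl
  · exact_mod_cast (by positivity : (2 * Real.cos β) ≠ 0)

theorem QI0.mid_mem (h : Irr U T) (H : QI0 T Inv V a b m n e f V1 V2) :
    mid V V1 V2 ∈ Ex T V {a, b} := by
  obtain ⟨s, t, h1, h2, h3, h4, -⟩ := H.arc' h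
  have h5 := h4 ((s + t) / 2) ⟨by linarith, by linarith⟩
  rcases h3 with ⟨rfl, rfl⟩ | ⟨rfl, rfl⟩
  · rw [mid_pt h1 h2]; exact h5
  · rw [mid_comm, mid_pt h1 h2]; exact h5

/-- two structures at one point with the same ends -/
theorem QI0.pair_aux (h : Irr U T) (H : QI0 T Inv V a b m n e f V1 V2)
    (H' : QI0 T Inv' V a' b' m' n' e' f' V1' V2') (h1 : V1' = V1 ∨ V1' = V2)
    (h2 : V2' = V1 ∨ V2' = V2) : ({a', b'} : Set (Fin 6)) = {a, b} := by
  have g1 := ex_self (H.mid_mem h)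
  have g2 := ex_self (H'.mid_mem h)
  have g3 : mid V V1' V2' = mid V V1 V2 := by
    rcases h1 with rfl | rfl
    · rcases h2 with rfl | rfl
      · exact absurd rfl H'.ne12
      · rfl
    · rcases h2 with rfl | rfl
      · exact mid_comm
      · exact absurd rfl H'.ne12
  rw [← g2, g3, g1]

/-- **the connecting pair is unique** -/
theorem QF0.pair_unique (h : Irr U T) (H : QF0 T V a b m n e f V1 V2)
    (H' : QF0 T V a' b' m' n' e' f' V1' V2') : ({a', b'} : Set (Fin 6)) = {a, b} :=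
  (H.toQI0 (Inv := fun _ _ => False)).pair_aux h (H'.toQI0 (Inv := fun _ _ => False))
    (H.ord V1' H'.dist1 H'.ord1.ge) (H.ord V2' H'.dist2 H'.ord2.ge)

theorem QI.mem_lnk (hw : QIW T Inv) (H : QI T Inv V a b m n e f V1 V2)
    (H' : QI T Inv V a' b' m' n' e' f' V1' V2') : V1' = V1 ∨ V1' = V2 := by
  rcases H.ord V1' H'.dist1 H'.ord1.ge with h1 | h1 | h1
  · exact Or.inl h1
  · exact Or.inr h1
  · exfalso
    obtain ⟨g, e1, f1, W, h2 | h2⟩ := hw.link H'
    · exact hw.inv h1 H'.dist1 h2 (by rw [H'.pal]; simp) (by rw [H'.pal]; simp)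
    · exact hw.inv h1 H'.dist1 h2 (by rw [H'.pal]; simp) (by rw [H'.pal]; simp)

/-- **the connecting pair is unique**, with invisible points -/
theorem QIW.pair_unique (h : Irr U T) (hw : QIW T Inv) (H : QI T Inv V a b m n e f V1 V2)
    (H' : QI T Inv V a' b' m' n' e' f' V1' V2') : ({a', b'} : Set (Fin 6)) = {a, b} :=
  H.toQI0.pair_aux h H'.toQI0 (H.mem_lnk hw H') (H.mem_lnk hw H'.mirror)

/-- **the inner and the outer colour are unique** -/
theorem inner_unique (h : Irr U T) (H : QI T Inv V a b m n e f V1 V2)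
    (H' : QI T Inv' V a' b' m' n' e' f' V1' V2') (hp : ({a', b'} : Set (Fin 6)) = {a, b}) :
    a' = a ∧ b' = b := by
  rcases pair_cases hp with h1 | ⟨h1, h2⟩
  · exact h1
  exfalso
  subst h1 h2
  have hy := H.mid_mem h
  have g1 := H.inn _ hy.1 (ex_self hy)
  have g2 := H'.inn _ hy.1 ((ex_self hy).trans (Set.pair_comm _ _))
  have hb : a' ∈ T (mid V V1 V2) := by rw [ex_self hy]; simp
  obtain ⟨w, hw, g3, g4⟩ := ((h.pure _ _ hb).and_eventually (g1.and g2)).exists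
  have g5 : dist w V = 1 := le_antisymm (g4.2 (by rw [hw]; rfl)) (g3.1 (by rw [hw]; rfl))
  exact H383.ne_single h (by rw [H.pal]; simp) g5 hw

/-- **the ends and the colours of the other pair are unique up to the mirror image** -/
theorem QI0.uniq (h : Irr U T) (H : QI0 T Inv V a b m n e f V1 V2)
    (H' : QI0 T Inv' V a b m' n' e' f' V1' V2') (h1 : V1' = V1 ∨ V1' = V2)
    (h2 : V2' = V1 ∨ V2' = V2) :
    m' = m ∧ n' = n ∧ V1' = V1 ∧ V2' = V2 ∨ m' = n ∧ n' = m ∧ V1' = V2 ∧ V2' = V1 := by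
  -- the other pair
  have hp : ({m', n'} : Set (Fin 6)) = {m, n} := by
    rcases dpt_pairs h H.dpt H'.dpt.swap with h3 | h3
    · exfalso
      have h4 : a ∈ ({m', n'} : Set (Fin 6)) := by rw [h3]; simp
      rcases h4 with h4 | h4
      · exact H'.dpt.ac h4
      · exact H'.dpt.ad h4
    · exact h3
  have hends : V1' = V1 ∧ V2' = V2 ∨ V1' = V2 ∧ V2' = V1 := by
    rcases h1 with rfl | rfl <;> rcases h2 with rfl | rfl
    · exact absurd rfl H'.ne12
    · exact Or.inl ⟨rfl, rfl⟩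
    · exact Or.inr ⟨rfl, rfl⟩
    · exact absurd rfl H'.ne12
  rcases pair_cases hp with ⟨rfl, rfl⟩ | ⟨rfl, rfl⟩ <;> rcases hends with ⟨rfl, rfl⟩ | ⟨rfl, rfl⟩
  · exact Or.inl ⟨rfl, rfl, rfl, rfl⟩
  · exact absurd H'.lk2 (fun h3 => lk_unique h H.nd H.lk1 h3)
  · exact absurd H'.lk1 (fun h3 => lk_unique h H.nd H.lk1 h3)
  · exact Or.inr ⟨rfl, rfl, rfl, rfl⟩

/-! ### the world of H678 -/

/-- chain vertex with the connecting pair `C` and the other pair `A` -/
def QQ (T : ℂ → Set (Fin 6)) (Inv : ℂ → ℂ → Prop) (V : ℂ) (C A : Set (Fin 6)) : Prop :=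
  ∃ (a b m n e f : Fin 6) (V1 V2 : ℂ), C = {a, b} ∧ A = {m, n} ∧ QI T Inv V a b m n e f V1 V2

theorem link_one (hw : QIW T Inv) (H : QI T Inv V a b m n e f V1 V2) :
    ∃ α α' X g, ({a, b} : Set (Fin 6)) = {α, α'} ∧ α ≠ α' ∧ X ∈ ({m, n} : Set (Fin 6)) ∧
      g ∉ ({a, b} : Set (Fin 6)) ∧ g ≠ X ∧ QQ T Inv V1 {α, X} {α', g} := by
  have hab := H.dpt.ab
  obtain ⟨g, e1, f1, W, h1 | h1⟩ := hw.link H
  · have hD := h1.dpt
    refine ⟨a, b, m, g, rfl, hab, by simp, ?_, hD.bc.symm, a, m, g, b, e1, f1, W, V, rfl,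
      Set.pair_comm _ _, h1⟩
    rintro (h2 | h2)
    · exact hD.ac h2.symm
    · exact hD.cd h2
  · have hD := h1.dpt
    refine ⟨b, a, n, g, Set.pair_comm _ _, hab.symm, by simp, ?_, hD.ad.symm, n, b, a, g, e1, f1,
      W, V, Set.pair_comm _ _, rfl, h1⟩
    rintro (h2 | h2)
    · exact hD.cd h2.symm
    · exact hD.bd h2.symm

theorem link_two (hw : QIW T Inv) (H : QI T Inv V a b m n e f V1 V2) :
    ∃ α α' X g, ({a, b} : Set (Fin 6)) = {α, α'} ∧ α ≠ α' ∧ X ∈ ({m, n} : Set (Fin 6)) ∧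
      g ∉ ({a, b} : Set (Fin 6)) ∧ g ≠ X ∧ QQ T Inv V2 {α, X} {α', g} := by
  obtain ⟨α, α', X, g, h1, h2, h3, h4, h5, h6⟩ := link_one hw H.mirror
  exact ⟨α, α', X, g, h1, h2, by rwa [Set.pair_comm], h4, h5, h6⟩

/-- **the world of H678**; `four` for the common points of order four -/
theorem QIW.toQW (h : Irr U T) (hw : QIW T Inv)
    (four : ∀ V C A W C' A' p, QQ T Inv V C A → QQ T Inv W C' A' → V ≠ W → V + W ≠ 2 * p →
      dist p V = 1 → dist p W = 1 → 4 ≤ (T p).ncard → (C ∩ C').Nonempty) :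
    H678.QW T (QQ T Inv) where
  qf := by
    rintro V C A ⟨a, b, m, n, e, f, V1, V2, rfl, rfl, H⟩
    exact H.toQf h
  ends := by
    rintro V C A ⟨a, b, m, n, e, f, V1, V2, rfl, rfl, H⟩
    exact ⟨V1, H.mem1 h, H.ord1.ge⟩
  link := by
    rintro V C A q ⟨a, b, m, n, e, f, V1, V2, rfl, rfl, H⟩ hq h4
    rcases H.cases h hq with rfl | rfl | h1
    · exact link_one hw H
    · exact link_two hw H
    · exfalso
      rw [ex_self h1, Set.ncard_pair H.dpt.ab] at h4
      omega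
  four := four

/-- the two connecting pairs at a common link -/
theorem four_link (h : Irr U T) (hw : QIW T Inv) {p : ℂ} (H : QI T Inv V a b m n e f V1 V2)
    (H' : QI T Inv W a' b' m' n' e' f' W1 W2) (hne : V ≠ W) (hp : p = V1 ∨ p = V2)
    (hp' : p = W1 ∨ p = W2) : (({a, b} : Set (Fin 6)) ∩ {a', b'}).Nonempty := by
  -- `p` with the end `V`
  have key : ∀ {V : ℂ} {a b m n e f : Fin 6} {V2 : ℂ}, QI T Inv V a b m n e f p V2 →
      ∃ (a1 b1 m1 n1 e1 f1 : Fin 6) (X : ℂ), QI T Inv p a1 b1 m1 n1 e1 f1 X V ∧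
        (({a, b} : Set (Fin 6)) = {a1, n1} ∨ ({a, b} : Set (Fin 6)) = {m1, b1}) := by
    intro V a b m n e f V2 H
    obtain ⟨g, e1, f1, X, h1 | h1⟩ := hw.link H
    · exact ⟨a, m, g, b, e1, f1, X, h1, Or.inl rfl⟩
    · exact ⟨n, b, a, g, e1, f1, X, h1, Or.inr rfl⟩
  have hV : ∃ (a1 b1 m1 n1 e1 f1 : Fin 6) (X : ℂ), QI T Inv p a1 b1 m1 n1 e1 f1 X V ∧
        (({a, b} : Set (Fin 6)) = {a1, n1} ∨ ({a, b} : Set (Fin 6)) = {m1, b1}) := by
    rcases hp with rfl | rfl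
    · exact key H
    · exact key H.mirror
  have hW : ∃ (a1 b1 m1 n1 e1 f1 : Fin 6) (X : ℂ), QI T Inv p a1 b1 m1 n1 e1 f1 X W ∧
        (({a', b'} : Set (Fin 6)) = {a1, n1} ∨ ({a', b'} : Set (Fin 6)) = {m1, b1}) := by
    rcases hp' with rfl | rfl
    · exact key H'
    · exact key H'.mirror
  obtain ⟨a1, b1, m1, n1, e1, f1, X, K, hC⟩ := hV
  obtain ⟨a2, b2, m2, n2, e2, f2, Y, K', hC'⟩ := hW
  have k1 := hw.pair_unique h K K'
  obtain ⟨rfl, rfl⟩ := inner_unique h K K' k1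
  have k2 : W = X := by
    rcases K.mem_lnk hw K'.mirror with k3 | k3
    · exact k3
    · exact absurd k3.symm hne
  have k3 := K.toQI0.uniq h K'.toQI0 (K.mem_lnk hw K') (K.mem_lnk hw K'.mirror)
  rcases k3 with ⟨rfl, rfl, k4, k5⟩ | ⟨rfl, rfl, k4, k5⟩
  · exact absurd k5.symm hne
  · rcases hC with hC | hC <;> rcases hC' with hC' | hC' <;> rw [hC, hC']
    · exact ⟨a2, by simp, by simp⟩
    · exact ⟨m2, by simp, by simp⟩
    · exact ⟨n2, by simp, by simp⟩
    · exact ⟨b2, by simp, by simp⟩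

end Vale.Agent.P032.H961
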