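import Vale.Agent.P032.H961.Near1
import Vale.Agent.P032.H678.VW3

/-!
# P032: quasi-full points, world with invisible points of order four

`QI0 T Inv V a b m n e f V1 V2` : as `QF0`, with the relation `Inv` a parameter: `Inv V y` : `y` is an
(invisible) point of `S(V)` with four colours which is not a link; the connecting arc is at most 60
degrees, only its exact points are asked to be on it.  `QI` : moreover `a` inside, `b` outside.
`LinkI`, `QIW` : links and world.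

* `QI0.toQf` : the structure `Qf` of H678; `QIW.toQW` : the world `QW` of H678.
* `QI0.contacts`, `QI0.far`, `QI0.far_end`, `QI0.no_two`, `QI0.no_stay`, `QI0.no_switch` : as in
  `Near1.lean`, under the hypothesis `NCt` (invisible points of `S(V)` are no contacts with `u`).
-/

open Set Filter Topology Metric

noncomputable section

namespace Vale.Agent.P032.H961

open Vale.Agent.P032.Six Vale.Agent.P032.S5.H767

/-- quasi-full point with the connecting pair `a, b`, invisible points of order four allowed -/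
structure QI0 (T : ℂ → Set (Fin 6)) (Inv : ℂ → ℂ → Prop) (V : ℂ) (a b m n e f : Fin 6)
    (V1 V2 : ℂ) : Prop where
  nd : [a, b, m, n, e, f].Nodup
  dpt : DPt T V a b m n
  arc : ∃ s t : ℝ, s < t ∧ t ≤ s + 1 ∧
    (V1 = pt V t ∧ V2 = pt V s ∨ V1 = pt V s ∧ V2 = pt V t) ∧
    (∀ u ∈ Ioo s t, T (pt V u) = {a, b}) ∧
    ∀ y, dist y V = 1 → T y = {a, b} → y ∈ pt V '' Icc s t
  lk1 : ∃ g, DPt T V1 a m b g ∨ DPt T V1 n b a g
  lk2 : ∃ g, DPt T V2 a n b g ∨ DPt T V2 m b a g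
  ord : ∀ y, dist y V = 1 → 4 ≤ (T y).ncard → y = V1 ∨ y = V2 ∨ Inv V y

/-- quasi-full point with the connecting pair `a, b`, the colour `a` inside, `b` outside -/
structure QI (T : ℂ → Set (Fin 6)) (Inv : ℂ → ℂ → Prop) (V : ℂ) (a b m n e f : Fin 6)
    (V1 V2 : ℂ) : Prop extends QI0 T Inv V a b m n e f V1 V2 where
  inn : ∀ y, dist y V = 1 → T y = {a, b} →
    ∀ᶠ x in 𝓝 y, (b ∈ T x → 1 ≤ dist x V) ∧ (a ∈ T x → dist x V ≤ 1)

/-- the link at the end `V1` (STAY or SWITCH) -/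
def LinkI (T : ℂ → Set (Fin 6)) (Inv : ℂ → ℂ → Prop) (V : ℂ) (a b m n : Fin 6) (V1 : ℂ) : Prop :=
  ∃ (g e' f' : Fin 6) (W : ℂ), QI T Inv V1 a m g b e' f' W V ∨ QI T Inv V1 n b a g e' f' W V

/-- the world of quasi-full points; the connecting pair of an invisible two-pair point of `S(V)` is
not a set of two colours of `V` -/
structure QIW (T : ℂ → Set (Fin 6)) (Inv : ℂ → ℂ → Prop) : Prop where
  qf : ∀ {V : ℂ} {a b c d : Fin 6}, DPt T V a b c d →
    ∃ (a b m n e f : Fin 6) (V1 V2 : ℂ), QI T Inv V a b m n e f V1 V2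
  link : ∀ {V V1 V2 : ℂ} {a b m n e f : Fin 6}, QI T Inv V a b m n e f V1 V2 →
    LinkI T Inv V a b m n V1
  inv : ∀ {V y V1 V2 : ℂ} {a b m n e f : Fin 6}, Inv V y → dist y V = 1 →
    QI T Inv y a b m n e f V1 V2 → a ∈ T V → b ∈ T V → False

variable {U : Fin 6 → Set ℂ} {T : ℂ → Set (Fin 6)} {Inv : ℂ → ℂ → Prop}
  {V V1 V2 W W1 W2 u : ℂ} {a b m n e f g a' b' m' n' e' f' : Fin 6}

/-! ### relation with `QF` -/

theorem QF0.toQI0 (h : QF0 T V a b m n e f V1 V2) : QI0 T Inv V a b m n e f V1 V2 where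
  nd := h.nd
  dpt := h.dpt
  arc := by
    obtain ⟨s, t, h1, h2, h3, h4, h5⟩ := h.arc
    exact ⟨s, t, h1, h2.le, h3, h4, fun y g1 g2 => h5 y g1 (by rw [g2]; simp) (by rw [g2]; simp)⟩
  lk1 := h.lk1
  lk2 := h.lk2
  ord := fun y h1 h2 => (h.ord y h1 h2).imp_right Or.inl

theorem QF.toQI (h : QF T V a b m n e f V1 V2) : QI T Inv V a b m n e f V1 V2 :=
  ⟨h.toQF0.toQI0, h.inn⟩

/-- more invisible points -/
theorem QI0.mono {Inv' : ℂ → ℂ → Prop} (hI : ∀ y, Inv V y → Inv' V y)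
    (h : QI0 T Inv V a b m n e f V1 V2) : QI0 T Inv' V a b m n e f V1 V2 :=
  ⟨h.nd, h.dpt, h.arc, h.lk1, h.lk2, fun y h1 h2 => (h.ord y h1 h2).imp_right
    (Or.imp_right (hI y))⟩

/-! ### symmetries -/

/-- mirror image -/
theorem QI0.mirror (h : QI0 T Inv V a b m n e f V1 V2) : QI0 T Inv V a b n m e f V2 V1 where
  nd := nodup_cd h.nd
  dpt := h.dpt.swap34
  arc := by
    obtain ⟨s, t, h1, h2, h3, h4⟩ := h.arc
    refine ⟨s, t, h1, h2, ?_, h4⟩
    rcases h3 with h3 | h3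
    · exact Or.inr ⟨h3.2, h3.1⟩
    · exact Or.inl ⟨h3.2, h3.1⟩
  lk1 := h.lk2
  lk2 := h.lk1
  ord := fun y h1 h2 => by
    rcases h.ord y h1 h2 with h3 | h3 | h3
    · exact Or.inr (Or.inl h3)
    · exact Or.inl h3
    · exact Or.inr (Or.inr h3)

theorem QI.mirror (h : QI T Inv V a b m n e f V1 V2) : QI T Inv V a b n m e f V2 V1 :=
  ⟨h.toQI0.mirror, h.inn⟩

theorem QI0.swapEF (h : QI0 T Inv V a b m n e f V1 V2) : QI0 T Inv V a b m n f e V1 V2 :=
  ⟨nodup_ef h.nd, h.dpt, h.arc, h.lk1, h.lk2, h.ord⟩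

theorem QI.swapEF (h : QI T Inv V a b m n e f V1 V2) : QI T Inv V a b m n f e V1 V2 :=
  ⟨h.toQI0.swapEF, h.inn⟩

/-- inner and outer colour exchanged -/
theorem QI0.swapAB (h : QI0 T Inv V a b m n e f V1 V2) : QI0 T Inv V b a n m e f V1 V2 where
  nd := nodup_ab (nodup_cd h.nd)
  dpt := h.dpt.swap12.swap34
  arc := by
    obtain ⟨s, t, h1, h2, h3, h4, h5⟩ := h.arc
    exact ⟨s, t, h1, h2, h3, fun u hu => by rw [h4 u hu, Set.pair_comm],
      fun y g1 g2 => h5 y g1 (by rw [g2, Set.pair_comm])⟩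
  lk1 := by
    obtain ⟨g, hg | hg⟩ := h.lk1
    · exact ⟨g, Or.inr hg.swap12⟩
    · exact ⟨g, Or.inl hg.swap12⟩
  lk2 := by
    obtain ⟨g, hg | hg⟩ := h.lk2
    · exact ⟨g, Or.inr hg.swap12⟩
    · exact ⟨g, Or.inl hg.swap12⟩
  ord := h.ord

/-! ### first consequences -/

theorem QI0.pal (h : QI0 T Inv V a b m n e f V1 V2) : T V = {a, b, m, n} := h.dpt.pal

theorem QI0.ord0 (h : QI0 T Inv V a b m n e f V1 V2) : (T V).ncard = 4 := card4 h.dpt

theorem QI0.ord1 (h : QI0 T Inv V a b m n e f V1 V2) : (T V1).ncard = 4 := by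
  obtain ⟨g, hg | hg⟩ := h.lk1 <;> exact card4 hg

theorem QI0.ord2 (h : QI0 T Inv V a b m n e f V1 V2) : (T V2).ncard = 4 := h.mirror.ord1

theorem QI0.dist1 (h : QI0 T Inv V a b m n e f V1 V2) : dist V1 V = 1 := by
  obtain ⟨s, t, -, -, ⟨h1, -⟩ | ⟨h1, -⟩, -⟩ := h.arc <;> rw [h1] <;> exact dist_pt _ _

theorem QI0.dist2 (h : QI0 T Inv V a b m n e f V1 V2) : dist V2 V = 1 := h.mirror.dist1

theorem QI0.dist12 (h : QI0 T Inv V a b m n e f V1 V2) : dist V1 V2 ≤ 1 := by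
  obtain ⟨s, t, h1, h2, ⟨h3, h4⟩ | ⟨h3, h4⟩, -⟩ := h.arc <;> rw [h3, h4] <;>
    exact H383.dist_pt_le V (abs_le.2 ⟨by linarith, by linarith⟩)

theorem QI0.ne12 (h : QI0 T Inv V a b m n e f V1 V2) : V1 ≠ V2 := by
  obtain ⟨s, t, h1, h2, ⟨h3, h4⟩ | ⟨h3, h4⟩, -⟩ := h.arc <;> rw [h3, h4]
  · exact (pt_ne h1 (by linarith)).symm
  · exact pt_ne h1 (by linarith)

theorem QI0.ne1 (h : QI0 T Inv V a b m n e f V1 V2) : V1 ≠ V := by
  intro h1
  have := h.dist1
  rw [h1, dist_self] at this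
  exact zero_ne_one this

theorem QI0.ex_iff (h : Irr U T) (hV : QI0 T Inv V a b m n e f V1 V2) {y : ℂ} :
    y ∈ Ex T V {a, b} ↔ dist y V = 1 ∧ T y = {a, b} := by
  refine ⟨fun hy => ⟨hy.1, ex_self hy⟩, fun hy => ⟨hy.1, ?_⟩⟩
  have h1 := H383.XA_open h hV.dpt (x := y) hy
  filter_upwards [mem_nhdsWithin_of_mem_nhds h1, self_mem_nhdsWithin] with q h2 h3
  exact (h2 h3).2

/-- the closed arc is the closure of the exact points -/
theorem QI0.arc' (h : Irr U T) (hV : QI0 T Inv V a b m n e f V1 V2) : ∃ s t : ℝ, s < t ∧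
    t ≤ s + 1 ∧ (V1 = pt V t ∧ V2 = pt V s ∨ V1 = pt V s ∧ V2 = pt V t) ∧
    (∀ u ∈ Ioo s t, pt V u ∈ Ex T V {a, b}) ∧ closure (Ex T V {a, b}) = pt V '' Icc s t := by
  obtain ⟨s, t, h1, h2, h3, h4, h5⟩ := hV.arc
  have h6 : ∀ u ∈ Ioo s t, pt V u ∈ Ex T V {a, b} := fun u hu =>
    (hV.ex_iff h).2 ⟨dist_pt _ _, h4 u hu⟩
  refine ⟨s, t, h1, h2, h3, h6, ?_⟩
  refine Subset.antisymm (H383.closure_arc fun y hy => h5 y hy.1 (ex_self hy)) ?_
  rw [← closure_Ioo h1.ne]
  refine (image_closure_subset_closure_image (continuous_pt V)).trans (closure_mono ?_)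
  rintro _ ⟨u, hu, rfl⟩
  exact h6 u hu

theorem QI0.mem1 (h : Irr U T) (hV : QI0 T Inv V a b m n e f V1 V2) :
    V1 ∈ closure (Ex T V {a, b}) := by
  obtain ⟨s, t, h1, -, h3, -, h5⟩ := hV.arc' h
  rw [h5]
  rcases h3 with h3 | h3
  · exact ⟨t, ⟨h1.le, le_rfl⟩, h3.1.symm⟩
  · exact ⟨s, ⟨le_rfl, h1.le⟩, h3.1.symm⟩

theorem QI0.mem2 (h : Irr U T) (hV : QI0 T Inv V a b m n e f V1 V2) :
    V2 ∈ closure (Ex T V {a, b}) := hV.mirror.mem1 h

/-- points of the arc are at distance at most one -/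
theorem QI0.diam (h : Irr U T) (hV : QI0 T Inv V a b m n e f V1 V2) {p q : ℂ}
    (hp : p ∈ closure (Ex T V {a, b})) (hq : q ∈ closure (Ex T V {a, b})) : dist p q ≤ 1 := by
  obtain ⟨s, t, h1, h2, -, -, h5⟩ := hV.arc' h
  rw [h5] at hp hq
  obtain ⟨x, hx, rfl⟩ := hp
  obtain ⟨y, hy, rfl⟩ := hq
  exact H383.dist_pt_le V (abs_le.2 ⟨by linarith [hx.1, hy.2], by linarith [hx.2, hy.1]⟩)

/-- the points of the closed arc : ends or exact -/
theorem QI0.cases (h : Irr U T) (hV : QI0 T Inv V a b m n e f V1 V2) {p : ℂ}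
    (hp : p ∈ closure (Ex T V {a, b})) : p = V1 ∨ p = V2 ∨ p ∈ Ex T V {a, b} := by
  obtain ⟨s, t, h1, h2, h3, h4, h5⟩ := hV.arc' h
  rw [h5] at hp
  obtain ⟨x, hx, rfl⟩ := hp
  rcases eq_or_lt_of_le hx.1 with rfl | h6
  · rcases h3 with h3 | h3
    · exact Or.inr (Or.inl h3.2.symm)
    · exact Or.inl h3.1.symm
  rcases eq_or_lt_of_le hx.2 with rfl | h7
  · rcases h3 with h3 | h3
    · exact Or.inl h3.1.symm
    · exact Or.inr (Or.inl h3.2.symm)
  · exact Or.inr (Or.inr (h4 x ⟨h6, h7⟩))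

/-- a point of `S(V)` is in the closed arc, invisible, or has at most three colours -/
theorem QI0.le3 (h : Irr U T) (hV : QI0 T Inv V a b m n e f V1 V2) {p : ℂ} (hp : dist p V = 1) :
    p ∈ closure (Ex T V {a, b}) ∨ Inv V p ∨ (T p).ncard ≤ 3 := by
  rcases le_or_gt (T p).ncard 3 with h1 | h1
  · exact Or.inr (Or.inr h1)
  · rcases hV.ord p hp h1 with rfl | rfl | h2
    · exact Or.inl (hV.mem1 h)
    · exact Or.inl (hV.mem2 h)
    · exact Or.inr (Or.inl h2)

/-! ### contacts -/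

/-- invisible points of `S(V)` are no contacts of `S(u)` and `S(V)` outside the connecting arc `P` -/
def NCt (T : ℂ → Set (Fin 6)) (Inv : ℂ → ℂ → Prop) (V u : ℂ) (P : Set (Fin 6)) : Prop :=
  ∀ p, Inv V p → dist p V = 1 → dist p u = 1 → u + V ≠ 2 * p → p ∈ closure (Ex T V P)

/-- both common points are on the closed arc -/
theorem QI0.contacts (h : Irr U T) (hV : QI0 T Inv V a b m n e f V1 V2)
    (hI : NCt T Inv V u {a, b}) (h3 : (T u).ncard ≤ 3)
    (hu : T u = ({a, b, n} : Set (Fin 6))ᶜ) (h2 : dist u V < 2) :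
    ∃ p p', p ≠ p' ∧ dist p V = 1 ∧ dist p' V = 1 ∧ dist p u = 1 ∧ dist p' u = 1 ∧
      p + p' = u + V ∧ p ∈ closure (Ex T V {a, b}) ∧ p' ∈ closure (Ex T V {a, b}) := by
  have hne : u ≠ V := by
    rintro rfl
    have h1 : a ∈ T u := by rw [hV.pal]; simp
    rw [hu] at h1
    exact h1 (by simp)
  obtain ⟨p, p', g1, g2, g3, g4, g5, g6, g7, g8⟩ := H678.two_common h2 hne
  refine ⟨p, p', g1, g3, g5, g2, g4, g8, ?_, ?_⟩
  · rcases hV.le3 h g3 with h5 | h5 | h5
    · exact h5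
    · exact hI p h5 g3 g2 g6
    · exact H227.contact_three h hV.dpt h3 hu g2 g3 g6 h5
  · rcases hV.le3 h g5 with h5 | h5 | h5
    · exact h5
    · exact hI p' h5 g5 g4 g7
    · exact H227.contact_three h hV.dpt h3 hu g4 g5 g7 h5

/-- a complement of a face is at distance at least root three -/
theorem QI0.far (h : Irr U T) (hV : QI0 T Inv V a b m n e f V1 V2) (hI : NCt T Inv V u {a, b})
    (h3 : (T u).ncard ≤ 3) (hu : T u = ({a, b, n} : Set (Fin 6))ᶜ) : 3 ≤ dist u V ^ 2 := by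
  rcases lt_or_ge (dist u V) 2 with h2 | h2
  swap
  · nlinarith
  obtain ⟨p, p', g1, g2, g3, g4, g5, g6, g7, g8⟩ := hV.contacts h hI h3 hu h2
  exact H678.far_of_diam g4 g5 g6 (hV.diam h g7 g8)

/-- **X.CONT.3** : a three-point complementary to a face of `V` and to a face of its neighbour `V1` -/
theorem QI0.no_two (h : Irr U T) (hV : QI0 T Inv V a b m n e f V1 V2)
    (hV1 : QI0 T Inv V1 a' b' m' n' e' f' W1 W2) (hI : NCt T Inv V u {a, b})
    (hI1 : NCt T Inv V1 u {a', b'}) (h3 : (T u).ncard ≤ 3)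
    (hu : T u = ({a, b, n} : Set (Fin 6))ᶜ) (hu' : T u = ({a', b', n'} : Set (Fin 6))ᶜ) :
    2 ≤ dist u V := by
  by_contra h2
  push Not at h2
  obtain ⟨p, p', g1, g2, g3, g4, g5, g6, g7, g8⟩ := hV.contacts h hI h3 hu h2
  have h4 := H678.near_end g2 g3 g6 g1 hV.dist1 (hV.diam h g7 (hV.mem1 h))
    (hV.diam h g8 (hV.mem1 h))
  have h5 := hV1.far h hI1 h3 hu'
  linarith

/-- STAY at `V1` : the complement of the face `{a, b, m}` -/
theorem QI0.no_stay (h : Irr U T) (hV : QI0 T Inv V a b m n e f V1 V2)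
    (hV1 : QI0 T Inv V1 a m g b e' f' W1 W2) (hI : NCt T Inv V u {a, b})
    (hI1 : NCt T Inv V1 u {a, m}) (h3 : (T u).ncard ≤ 3)
    (hu : T u = ({a, b, m} : Set (Fin 6))ᶜ) : 2 ≤ dist u V := by
  by_contra h2
  push Not at h2
  obtain ⟨p, p', g1, g2, g3, g4, g5, g6, g7, g8⟩ := hV.mirror.contacts h hI h3 hu h2
  have h4 := H678.near_end g2 g3 g6 g1 hV.dist1 (hV.diam h g7 (hV.mem1 h))
    (hV.diam h g8 (hV.mem1 h))
  have h5 := hV1.far h hI1 h3 (by rw [hu, Set.pair_comm b m])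
  linarith

/-- SWITCH at `V1` : the complement of the face `{a, b, n}` -/
theorem QI0.no_switch (h : Irr U T) (hV : QI0 T Inv V a b m n e f V1 V2)
    (hV1 : QI0 T Inv V1 n b a g e' f' W1 W2) (hI : NCt T Inv V u {a, b})
    (hI1 : NCt T Inv V1 u {n, b}) (h3 : (T u).ncard ≤ 3)
    (hu : T u = ({a, b, n} : Set (Fin 6))ᶜ) : 2 ≤ dist u V := by
  refine hV.no_two h hV1.mirror hI hI1 h3 hu ?_
  rw [hu]
  ext x
  simp only [mem_compl_iff, mem_insert_iff, mem_singleton_iff]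
  tauto

/-- a chord of an arc of at most 60 degrees and the two chords to an end of the arc -/
theorem sq_chord {s t x y r : ℝ} (hst : t ≤ s + 1) (hx : x ∈ Icc s t) (hy : y ∈ Icc s t)
    (hr : r = s ∨ r = t) : dist (pt V x) (pt V y) ^ 2 ≤
      dist (pt V x) (pt V r) ^ 2 + dist (pt V y) (pt V r) ^ 2 := by
  have hpi := Real.pi_pos
  have hcos : ∀ r r' : ℝ, |r| ≤ |r'| → |r'| ≤ 1 →
      Real.cos (r' * (Real.pi / 3)) ≤ Real.cos (r * (Real.pi / 3)) := by
    intro r r' h6 h7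
    rw [← Real.cos_abs (r * (Real.pi / 3)), ← Real.cos_abs (r' * (Real.pi / 3)), abs_mul,
      abs_mul, abs_of_pos (by positivity : 0 < Real.pi / 3)]
    refine Real.cos_le_cos_of_nonneg_of_le_pi (by positivity) ?_ ?_
    · nlinarith
    · exact mul_le_mul_of_nonneg_right h6 (by positivity)
  have hle : ∀ r : ℝ, Real.cos (r * (Real.pi / 3)) ≤ 1 := fun r => Real.cos_le_one _
  rw [H383.sq_dist_pt, H383.sq_dist_pt, H383.sq_dist_pt]
  rcases hr with rfl | rfl
  · rcases le_total x y with h6 | h6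
    · have h7 := hcos (x - y) (y - r) (by
        rw [abs_of_nonpos (by linarith), abs_of_nonneg (by linarith [hy.1])]
        linarith [hx.1]) (by
        rw [abs_of_nonneg (by linarith [hy.1])]; linarith [hy.2])
      have h8 := hle (x - r)
      linarith
    · have h7 := hcos (x - y) (x - r) (by
        rw [abs_of_nonneg (by linarith), abs_of_nonneg (by linarith [hx.1])]
        linarith [hy.1]) (by
        rw [abs_of_nonneg (by linarith [hx.1])]; linarith [hx.2])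
      have h8 := hle (y - r)
      linarith
  · rcases le_total x y with h6 | h6
    · have h7 := hcos (x - y) (x - r) (by
        rw [abs_of_nonpos (by linarith), abs_of_nonpos (by linarith [hx.2])]
        linarith [hy.2]) (by
        rw [abs_of_nonpos (by linarith [hx.2])]; linarith [hx.1])
      have h8 := hle (y - r)
      linarith
    · have h7 := hcos (x - y) (y - r) (by
        rw [abs_of_nonneg (by linarith), abs_of_nonpos (by linarith [hy.2])]
        linarith [hx.2]) (by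
        rw [abs_of_nonpos (by linarith [hy.2])]; linarith [hy.1])
      have h8 := hle (x - r)
      linarith

/-- **row V_(±1)** : complements of the faces of `V` are not in the open discs of its neighbours -/
theorem QI0.far_end (h : Irr U T) (hV : QI0 T Inv V a b m n e f V1 V2)
    (hI : NCt T Inv V u {a, b}) (h3 : (T u).ncard ≤ 3)
    (hu : T u = ({a, b, n} : Set (Fin 6))ᶜ) : 1 ≤ dist u V1 := by
  rcases lt_or_ge (dist u V) 2 with h2 | h2
  swap
  · have h1 := dist_triangle u V1 V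
    rw [hV.dist1] at h1
    linarith
  obtain ⟨p, p', g1, g2, g3, g4, g5, g6, g7, g8⟩ := hV.contacts h hI h3 hu h2
  have h4 := sq_third g2 g3 hV.dist1 g6
  have key : dist p p' ^ 2 ≤ dist p V1 ^ 2 + dist p' V1 ^ 2 := by
    obtain ⟨s, t, k1, k2, k3, -, k5⟩ := hV.arc' h
    rw [k5] at g7 g8
    obtain ⟨x, hx, rfl⟩ := g7
    obtain ⟨y, hy, rfl⟩ := g8
    rcases k3 with ⟨k3, -⟩ | ⟨k3, -⟩
    · rw [k3]
      exact sq_chord k2 hx hy (Or.inr rfl)
    · rw [k3]
      exact sq_chord k2 hx hy (Or.inl rfl)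
  nlinarith [dist_nonneg (x := u) (y := V1)]

/-! ### the structures of H678 -/

/-- a point of the circle inside the disc of the fourth vertex of the rhombus is on the short arc -/
theorem pt_between {x y w : ℝ} (hxy : x ≤ y) (hxy' : y ≤ x + 1)
    (hd : dist (pt V w) (pt V x + pt V y - V) < 1) : ∃ w' ∈ Ioo x y, pt V w' = pt V w := by
  -- reduce `w` to the interval around the midpoint
  have hpi := Real.pi_pos
  obtain ⟨k, hk⟩ : ∃ k : ℤ, |w - (x + y) / 2 - 6 * k| ≤ 3 := by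
    refine ⟨round ((w - (x + y) / 2) / 6), ?_⟩
    have h1 := abs_sub_round ((w - (x + y) / 2) / 6)
    rw [abs_le] at h1 ⊢
    constructor <;> linarith [h1.1, h1.2]
  have hper : ∀ (k : ℤ) (v : ℝ), pt V (v - 6 * k) = pt V v := by
    intro k v
    unfold pt
    have h1 : cis ((v - 6 * k) * (Real.pi / 3)) = cis (v * (Real.pi / 3)) := by
      have e1 : (v - 6 * k) * (Real.pi / 3) = v * (Real.pi / 3) - k * (2 * Real.pi) := by ring
      unfold cis
      apply Complex.ext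
      · rw [Complex.exp_ofReal_mul_I_re, Complex.exp_ofReal_mul_I_re, e1,
          Real.cos_sub_int_mul_two_pi]
      · rw [Complex.exp_ofReal_mul_I_im, Complex.exp_ofReal_mul_I_im, e1,
          Real.sin_sub_int_mul_two_pi]
    rw [h1]
  refine ⟨w - 6 * k, ?_, hper k w⟩
  rw [← hper k w] at hd
  obtain ⟨v, hv⟩ : ∃ v, v = w - 6 * k := ⟨_, rfl⟩
  rw [← hv] at hd ⊢
  have hk' : |v - (x + y) / 2| ≤ 3 := by
    rw [show v - (x + y) / 2 = w - (x + y) / 2 - 6 * k by rw [hv]; ring]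
    exact hk
  -- the distance
  have h1 := sq_third (V := V) (u := pt V x + pt V y - V) (dist_pt V x) (dist_pt V y)
    (dist_pt V v) (by ring)
  rw [dist_comm] at hd
  have h2 : dist (pt V x + pt V y - V) (pt V v) ^ 2 < 1 := by
    have := dist_nonneg (x := pt V x + pt V y - V) (y := pt V v)
    nlinarith
  rw [h1, H383.sq_dist_pt, H383.sq_dist_pt, H383.sq_dist_pt] at h2
  -- `1 + cos (x - y) < cos (x - v) + cos (y - v)`
  obtain ⟨α, hα⟩ : ∃ α, α = (y - x) / 2 * (Real.pi / 3) := ⟨_, rfl⟩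
  obtain ⟨β, hβ⟩ : ∃ β, β = (v - (x + y) / 2) * (Real.pi / 3) := ⟨_, rfl⟩
  have e1 : Real.cos ((x - y) * (Real.pi / 3)) = 2 * Real.cos α ^ 2 - 1 := by
    rw [← Real.cos_two_mul, ← Real.cos_neg, hα]; congr 1; ring
  have e2 : Real.cos ((x - v) * (Real.pi / 3)) + Real.cos ((y - v) * (Real.pi / 3)) =
      2 * (Real.cos α * Real.cos β) := by
    have e3 : (x - v) * (Real.pi / 3) = -(β + α) := by rw [hα, hβ]; ring
    have e4 : (y - v) * (Real.pi / 3) = -(β - α) := by rw [hα, hβ]; ring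
    rw [e3, e4, Real.cos_neg, Real.cos_neg, Real.cos_add, Real.cos_sub]; ring
  have hα1 : 0 < Real.cos α := by
    refine Real.cos_pos_of_mem_Ioo ⟨?_, ?_⟩
    · rw [hα]; nlinarith
    · rw [hα]; nlinarith
  have h3 : Real.cos α < Real.cos β := by nlinarith
  have h4 : |β| < α := by
    by_contra h5
    push Not at h5
    have h6 : Real.cos |β| ≤ Real.cos α := by
      refine Real.cos_le_cos_of_nonneg_of_le_pi ?_ ?_ h5
      · rw [hα]; exact mul_nonneg (by linarith) (by positivity)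
      · rw [hβ, abs_mul, abs_of_pos (by positivity : 0 < Real.pi / 3)]
        nlinarith
    rw [Real.cos_abs] at h6
    linarith
  rw [abs_lt, hα, hβ] at h4
  have h5 : 0 < Real.pi / 3 := by positivity
  have h6 : -((y - x) / 2) < v - (x + y) / 2 := by
    refine lt_of_mul_lt_mul_right (a := Real.pi / 3) ?_ h5.le
    linarith [h4.1]
  have h7 : v - (x + y) / 2 < (y - x) / 2 := lt_of_mul_lt_mul_right h4.2 h5.le
  exact ⟨by linarith, by linarith⟩

theorem QI0.toQf (h : Irr U T) (hV : QI0 T Inv V a b m n e f V1 V2) :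
    H678.Qf T V {a, b} {m, n} where
  tp := H678.TP.of_dpt h hV.dpt
  diam := fun p hp q hq => hV.diam h hp hq
  three := by
    intro p hp h3
    rcases hV.cases h hp with rfl | rfl | h1
    · have := hV.ord1; omega
    · have := hV.ord2; omega
    · exact ex_self h1
  conv := by
    intro p hp p' hp' q hq hd
    obtain ⟨s, t, h1, h2, h3, h4, h5⟩ := hV.arc' h
    obtain ⟨x, hx, rfl⟩ : p ∈ pt V '' Icc s t := h5 ▸ subset_closure hp
    obtain ⟨y, hy, rfl⟩ : p' ∈ pt V '' Icc s t := h5 ▸ subset_closure hp'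
    obtain ⟨w, rfl⟩ : ∃ w, q = pt V w := by
      obtain ⟨t0, ht0⟩ := exists_cis (u := q - V) (by rw [← dist_eq_norm]; exact hq)
      refine ⟨t0 / (Real.pi / 3), ?_⟩
      unfold pt
      rw [div_mul_cancel₀ _ (by positivity : Real.pi / 3 ≠ 0), ← ht0]; ring
    rcases le_total x y with h6 | h6
    · obtain ⟨w', hw', e⟩ := pt_between h6 (by linarith [hx.1, hy.2]) hd
      rw [← e]
      exact ex_self (h4 w' ⟨by linarith [hx.1, hw'.1], by linarith [hy.2, hw'.2]⟩)
    · rw [add_comm (pt V x)] at hd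
      obtain ⟨w', hw', e⟩ := pt_between h6 (by linarith [hy.1, hx.2]) hd
      rw [← e]
      exact ex_self (h4 w' ⟨by linarith [hy.1, hw'.1], by linarith [hx.2, hw'.2]⟩)
  conn := by
    obtain ⟨s, t, h1, h2, h3, h4, h5⟩ := hV.arc' h
    rw [h5]
    exact isPreconnected_Icc.image _ (continuous_pt V).continuousOn

end Vale.Agent.P032.H961
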