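import Vale.Agent.P032.H961.DH2
import Vale.Agent.P032.H492.Branch
import Vale.Agent.P032.H800.XDeg
import Vale.Agent.P032.S5.H496.Start

/-!
# P032, row D2 of the degree theorem

`rowD2 : H800.RowD2` : a limit of exact points of a pair without plain ends is not harmless (in the
world without split points and without a point of order at least four with three points of order at
least four on its unit circle).
-/

open Set Filter Topology Metric

noncomputable section

namespace Vale.Agent.P032.H961

open Vale.Agent.P032.Six Vale.Agent.P032.S5.H767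

variable {U : Fin 6 → Set ℂ} {T : ℂ → Set (Fin 6)} {V : ℂ} {P : ℝ → ℂ} {α : ℝ}
  {a b c d : Fin 6} {B : Set (Fin 6)}

/-- **the end is not harmless** -/
theorem Ar.not_harm (A : Ar U T V a b P α) (hV : DPt T V a b c d)
    (hy : P 0 ∈ closure (Ex T V {a, b})) (hB : Six.Harm T (P 0) B) : False := by
  obtain ⟨e, f, hnd⟩ := hV.exists_nodup
  have hVy : dist V (P 0) = 1 := by rw [dist_comm]; exact A.circ.dst 0
  have hsub := sub_of_closure A.irr hy
  have ha : a ∈ T (P 0) := hsub (by simp)
  have hb : b ∈ T (P 0) := hsub (by simp)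
  have key : ∀ {c d e f : Fin 6}, DPt T V a b c d → [a, b, c, d, e, f].Nodup →
      T (P 0) = {a, b, c, f} → False := by
    intro c d e f hV hnd hT
    have hc : c ∈ B := by
      rcases (A.irr.end_harm492 hV hVy hT hy hB).1 with h1 | h1 <;> rw [h1] <;> simp
    exact A.endK hV hnd hT hB hc
  rcases four_sets hnd hB.card ha hb with (h1 | (h1 | h1) | (h1 | h1)) | h1
  · exact A.irr.no_harm_J492 hV hVy (by rw [h1, hV.pal]) hB
  · exact key hV (nodup_swap56 hnd) h1
  · exact key hV hnd h1
  · exact key hV.swap34 (nodup_swap34 (nodup_swap56 hnd)) h1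
  · exact key hV.swap34 (nodup_swap34 hnd) h1
  · -- the palette `{a, b, e, f}`
    have hBT : ∀ i ∈ B, i = a ∨ i = b ∨ i = e ∨ i = f := by
      intro i hi
      have h2 := hB.sub hi
      rw [h1] at h2
      rcases h2 with h | h | h | h
      · exact Or.inl h
      · exact Or.inr (Or.inl h)
      · exact Or.inr (Or.inr (Or.inl h))
      · exact Or.inr (Or.inr (Or.inr h))
    have hBab : B ≠ {a, b} := by
      rintro rfl
      exact A.irr.not_harm492 hV.ab hy hB
    by_cases he : e ∈ B
    · by_cases hf : f ∈ B
      · exact A.endEF hV hnd h1 hB he hf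
      · obtain ⟨x, hx, hxe⟩ : ∃ x ∈ B, x ≠ e := by
          by_contra hcon
          push Not at hcon
          have h2 : B ⊆ {e} := fun i hi => hcon i hi
          have h3 := Set.ncard_le_ncard h2 (Set.toFinite _)
          rw [hB.cardA, Set.ncard_singleton] at h3
          omega
        refine A.endH hV hnd h1 hB he hx ?_
        rw [hV.pal]
        rcases hBT x hx with h | h | h | h
        · rw [h]; simp
        · rw [h]; simp
        · exact absurd h hxe
        · exact absurd (h ▸ hx) hf
    · by_cases hf : f ∈ B
      · obtain ⟨x, hx, hxf⟩ : ∃ x ∈ B, x ≠ f := by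
          by_contra hcon
          push Not at hcon
          have h2 : B ⊆ {f} := fun i hi => hcon i hi
          have h3 := Set.ncard_le_ncard h2 (Set.toFinite _)
          rw [hB.cardA, Set.ncard_singleton] at h3
          omega
        refine A.endH hV (nodup_swap56 hnd) ?_ hB hf hx ?_
        · rw [h1]
          ext i
          simp only [mem_insert_iff, mem_singleton_iff]
          tauto
        · rw [hV.pal]
          rcases hBT x hx with h | h | h | h
          · rw [h]; simp
          · rw [h]; simp
          · exact absurd (h ▸ hx) he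
          · exact absurd h hxf
      · refine hBab (Set.eq_of_subset_of_ncard_le ?_ ?_ (Set.toFinite _))
        · intro i hi
          rcases hBT i hi with h | h | h | h
          · exact Or.inl h
          · exact Or.inr h
          · exact absurd (h ▸ hi) he
          · exact absurd (h ▸ hi) hf
        · rw [Set.ncard_pair hV.ab, hB.cardA]

/-- **row D2** -/
theorem rowD2 : H800.RowD2 := by
  intro U T X V a b c d hV hp y hy B hB
  have h := X.df.irr
  obtain ⟨s, t, hst, hst1, -, hall, hs, ht, hord⟩ := one_arc169 h hV hp
    fun y1 y2 y3 => X.n3 V y1 y2 y3 (card_dpt hV).ge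
  have hyV : dist y V = 1 := (H383.closure_cases h hV hp hy).1.1
  have hyE : y ∈ closure (Ex T V {a, b}) := by
    rw [← xa_eq h hV]
    exact hy
  have key : ∀ θ o : ℝ, ((o = 1 ∧ θ = s) ∨ (o = -1 ∧ θ = t)) → y = pt V θ → False := by
    intro θ o ho hθ
    have A := ar_of h hV hst hst1 hall hs.1 ht.1 hord ho (by
      rw [← hθ]
      exact fun y1 y2 y3 => X.n3 y y1 y2 y3 hB.card.ge)
    have e0 : θ + o * 0 = θ := by ring
    refine A.not_harm hV ?_ (B := B) ?_
    · show pt V (θ + o * 0) ∈ _
      rw [e0, ← hθ]
      exact hyE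
    · show Six.Harm T (pt V (θ + o * 0)) B
      rw [e0, ← hθ]
      exact hB
  rcases hord y hyV hB.card.ge with h1 | h1
  · exact key s 1 (Or.inl ⟨rfl, rfl⟩) h1
  · exact key t (-1) (Or.inr ⟨rfl, rfl⟩) h1

end Vale.Agent.P032.H961
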