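import Vale.Agent.P032.H961.DH4
import Vale.Agent.P032.H169.LinksDeg

/-!
# P032: the links of the world without a point of order at least four with three such neighbours

`wd_of` : 169's world `WD` from `DF`, `NoThree` and `one pair of every two-pair point is plain-free`;
`qiw_of961` : the world `QIW` without invisible points.
-/

open Set Filter Topology Metric

noncomputable section

namespace Vale.Agent.P032.H961

open Vale.Agent.P032.Six Vale.Agent.P032.H383

variable {U : Fin 6 → Set ℂ} {T : ℂ → Set (Fin 6)}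

theorem wd_of (h : DF U T) (m : ∀ {V a b c d}, DPt T V a b c d → Pf T V a b ∨ Pf T V c d)
    (n3 : ∀ z y1 y2 y3, 4 ≤ (T z).ncard → dist y1 z = 1 → dist y2 z = 1 → dist y3 z = 1 →
      4 ≤ (T y1).ncard → 4 ≤ (T y2).ncard → 4 ≤ (T y3).ncard → y1 = y2 ∨ y1 = y3 ∨ y2 = y3) :
    H169.WD U T :=
  ⟨h, m, n3, fun hV hp _ hy _ => no_harm_end961 h.irr n3 hV hp hy⟩

/-- **the world of quasi-full points** -/
theorem qiw_of961 (h : DF U T) (m : ∀ {V a b c d}, DPt T V a b c d → Pf T V a b ∨ Pf T V c d)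
    (n3 : ∀ z y1 y2 y3, 4 ≤ (T z).ncard → dist y1 z = 1 → dist y2 z = 1 → dist y3 z = 1 →
      4 ≤ (T y1).ncard → 4 ≤ (T y2).ncard → 4 ≤ (T y3).ncard → y1 = y2 ∨ y1 = y3 ∨ y2 = y3) :
    QIW T fun _ _ => False :=
  H169.qiw_deg169 (wd_of h m n3) fun _ _ h => h.elim

end Vale.Agent.P032.H961
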