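import Vale.Agent.P032.H961.World

/-!
# P032: the world `QFW` gives the world `QW` of H678, with all fields
-/

open Set Filter Topology Metric

noncomputable section

namespace Vale.Agent.P032.H961

open Vale.Agent.P032.Six Vale.Agent.P032.S5.H767

variable {U : Fin 6 → Set ℂ} {T : ℂ → Set (Fin 6)}
  {V V1 V2 V1' V2' W W1 W2 : ℂ} {a b c d m n e f g a' b' m' n' e' f' : Fin 6}

theorem QF0.ends_mem (H : QF0 T V a b m n e f V1 V2) (H' : QF0 T V a' b' m' n' e' f' V1' V2') :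
    V1' = V1 ∨ V1' = V2 := H.ord V1' H'.dist1 H'.ord1.ge

theorem QF.inner (h : Irr U T) (H : QF T V a b m n e f V1 V2)
    (H' : QF T V a' b' m' n' e' f' V1' V2') : a' = a ∧ b' = b :=
  inner_unique (Inv := fun _ _ => False) (Inv' := fun _ _ => False) h H.toQI H'.toQI
    (H.toQF0.pair_unique h H'.toQF0)

/-- **all data of a quasi-full point are unique up to the mirror image** -/
theorem QF.uniq (h : Irr U T) (H : QF T V a b m n e f V1 V2)
    (H' : QF T V a' b' m' n' e' f' V1' V2') : a' = a ∧ b' = b ∧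
    (m' = m ∧ n' = n ∧ V1' = V1 ∧ V2' = V2 ∨ m' = n ∧ n' = m ∧ V1' = V2 ∧ V2' = V1) := by
  obtain ⟨rfl, rfl⟩ := H.inner h H'
  exact ⟨rfl, rfl, QI0.uniq (Inv := fun _ _ => False) (Inv' := fun _ _ => False) h
    H.toQF0.toQI0 H'.toQF0.toQI0 (H.toQF0.ends_mem H'.toQF0)
    (H.toQF0.ends_mem H'.toQF0.mirror)⟩

/-- chain vertex with the connecting pair `C` and the other pair `A` -/
def QQF (T : ℂ → Set (Fin 6)) (V : ℂ) (C A : Set (Fin 6)) : Prop :=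
  ∃ (a b m n e f : Fin 6) (V1 V2 : ℂ), C = {a, b} ∧ A = {m, n} ∧ QF T V a b m n e f V1 V2

theorem linkF_one (hw : QFW T) (H : QF T V a b m n e f V1 V2) :
    ∃ α α' X g, ({a, b} : Set (Fin 6)) = {α, α'} ∧ α ≠ α' ∧ X ∈ ({m, n} : Set (Fin 6)) ∧
      g ∉ ({a, b} : Set (Fin 6)) ∧ g ≠ X ∧ QQF T V1 {α, X} {α', g} := by
  have hab := H.dpt.ab
  obtain ⟨g, e1, f1, W, h1 | h1⟩ := hw.link H
  · have hD := h1.dpt
    refine ⟨a, b, m, g, rfl, hab, by simp, ?_, hD.bc.symm, a, m, g, b, e1, f1, W, V, rfl,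
      Set.pair_comm _ _, h1⟩
    rintro (h2 | h2)
    · exact hD.ac h2.symm
    · exact hD.cd h2
  · have hD := h1.dpt
    refine ⟨b, a, n, g, Set.pair_comm _ _, hab.symm, by simp, ?_, hD.ad.symm, n, b, a, g, e1, f1,
      W, V, Set.pair_comm _ _, rfl, h1⟩
    rintro (h2 | h2)
    · exact hD.cd h2.symm
    · exact hD.bd h2.symm

theorem linkF_two (hw : QFW T) (H : QF T V a b m n e f V1 V2) :
    ∃ α α' X g, ({a, b} : Set (Fin 6)) = {α, α'} ∧ α ≠ α' ∧ X ∈ ({m, n} : Set (Fin 6)) ∧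
      g ∉ ({a, b} : Set (Fin 6)) ∧ g ≠ X ∧ QQF T V2 {α, X} {α', g} := by
  obtain ⟨α, α', X, g, h1, h2, h3, h4, h5, h6⟩ := linkF_one hw H.mirror
  exact ⟨α, α', X, g, h1, h2, by rwa [Set.pair_comm], h4, h5, h6⟩

/-- the two connecting pairs at a common link -/
theorem fourF_link (h : Irr U T) (hw : QFW T) {p : ℂ} (H : QF T V a b m n e f V1 V2)
    (H' : QF T W a' b' m' n' e' f' W1 W2) (hne : V ≠ W) (hp : p = V1 ∨ p = V2)
    (hp' : p = W1 ∨ p = W2) : (({a, b} : Set (Fin 6)) ∩ {a', b'}).Nonempty := by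
  have key : ∀ {V : ℂ} {a b m n e f : Fin 6} {V2 : ℂ}, QF T V a b m n e f p V2 →
      ∃ (a1 b1 m1 n1 e1 f1 : Fin 6) (X : ℂ), QF T p a1 b1 m1 n1 e1 f1 X V ∧
        (({a, b} : Set (Fin 6)) = {a1, n1} ∨ ({a, b} : Set (Fin 6)) = {m1, b1}) := by
    intro V a b m n e f V2 H
    obtain ⟨g, e1, f1, X, h1 | h1⟩ := hw.link H
    · exact ⟨a, m, g, b, e1, f1, X, h1, Or.inl rfl⟩
    · exact ⟨n, b, a, g, e1, f1, X, h1, Or.inr rfl⟩
  have hV : ∃ (a1 b1 m1 n1 e1 f1 : Fin 6) (X : ℂ), QF T p a1 b1 m1 n1 e1 f1 X V ∧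
        (({a, b} : Set (Fin 6)) = {a1, n1} ∨ ({a, b} : Set (Fin 6)) = {m1, b1}) := by
    rcases hp with rfl | rfl
    · exact key H
    · exact key H.mirror
  have hW : ∃ (a1 b1 m1 n1 e1 f1 : Fin 6) (X : ℂ), QF T p a1 b1 m1 n1 e1 f1 X W ∧
        (({a', b'} : Set (Fin 6)) = {a1, n1} ∨ ({a', b'} : Set (Fin 6)) = {m1, b1}) := by
    rcases hp' with rfl | rfl
    · exact key H'
    · exact key H'.mirror
  obtain ⟨a1, b1, m1, n1, e1, f1, X, K, hC⟩ := hV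
  obtain ⟨a2, b2, m2, n2, e2, f2, Y, K', hC'⟩ := hW
  obtain ⟨rfl, rfl, k3⟩ := K.uniq h K'
  rcases k3 with ⟨rfl, rfl, k4, k5⟩ | ⟨rfl, rfl, k4, k5⟩
  · exact absurd k5.symm hne
  · rcases hC with hC | hC <;> rcases hC' with hC' | hC' <;> rw [hC, hC']
    · exact ⟨a2, by simp, by simp⟩
    · exact ⟨m2, by simp, by simp⟩
    · exact ⟨n2, by simp, by simp⟩
    · exact ⟨b2, by simp, by simp⟩

/-- **the world of H678**, all fields -/
theorem QFW.toQW (h : Irr U T) (hw : QFW T) : H678.QW T (QQF T) where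
  qf := by
    rintro V C A ⟨a, b, m, n, e, f, V1, V2, rfl, rfl, H⟩
    exact (H.toQF0.toQI0 (Inv := fun _ _ => False)).toQf h
  ends := by
    rintro V C A ⟨a, b, m, n, e, f, V1, V2, rfl, rfl, H⟩
    exact ⟨V1, H.mem1 h, H.ord1.ge⟩
  link := by
    rintro V C A q ⟨a, b, m, n, e, f, V1, V2, rfl, rfl, H⟩ hq h4
    rcases H.cases h hq with rfl | rfl | h1
    · exact linkF_one hw H
    · exact linkF_two hw H
    · exfalso
      rw [h1, Set.ncard_pair H.dpt.ab] at h4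
      omega
  four := by
    rintro V C A W C' A' p ⟨a, b, m, n, e, f, V1, V2, rfl, rfl, H⟩
      ⟨a', b', m', n', e', f', W1, W2, rfl, rfl, H'⟩ hne - hp hp' h4
    exact fourF_link h hw H H' hne (H.ord p hp h4) (H'.ord p hp' h4)

end Vale.Agent.P032.H961
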