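import Vale.Agent.P032.H961.World
import Vale.Agent.P032.H383.Loc
import Vale.Agent.P032.H416.Props

/-!
# P032: the palettes at the ends of the exact arcs of a plain-free pair

`V` a two-pair point with the pairs `{a, b}`, `{c, d}`, at most four colours everywhere
(`DF`), no point with three colours is a limit of exact `ab`-points of `S(V)` (`Pf`).  A limit `y` of
exact `ab`-points of `S(V)` is exact or has four colours, and then it has the palette of `V`, or
`{a, b, x, g}` with `x ∈ {c, d}` and `g ∉ T V`, or `{a, b, e, f}` (`xl2'`); the last palette is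
excluded by `NoCov` (`xl2`).
-/

open Set Filter Topology Metric

noncomputable section

namespace Vale.Agent.P032.H961

open Vale.Agent.P032.Six Vale.Agent.P032.S5.H767

variable {U : Fin 6 → Set ℂ} {T : ℂ → Set (Fin 6)} {V y : ℂ} {a b c d e f : Fin 6}

/-- the type of the palette `s` at an end of an `ab`-arc of a point with the pairs `{a, b}`, `{c, d}` -/
def EndTy (s : Set (Fin 6)) (a b c d e f : Fin 6) : Prop :=
  s = {a, b, c, d} ∨ (s = {a, b, c, e} ∨ s = {a, b, c, f}) ∨ (s = {a, b, d, e} ∨ s = {a, b, d, f})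

/-- six different colours are all -/
theorem six_cases (h : [a, b, c, d, e, f].Nodup) (i : Fin 6) :
    i = a ∨ i = b ∨ i = c ∨ i = d ∨ i = e ∨ i = f := by
  have h1 : (Finset.univ : Finset (Fin 6)) = [a, b, c, d, e, f].toFinset :=
    (Finset.eq_univ_of_card _ (by rw [List.toFinset_card_of_nodup h]; rfl)).symm
  have h2 := Finset.mem_univ i
  rw [h1] at h2
  simpa using h2

/-- sets of four colours which contain `a`, `b` -/
theorem four_sets {s : Set (Fin 6)} (hnd : [a, b, c, d, e, f].Nodup) (h4 : s.ncard = 4)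
    (ha : a ∈ s) (hb : b ∈ s) : EndTy s a b c d e f ∨ s = {a, b, e, f} := by
  have hall := six_cases hnd
  have hnd' := hnd
  simp only [List.nodup_cons, List.mem_cons, List.not_mem_nil, or_false, not_or,
    List.nodup_nil, and_true, not_false_eq_true] at hnd'
  obtain ⟨⟨hab, hac, had, hae, haf⟩, ⟨hbc, hbd, hbe, hbf⟩, ⟨hcd, hce, hcf⟩, ⟨hde, hdf⟩, hef⟩ := hnd'
  have key : ∀ x x' : Fin 6, a ≠ x → a ≠ x' → b ≠ x → b ≠ x' → x ≠ x' → x ∈ s → x' ∈ s →
      s = {a, b, x, x'} := by
    intro x x' h1 h2 h3 h4' h5 hx hx'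
    symm
    refine Set.eq_of_subset_of_ncard_le ?_ ?_ (Set.toFinite _)
    · rintro j (rfl | rfl | rfl | rfl) <;> assumption
    · rw [h4, Set.ncard_insert_of_notMem, Set.ncard_insert_of_notMem, Set.ncard_pair h5]
      · simp only [mem_insert_iff, mem_singleton_iff, not_or]; exact ⟨h3, h4'⟩
      · simp only [mem_insert_iff, mem_singleton_iff, not_or]; exact ⟨hab, h1, h2⟩
  -- at least two of the four other colours
  have hle : ∀ x : Fin 6, (∀ i ∈ s, i = a ∨ i = b ∨ i = x) → False := by
    intro x hx
    have h1 : s ⊆ ({a, b, x} : Set (Fin 6)) := fun i hi => by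
      rcases hx i hi with rfl | rfl | rfl <;> simp
    have h2 := Set.ncard_le_ncard h1 (Set.toFinite _)
    have h3 : ({a, b, x} : Set (Fin 6)).ncard ≤ 3 := by
      refine (Set.ncard_insert_le _ _).trans ?_
      have := Set.ncard_insert_le b ({x} : Set (Fin 6))
      rw [Set.ncard_singleton] at this
      omega
    omega
  by_cases hc : c ∈ s
  · by_cases hd : d ∈ s
    · exact Or.inl (Or.inl (key c d hac had hbc hbd hcd hc hd))
    · by_cases he : e ∈ s
      · exact Or.inl (Or.inr (Or.inl (Or.inl (key c e hac hae hbc hbe hce hc he))))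
      · by_cases hf : f ∈ s
        · exact Or.inl (Or.inr (Or.inl (Or.inr (key c f hac haf hbc hbf hcf hc hf))))
        · exfalso
          refine hle c fun i hi => ?_
          rcases hall i with rfl | rfl | rfl | rfl | rfl | rfl
          · exact Or.inl rfl
          · exact Or.inr (Or.inl rfl)
          · exact Or.inr (Or.inr rfl)
          · exact absurd hi hd
          · exact absurd hi he
          · exact absurd hi hf
  · by_cases hd : d ∈ s
    · by_cases he : e ∈ s
      · exact Or.inl (Or.inr (Or.inr (Or.inl (key d e had hae hbd hbe hde hd he))))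
      · by_cases hf : f ∈ s
        · exact Or.inl (Or.inr (Or.inr (Or.inr (key d f had haf hbd hbf hdf hd hf))))
        · exfalso
          refine hle d fun i hi => ?_
          rcases hall i with rfl | rfl | rfl | rfl | rfl | rfl
          · exact Or.inl rfl
          · exact Or.inr (Or.inl rfl)
          · exact absurd hi hc
          · exact Or.inr (Or.inr rfl)
          · exact absurd hi he
          · exact absurd hi hf
    · by_cases he : e ∈ s
      · by_cases hf : f ∈ s
        · exact Or.inr (key e f hae haf hbe hbf hef he hf)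
        · exfalso
          refine hle e fun i hi => ?_
          rcases hall i with rfl | rfl | rfl | rfl | rfl | rfl
          · exact Or.inl rfl
          · exact Or.inr (Or.inl rfl)
          · exact absurd hi hc
          · exact absurd hi hd
          · exact Or.inr (Or.inr rfl)
          · exact absurd hi hf
      · exfalso
        refine hle f fun i hi => ?_
        rcases hall i with rfl | rfl | rfl | rfl | rfl | rfl
        · exact Or.inl rfl
        · exact Or.inr (Or.inl rfl)
        · exact absurd hi hc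
        · exact absurd hi hd
        · exact absurd hi he
        · exact Or.inr (Or.inr rfl)

/-- a limit of points of `Ex` is a limit of exact points -/
theorem ex_sub_xa {a b : Fin 6} : closure (Ex T V {a, b}) ⊆ closure (H383.XA T V a b) :=
  closure_mono fun _ hq => ⟨hq.1, ex_self hq⟩

/-- exact points of a two-pair point are points of `Ex` -/
theorem xa_ex (h : Irr U T) (hV : DPt T V a b c d) (hy : dist y V = 1) (hT : T y = {a, b}) :
    y ∈ Ex T V {a, b} := by
  refine ⟨hy, ?_⟩
  filter_upwards [mem_nhdsWithin_of_mem_nhds (H383.XA_open h hV ⟨hy, hT⟩), self_mem_nhdsWithin]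
    with q h1 h2
  exact (h1 h2).2

theorem xa_eq (h : Irr U T) (hV : DPt T V a b c d) : H383.XA T V a b = Ex T V {a, b} :=
  Subset.antisymm (fun _ hq => xa_ex h hV hq.1 hq.2) fun _ hq => ⟨hq.1, ex_self hq⟩

/-- **XL2 without `NoCov`** -/
theorem xl2' (h : DF U T) (hV : DPt T V a b c d) (hnd : [a, b, c, d, e, f].Nodup)
    (hp : H383.Pf T V a b) (hy : y ∈ closure (H383.XA T V a b)) :
    dist y V = 1 ∧ a ∈ T y ∧ b ∈ T y ∧
    (T y = {a, b} ∨ (T y).ncard = 4 ∧ (EndTy (T y) a b c d e f ∨ T y = {a, b, e, f})) := by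
  obtain ⟨h1, h2⟩ := H383.closure_cases h.irr hV hp hy
  refine ⟨h1.1, h1.2.1, h1.2.2, ?_⟩
  rcases h2 with h2 | h2
  · exact Or.inl h2.2
  · have h3 : (T y).ncard = 4 := le_antisymm (h.le4 y) h2
    exact Or.inr ⟨h3, four_sets hnd h3 h1.2.1 h1.2.2⟩

/-- **XL2** -/
theorem xl2 (h : DF U T)
    (hN : ∀ z y, dist z y = 1 → 4 ≤ (T z).ncard → 4 ≤ (T y).ncard → ∃ i, i ∉ T z ∧ i ∉ T y)
    (hV : DPt T V a b c d) (hnd : [a, b, c, d, e, f].Nodup)
    (hp : H383.Pf T V a b) (hy : y ∈ closure (H383.XA T V a b)) :
    dist y V = 1 ∧ a ∈ T y ∧ b ∈ T y ∧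
    (T y = {a, b} ∨ (T y).ncard = 4 ∧ EndTy (T y) a b c d e f) := by
  obtain ⟨h1, h2, h3, h4⟩ := xl2' h hV hnd hp hy
  refine ⟨h1, h2, h3, ?_⟩
  rcases h4 with h4 | ⟨h4, h5 | h5⟩
  · exact Or.inl h4
  · exact Or.inr ⟨h4, h5⟩
  · exfalso
    have hc4 : (T V).ncard = 4 := by
      rw [hV.pal, Set.ncard_insert_of_notMem, Set.ncard_insert_of_notMem, Set.ncard_pair hV.cd]
      · simp only [mem_insert_iff, mem_singleton_iff, not_or]; exact ⟨hV.bc, hV.bd⟩
      · simp only [mem_insert_iff, mem_singleton_iff, not_or]; exact ⟨hV.ab, hV.ac, hV.ad⟩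
    obtain ⟨i, hi1, hi2⟩ := hN V y (by rw [dist_comm]; exact h1) hc4.ge h4.ge
    rw [hV.pal] at hi1
    rw [h5] at hi2
    simp only [mem_insert_iff, mem_singleton_iff, not_or] at hi1 hi2
    rcases six_cases hnd i with rfl | rfl | rfl | rfl | rfl | rfl
    · exact hi1.1 rfl
    · exact hi1.2.1 rfl
    · exact hi1.2.2.1 rfl
    · exact hi1.2.2.2 rfl
    · exact hi2.2.2.1 rfl
    · exact hi2.2.2.2 rfl

end Vale.Agent.P032.H961
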