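import Vale.Agent.P032.H273.A5
import Vale.Agent.P032.H564.IntHtO

/-!
# P032: two passages, weak form

A family `Q` of labels `0, 1, 2` on an interval (`IntCov`), `Q = {0}` just after the left end `a`, the
label `1` in `Q (a + 1)`, all passages `0 - 1 - 2` contain one direction `δ`; the interval has a length
> 5, or it has a length > 4 and `δ = a + 4`: impossible (`n5w`, `a5x`, mirror image `a5x'`).
-/

open Set Filter Topology

noncomputable section

namespace Vale.Agent.P032.H961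

open Vale.Agent.P032.H180 Vale.Agent.P032.H564 Vale.Agent.P032.H273

variable {Q : ℝ → Set (Fin 3)} {a b : ℝ}

/-- **two passages, normalized, weak form** -/
theorem n5w (h : IntCov Q a b) {δ : ℝ} (hab : a + 4 < b) (hδ : a + 5 < b ∨ δ = a + 4)
    (h0 : ∀ᶠ t in 𝓝[>] a, Q t ⊆ {0}) (h1 : (1 : Fin 3) ∈ Q (a + 1)) (hp : AllPass Q a b δ) :
    False := by
  obtain ⟨M, N, hm, hl, hs⟩ := h.exHtO (by linarith)
  have H : ∀ u v : ℝ, a < u → v < b → IntHt Q M u v N := fun u v hu hv =>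
    ⟨fun t ht l => hm t ⟨by linarith [ht.1], by linarith [ht.2]⟩ l,
      fun t ht => mem_nhdsWithin_of_mem_nhds (hl t ⟨by linarith [ht.1], by linarith [ht.2]⟩),
      fun t k1 k2 => hs t (by linarith) (by linarith)⟩
  have ha1 : a + 1 ∈ Ioo a b := ⟨by linarith, by linarith⟩
  have hl1 : ∀ᶠ t in 𝓝[>] a, |M (t + 1) - M (a + 1)| ≤ 1 := by
    have ht : Tendsto (fun t : ℝ => t + 1) (𝓝 a) (𝓝 (a + 1)) :=
      (continuous_id.add continuous_const).tendsto a
    exact mem_nhdsWithin_of_mem_nhds (ht.eventually (hl (a + 1) ha1))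
  have h2 : ∀ᶠ t in 𝓝[>] a, t < a + 1 :=
    mem_nhdsWithin_of_mem_nhds (Iio_mem_nhds (by linarith))
  obtain ⟨u, ⟨⟨hu0, hu1⟩, hub⟩, hau⟩ := (((h0.and hl1).and h2).and self_mem_nhdsWithin).exists
  have hau' : a < u := hau
  have r0 : M u % 6 = 0 := (H u (a + 4) hau' hab).r0 ⟨le_rfl, by linarith⟩ hu0
  have r1 := has1 ((hm (a + 1) ha1 1).1 h1)
  have s0 := hs u hau' (by linarith)
  have s1 := hs (a + 1) (by linarith) (by linarith)
  have s2 := hs (a + 2) (by linarith) (by linarith)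
  have s3 := hs (a + 3) (by linarith) (by linarith)
  rw [show a + 1 + 1 = a + 2 by ring] at s1
  rw [show a + 2 + 1 = a + 3 by ring] at s2
  rw [show a + 3 + 1 = a + 4 by ring] at s3
  rw [abs_le] at hu1
  rcases lt_or_ge N 0 with hN | hN
  · have e1 : M (a + 1) ≤ M u - 3 := by omega
    rcases hδ with hb | rfl
    · have s4 := hs (a + 4) (by linarith) (by linarith)
      rw [show a + 4 + 1 = a + 5 by ring] at s4
      have p1 := pass_mem h (H u (a + 5) hau' hb) hau' hb hp (c := M u - 4) (by omega)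
        ⟨le_rfl, by linarith⟩ ⟨by linarith, le_rfl⟩ (by linarith) (Or.inr ⟨by omega, by omega⟩)
      have p2 := pass_mem h (H u (a + 5) hau' hb) hau' hb hp (c := M u - 10) (by omega)
        ⟨le_rfl, by linarith⟩ ⟨by linarith, le_rfl⟩ (by linarith) (Or.inr ⟨by omega, by omega⟩)
      omega
    · have p1 := pass_mem h (H u (a + 4) hau' hab) hau' hab hp (c := M u - 4) (by omega)
        ⟨le_rfl, by linarith⟩ ⟨by linarith, le_rfl⟩ (by linarith) (Or.inr ⟨by omega, by omega⟩)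
      omega
  · have e1 : M u + 1 ≤ M (a + 1) := by omega
    rcases hδ with hb | rfl
    · have s4 := hs (a + 4) (by linarith) (by linarith)
      rw [show a + 4 + 1 = a + 5 by ring] at s4
      have p1 := pass_mem h (H u (a + 5) hau' hb) hau' hb hp (c := M u + 2) (by omega)
        ⟨le_rfl, by linarith⟩ ⟨by linarith, le_rfl⟩ (by linarith) (Or.inl ⟨by omega, by omega⟩)
      have p2 := pass_mem h (H u (a + 5) hau' hb) hau' hb hp (c := M u + 8) (by omega)
        ⟨le_rfl, by linarith⟩ ⟨by linarith, le_rfl⟩ (by linarith) (Or.inl ⟨by omega, by omega⟩)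
      omega
    · have p1 := pass_mem h (H u (a + 4) hau' hab) hau' hab hp (c := M u + 2) (by omega)
        ⟨le_rfl, by linarith⟩ ⟨by linarith, le_rfl⟩ (by linarith) (Or.inl ⟨by omega, by omega⟩)
      omega

/-- **weak (A5)** : `Q = {l0}` just after `a`, `l1 ∈ Q (a + 1)`, every passage `l0 - l1 - l2` (either
order) contains `φ`; the length is > 5, or it is > 4 and `φ = a + 4` -/
theorem a5x (h : IntCov Q a b) {l0 l1 l2 : Fin 3} (h01 : l0 ≠ l1) (h12 : l1 ≠ l2) (h02 : l0 ≠ l2)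
    {φ : ℝ} (hab : a + 4 < b) (hφ : a + 5 < b ∨ φ = a + 4) (h0 : ∀ᶠ t in 𝓝[>] a, Q t ⊆ {l0})
    (h1 : l1 ∈ Q (a + 1))
    (hP : ∀ t1 t2, a < t1 → t1 < t2 → t2 < b → (∀ t ∈ Ioo t1 t2, Q t = {l1}) →
      (Q t1 = {l0, l1} ∧ Q t2 = {l1, l2} ∨ Q t1 = {l1, l2} ∧ Q t2 = {l0, l1}) →
      φ ∈ Icc t1 t2) : False := by
  have hs := perm_surj h01 h12 h02
  have hp := perm_eq h01 h12 h02
  refine n5w (h.comap _ hs) (δ := φ) hab hφ ?_ ?_ ?_
  · filter_upwards [h0] with t ht i hi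
    exact hp.1 i (ht hi)
  · exact h1
  · intro t1 t2 i1 i2 i3 hm he
    obtain ⟨k1, k2, k3⟩ := comap_eq (S := Q t1) h01 h12 h02
    obtain ⟨m1, m2, m3⟩ := comap_eq (S := Q t2) h01 h12 h02
    refine hP t1 t2 i1 i2 i3 (fun t ht => (comap_eq (S := Q t) h01 h12 h02).1 (hm t ht)) ?_
    rcases he with ⟨e1, e2⟩ | ⟨e1, e2⟩
    · exact Or.inl ⟨k2 e1, m3 e2⟩
    · exact Or.inr ⟨k3 e1, m2 e2⟩

/-- **weak (A5)**, mirror image -/
theorem a5x' (h : IntCov Q a b) {l0 l1 l2 : Fin 3} (h01 : l0 ≠ l1) (h12 : l1 ≠ l2) (h02 : l0 ≠ l2)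
    {φ : ℝ} (hab : a + 4 < b) (hφ : a + 5 < b ∨ φ = b - 4) (h0 : ∀ᶠ t in 𝓝[<] b, Q t ⊆ {l0})
    (h1 : l1 ∈ Q (b - 1))
    (hP : ∀ t1 t2, a < t1 → t1 < t2 → t2 < b → (∀ t ∈ Ioo t1 t2, Q t = {l1}) →
      (Q t1 = {l0, l1} ∧ Q t2 = {l1, l2} ∨ Q t1 = {l1, l2} ∧ Q t2 = {l0, l1}) →
      φ ∈ Icc t1 t2) : False := by
  refine a5x h.mirror h01 h12 h02 (φ := -φ) (by linarith) (hφ.imp (fun k => by linarith)
    fun k => by linarith) ?_ ?_ fun t1 t2 i1 i2 i3 hm he => ?_
  · rw [eventually_nhdsWithin_iff] at h0 ⊢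
    have ht : Tendsto (fun t : ℝ => -t) (𝓝 (-b)) (𝓝 b) := by
      simpa using (continuous_neg.tendsto (-b))
    filter_upwards [ht.eventually h0] with t ht htb
    have htb' : -b < t := htb
    exact ht (show -t < b by linarith)
  · rw [show -(-b + 1) = b - 1 by ring]
    exact h1
  · have := hP (-t2) (-t1) (by linarith) (by linarith) (by linarith)
      (fun t ht => by
        have := hm (-t) ⟨by linarith [ht.2], by linarith [ht.1]⟩
        rwa [neg_neg] at this)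
      (by
        rcases he with ⟨e1, e2⟩ | ⟨e1, e2⟩
        · exact Or.inr ⟨e2, e1⟩
        · exact Or.inl ⟨e2, e1⟩)
    exact ⟨by linarith [this.2], by linarith [this.1]⟩

end Vale.Agent.P032.H961
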