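import Vale.Agent.P032.H961.DH3

/-!
# P032, row D2 without the hypothesis on split points

`no_harm_end961` : frame `Irr` and no point of order at least four with three points of order at least
four on its unit circle: a limit of exact points of a pair without plain ends is not harmless.
-/

open Set Filter Topology Metric

noncomputable section

namespace Vale.Agent.P032.H961

open Vale.Agent.P032.Six Vale.Agent.P032.S5.H767

variable {U : Fin 6 → Set ℂ} {T : ℂ → Set (Fin 6)} {V y : ℂ} {a b c d : Fin 6} {B : Set (Fin 6)}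

/-- **row D2**, only `Irr` and `NoThree` -/
theorem no_harm_end961 (h : Irr U T)
    (n3 : ∀ z y1 y2 y3, 4 ≤ (T z).ncard → dist y1 z = 1 → dist y2 z = 1 → dist y3 z = 1 →
      4 ≤ (T y1).ncard → 4 ≤ (T y2).ncard → 4 ≤ (T y3).ncard → y1 = y2 ∨ y1 = y3 ∨ y2 = y3)
    (hV : DPt T V a b c d) (hp : H383.Pf T V a b) (hy : y ∈ closure (H383.XA T V a b)) :
    ¬ Six.Harm T y B := by
  intro hB
  obtain ⟨s, t, hst, hst1, -, hall, hs, ht, hord⟩ := one_arc169 h hV hp
    fun y1 y2 y3 => n3 V y1 y2 y3 (card_dpt hV).ge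
  have hyV : dist y V = 1 := (H383.closure_cases h hV hp hy).1.1
  have hyE : y ∈ closure (Ex T V {a, b}) := by
    rw [← xa_eq h hV]
    exact hy
  have key : ∀ θ o : ℝ, ((o = 1 ∧ θ = s) ∨ (o = -1 ∧ θ = t)) → y = pt V θ → False := by
    intro θ o ho hθ
    have A := ar_of h hV hst hst1 hall hs.1 ht.1 hord ho (by
      rw [← hθ]
      exact fun y1 y2 y3 => n3 y y1 y2 y3 hB.card.ge)
    have e0 : θ + o * 0 = θ := by ring
    refine A.not_harm hV ?_ (B := B) ?_
    · show pt V (θ + o * 0) ∈ _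
      rw [e0, ← hθ]
      exact hyE
    · show Six.Harm T (pt V (θ + o * 0)) B
      rw [e0, ← hθ]
      exact hB
  rcases hord y hyV hB.card.ge with h1 | h1
  · exact key s 1 (Or.inl ⟨rfl, rfl⟩) h1
  · exact key t (-1) (Or.inr ⟨rfl, rfl⟩) h1

end Vale.Agent.P032.H961
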