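import Vale.Agent.P032.H961.DH2
import Vale.Agent.P032.H961.A5w
import Vale.Agent.P032.H460.KApex
import Vale.Agent.P032.H169.OneArc

/-!
# P032, row K3: no K corner at a point without `f`-ends whose partner is plain-free

`V` two-pair with the pairs `{a, b}`, `{c, d}`, no point with at most three colours in the closure of
the exact `ab`-arcs of `S(V)` has the colour `f`; `y ∈ S(V)` two-pair with the pairs `{a, c}`,
`{d, f}`, no plain ends at the `ac`-arcs of `S(y)`.  Then (no point of order at least four has three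
points of order at least four on its unit circle) there is a contradiction: `k3_961`.

The labels `b, e, {d, f}` of `S(y)` off the exact `ac`-arc: every passage `b - e - {d, f}` contains
the direction of the second point of order four of `S(V)` (`pl`), two passages are too many
(`a5x'`).
-/

open Set Filter Topology Metric

noncomputable section

namespace Vale.Agent.P032.H961

open Vale.Agent.P032.Six Vale.Agent.P032.S5.H767 Vale.Agent.P032.H564

variable {U : Fin 6 → Set ℂ} {T : ℂ → Set (Fin 6)} {V y w v : ℂ} {P : ℝ → ℂ} {α : ℝ}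
  {a b c d e f : Fin 6}

/-- **product rule, closed sets** -/
theorem prod_cl (h : Irr U T) {D : Set (Fin 6)} (hv : dist v y = 1) (hvE : v ∉ Ex T y D)
    {S : Set ℂ} (hS : IsClosed S) (hcov : ∀ q, dist q v = 1 → (∀ i ∈ D, i ∉ T q) → q ∈ S)
    (hx : w ∈ closure (Ex T y D)) : w + v - y ∈ S := by
  have hcl : IsClosed {x' : ℂ | x' + v - y ∈ S} := by
    have h1 : Continuous fun x' : ℂ => x' + v - y := by fun_prop
    exact hS.preimage h1
  have h1 : {x' | x' ∈ Ex T y D ∧ x' + v - y ≠ y} ⊆ {x' : ℂ | x' + v - y ∈ S} := by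
    rintro x' ⟨h2, h3⟩
    refine hcov _ (by rw [dist_partner']; exact h2.1) (exact_free h h2 hv ?_ h3)
    rintro rfl
    exact hvE h2
  have h2 : Ex T y D ⊆ {x' : ℂ | x' + v - y ∈ S} := by
    intro x' hx'
    by_cases h3 : x' + v - y = y
    · refine closure_minimal (fun q hq => h1 ⟨hq.1, fun h4 => hq.2 ?_⟩) hcl (ex_not_iso hx')
      rw [mem_singleton_iff]
      linear_combination h4 - h3
    · exact h1 ⟨hx', h3⟩
  exact closure_minimal h2 hcl hx

/-- the data of the K corner -/
structure K3D (U : Fin 6 → Set ℂ) (T : ℂ → Set (Fin 6)) (V y : ℂ) (a b c d e f : Fin 6) :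
    Prop where
  irr : Irr U T
  hV : DPt T V a b c d
  nd : [a, b, c, d, e, f].Nodup
  hA : ∀ p ∈ closure (Ex T V {a, b}), (T p).ncard ≤ 3 → f ∉ T p
  dyV : dist y V = 1
  hy : DPt T y a c d f

theorem K3D.ctrV (K : K3D U T V y a b c d e f) : Ctr U T V a b c d e f :=
  ctr_of_dpt K.irr K.hV K.nd

theorem K3D.nd' (K : K3D U T V y a b c d e f) : [a, c, d, f, b, e].Nodup := by
  have h := K.nd
  simp only [List.nodup_cons, List.mem_cons, List.not_mem_nil, or_false, not_or,
    List.nodup_nil, and_true, not_false_eq_true] at h ⊢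
  tauto

theorem K3D.ctry (K : K3D U T V y a b c d e f) : Ctr U T y a c d f b e :=
  ctr_of_dpt K.irr K.hy K.nd'

theorem K3D.by' (K : K3D U T V y a b c d e f) : b ∉ T y ∧ e ∉ T y := free_notMem K.hy K.nd'

theorem K3D.dVy (K : K3D U T V y a b c d e f) : dist V y = 1 := by
  rw [dist_comm]; exact K.dyV

/-- at an end with the pair `{d, f}` and the colour `e` the partner has neither the pair `{c, d}` nor
the colour `f` -/
theorem K3D.endC (K : K3D U T V y a b c d e f) (hw : w ∈ closure (Ex T y {d, f})) (hwV : w ≠ V)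
    (hw3 : (T w).ncard ≤ 3) (he : e ∈ T w)
    (h4 : 4 ≤ (T (w + V - y)).ncard → w + V - y = y) :
    ¬ (w + V - y ∈ closure (Ex T V {c, d}) ∨ f ∈ T (w + V - y)) := by
  intro hcf
  have h := K.irr
  have hn := K.nd
  simp only [List.nodup_cons, List.mem_cons, List.not_mem_nil, or_false, not_or,
    List.nodup_nil, and_true, not_false_eq_true] at hn
  obtain ⟨⟨ab, ac, ad, ae, af⟩, ⟨bc, bd, be, bf⟩, ⟨cd, ce, cf⟩, ⟨de, df⟩, ef⟩ := hn
  have hwy : dist w y = 1 := dist_of_closure hw
  have hVE : V ∉ Ex T y {d, f} := by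
    intro h1
    have h2 := ex_self h1
    have h3 := card_dpt K.hV
    rw [h2, Set.ncard_pair df] at h3
    omega
  have hS : w + V - y ∈ closure (Ex T V {a, b}) ∪ {q | e ∈ T q} := by
    refine prod_cl h K.dVy hVE (isClosed_closure.union (h.closed e)) (fun q hq hP => ?_) hw
    obtain ⟨l, hl⟩ := K.ctrV.cover hq
    fin_cases l
    · exact Or.inr hl.2
    · exact absurd hl.2 (hP f (by simp))
    · exact Or.inl hl
    · exact absurd (sub_of_closure h (P := {c, d}) hl (by simp : d ∈ ({c, d} : Set (Fin 6))))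
        (hP d (by simp))
  obtain ⟨x, hx⟩ : ∃ x, x = w + V - y := ⟨_, rfl⟩
  rw [← hx] at hcf hS h4
  have hxy : x ≠ y := by
    rintro rfl
    rcases hS with h1 | h1
    · exact K.by'.1 (sub_of_closure h h1 (by simp))
    · exact K.by'.2 h1
  have hx3 : (T x).ncard ≤ 3 := by
    by_contra hcon
    exact hxy (h4 (by omega))
  have hxV : dist x V = 1 := by rw [hx, dist_partner']; exact hwy
  have hxw : dist x w = 1 := by rw [hx, dist_comm, dist_partner]; exact K.dVy
  have hcV : c ∈ T V := by rw [K.hV.pal]; simp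
  have hdy : d ∈ T y := by rw [K.hy.pal]; simp
  have hdw : d ∈ T w := sub_of_closure h hw (by simp)
  have hfw : f ∈ T w := sub_of_closure h hw (by simp)
  rcases hcf with h1 | h1
  · have hcx : c ∈ T x := sub_of_closure h h1 (by simp)
    have hdx : d ∈ T x := sub_of_closure h h1 (by simp)
    rcases hS with h2 | h2
    · have hax : a ∈ T x := sub_of_closure h h2 (by simp)
      have hbx : b ∈ T x := sub_of_closure h h2 (by simp)
      have := four_le hax hbx hcx hdx (by simp [ab, ac, ad, bc, bd, cd])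
      omega
    · have h2 : e ∈ T x := h2
      have hT : T x = {c, d, e} := by
        symm
        refine Set.eq_of_subset_of_ncard_le ?_ ?_ (Set.toFinite _)
        · rintro i (rfl | rfl | rfl) <;> assumption
        · rw [Set.ncard_insert_of_notMem, Set.ncard_pair de]
          · exact hx3
          · simp only [mem_insert_iff, mem_singleton_iff, not_or]
            exact ⟨cd, ce⟩
      rcases h.lemmaX (u := w) (p := x) (v := V) (t := c) hxw hw3 (by
        rw [hT]
        rintro i (rfl | rfl | rfl)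
        · exact Or.inl rfl
        · exact Or.inr hdw
        · exact Or.inr he) hxV (h.sub _ hcV) with h3 | h3
      · exact hwV h3.symm
      · refine hxy ?_
        linear_combination -h3 - hx
  · rcases hS with h2 | h2
    · exact K.hA x h2 hx3 h1
    · have h2 : e ∈ T x := h2
      have hT : T w = {d, e, f} := by
        symm
        refine Set.eq_of_subset_of_ncard_le ?_ ?_ (Set.toFinite _)
        · rintro i (rfl | rfl | rfl) <;> assumption
        · rw [Set.ncard_insert_of_notMem, Set.ncard_pair ef]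
          · exact hw3
          · simp only [mem_insert_iff, mem_singleton_iff, not_or]
            exact ⟨de, df⟩
      rcases h.lemmaX (u := x) (p := w) (v := y) (t := d) (by rw [dist_comm]; exact hxw) hx3 (by
        rw [hT]
        rintro i (rfl | rfl | rfl)
        · exact Or.inl rfl
        · exact Or.inr h2
        · exact Or.inr h1) hwy (h.sub _ hdy) with h3 | h3
      · exact hxy h3.symm
      · refine hwV ?_
        linear_combination -h3 + hx

/-- at a point with the colours `b`, `e` the partner is not in the closure of the `ab`-arcs -/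
theorem K3D.endB (K : K3D U T V y a b c d e f) (hwy : dist w y = 1) (hwV : w ≠ V)
    (hw3 : (T w).ncard ≤ 3) (hb : b ∈ T w) (he : e ∈ T w)
    (h4 : 4 ≤ (T (w + V - y)).ncard → w + V - y = y) :
    w + V - y ∉ closure (Ex T V {a, b}) := by
  intro hS
  have h := K.irr
  have hn := K.nd
  simp only [List.nodup_cons, List.mem_cons, List.not_mem_nil, or_false, not_or,
    List.nodup_nil, and_true, not_false_eq_true] at hn
  obtain ⟨⟨ab, ac, ad, ae, af⟩, ⟨bc, bd, be, bf⟩, ⟨cd, ce, cf⟩, ⟨de, df⟩, ef⟩ := hn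
  obtain ⟨x, hx⟩ : ∃ x, x = w + V - y := ⟨_, rfl⟩
  rw [← hx] at hS h4
  have hax : a ∈ T x := sub_of_closure h hS (by simp)
  have hbx : b ∈ T x := sub_of_closure h hS (by simp)
  have hxy : x ≠ y := by
    rintro rfl
    exact K.by'.1 hbx
  have hx3 : (T x).ncard ≤ 3 := by
    by_contra hcon
    exact hxy (h4 (by omega))
  have hxV : dist x V = 1 := by rw [hx, dist_partner']; exact hwy
  have hxw : dist x w = 1 := by rw [hx, dist_comm, dist_partner]; exact K.dVy
  have haV : a ∈ T V := by rw [K.hV.pal]; simp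
  have hfx : f ∉ T x := K.hA x hS hx3
  by_cases hex : e ∈ T x
  · have hT : T x = {a, b, e} := by
      symm
      refine Set.eq_of_subset_of_ncard_le ?_ ?_ (Set.toFinite _)
      · rintro i (rfl | rfl | rfl) <;> assumption
      · rw [Set.ncard_insert_of_notMem, Set.ncard_pair be]
        · exact hx3
        · simp only [mem_insert_iff, mem_singleton_iff, not_or]
          exact ⟨ab, ae⟩
    rcases h.lemmaX (u := w) (p := x) (v := V) (t := a) hxw hw3 (by
      rw [hT]
      rintro i (rfl | rfl | rfl)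
      · exact Or.inl rfl
      · exact Or.inr hb
      · exact Or.inr he) hxV (h.sub _ haV) with h3 | h3
    · exact hwV h3.symm
    · refine hxy ?_
      linear_combination -h3 - hx
  · refine line_free h (z := V) (y := x) (v := w) (t := b) hxV ?_ hxw hwV (fun h3 => ?_)
      (h.sub _ hb)
    · filter_upwards [mem_nhdsWithin_of_mem_nhds (h.nhd x), self_mem_nhdsWithin] with q h1 h2
      obtain ⟨l, hl⟩ := K.ctrV.cover (mem_sphere.1 h2)
      fin_cases l
      · exact absurd (h1 hl.2) hex
      · exact absurd (h1 hl.2) hfx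
      · exact sub_of_closure h (P := {a, b}) hl (by simp)
      · exfalso
        have k1 : c ∈ T q := sub_of_closure h (P := {c, d}) hl (by simp)
        have k2 : d ∈ T q := sub_of_closure h (P := {c, d}) hl (by simp)
        have := four_le hax hbx (h1 k1) (h1 k2) (by simp [ab, ac, ad, bc, bd, cd])
        omega
    · refine hxy ?_
      linear_combination -h3 - hx

/-- where `e` is the only label of `S(y)` the colour `e` is absent at the partner -/
theorem K3D.noE (K : K3D U T V y a b c d e f) (hwy : dist w y = 1) (hwV : w ≠ V)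
    (hb : b ∉ T w) (h1 : w ∉ closure (Ex T y {a, c})) (h2 : w ∉ closure (Ex T y {d, f})) :
    e ∉ T (w + V - y) := by
  intro he
  have h := K.irr
  have hxy : w + V - y ≠ y := fun h3 => K.by'.2 (h3 ▸ he)
  refine line_free h (z := y) (y := w) (v := w + V - y) (t := e) hwy ?_
    (by rw [dist_partner]; exact K.dVy) hxy (fun h3 => hwV ?_) (h.sub _ he)
  · filter_upwards [mem_nhdsWithin_of_mem_nhds (h.nhd w), self_mem_nhdsWithin,
      mem_nhdsWithin_of_mem_nhds (isClosed_closure.isOpen_compl.mem_nhds h1),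
      mem_nhdsWithin_of_mem_nhds (isClosed_closure.isOpen_compl.mem_nhds h2)] with q k1 k2 k3 k4
    obtain ⟨l, hl⟩ := K.ctry.cover (mem_sphere.1 k2)
    fin_cases l
    · exact absurd (k1 hl.2) hb
    · exact hl.2
    · exact absurd hl k3
    · exact absurd hl k4
  · linear_combination -h3

/-- **the passage lemma** : a passage `b - e - {d, f}` contains the direction of a point of order at
least four of `S(V)` other than `y` -/
theorem K3D.pl (K : K3D U T V y a b c d e f) (A : Ar U T y a c P α) (hP0 : P 0 = V) {t1 t2 : ℝ}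
    (h1 : α < t1) (h12 : t1 < t2) (h2 : t2 < 6)
    (hm : ∀ t ∈ Ioo t1 t2, Qd T y a c d f b e P t = {1})
    (he : Qd T y a c d f b e P t1 = {0, 1} ∧ Qd T y a c d f b e P t2 = {1, 2} ∨
      Qd T y a c d f b e P t1 = {1, 2} ∧ Qd T y a c d f b e P t2 = {0, 1}) :
    ∃ u ∈ Icc t1 t2, 4 ≤ (T (P u + V - y)).ncard ∧ P u + V - y ≠ y := by
  by_contra hcon
  push Not at hcon
  have h := K.irr
  have hn := K.nd
  simp only [List.nodup_cons, List.mem_cons, List.not_mem_nil, or_false, not_or,
    List.nodup_nil, and_true, not_false_eq_true] at hn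
  obtain ⟨⟨ab, ac, ad, ae, af⟩, ⟨bc, bd, be, bf⟩, ⟨cd, ce, cf⟩, ⟨de, df⟩, ef⟩ := hn
  have hI : ∀ u ∈ Icc t1 t2, u ∈ Ioo α 6 := fun u hu => ⟨by linarith [hu.1], by linarith [hu.2]⟩
  have hne : ∀ u ∈ Icc t1 t2, P u ≠ V := by
    intro u hu
    rw [← hP0]
    exact (A.circ.inj 0 u (by linarith [(hI u hu).1, A.α0]) (by linarith [(hI u hu).2])).symm
  have hcX : Continuous fun u => P u + V - y := by
    have := A.circ.cont
    fun_prop
  have hSA : IsClosed {u | P u + V - y ∈ closure (Ex T V {a, b})} := isClosed_closure.preimage hcX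
  have hSC : IsClosed {u | P u + V - y ∈ closure (Ex T V {c, d}) ∨ f ∈ T (P u + V - y)} :=
    (isClosed_closure.union (h.closed f)).preimage hcX
  -- the two classes
  have hcl : Ioo t1 t2 ⊆ {u | P u + V - y ∈ closure (Ex T V {a, b})} ∨
      Ioo t1 t2 ⊆ {u | P u + V - y ∈ closure (Ex T V {c, d}) ∨ f ∈ T (P u + V - y)} := by
    refine isPreconnected_iff_subset_of_disjoint_closed.1 isPreconnected_Ioo _ _ hSA hSC
      (fun u hu => ?_) ?_
    · have huI : u ∈ Icc t1 t2 := ⟨hu.1.le, hu.2.le⟩
      have hQ := hm u hu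
      have q0 : (0 : Fin 3) ∉ Qd T y a c d f b e P u := by rw [hQ]; decide
      have q2 : (2 : Fin 3) ∉ Qd T y a c d f b e P u := by rw [hQ]; decide
      have hne := K.noE (A.circ.dst u) (hne u huI) (fun k => q0 ((qd0 A.circ).2 k))
        (A.off u (hI u huI)) q2
      obtain ⟨l, hl⟩ := K.ctrV.cover (y := P u + V - y) (by rw [dist_partner']; exact A.circ.dst u)
      fin_cases l
      · exact absurd hl.2 hne
      · exact Or.inr (Or.inr hl.2)
      · exact Or.inl hl
      · exact Or.inr (Or.inl hl)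
    · rw [eq_empty_iff_forall_notMem]
      rintro u ⟨hu, k1, k2⟩
      have huI : u ∈ Icc t1 t2 := ⟨hu.1.le, hu.2.le⟩
      have k1 : P u + V - y ∈ closure (Ex T V {a, b}) := k1
      have ka : a ∈ T (P u + V - y) := sub_of_closure h k1 (by simp)
      have kb : b ∈ T (P u + V - y) := sub_of_closure h k1 (by simp)
      have k3 : (T (P u + V - y)).ncard ≤ 3 := by
        by_contra h4
        exact K.by'.1 (hcon u huI (by omega) ▸ kb)
      rcases k2 with k2 | k2
      · have kc : c ∈ T (P u + V - y) := sub_of_closure h k2 (by simp)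
        have kd : d ∈ T (P u + V - y) := sub_of_closure h k2 (by simp)
        have := four_le ka kb kc kd (by simp [ab, ac, ad, bc, bd, cd])
        omega
      · exact K.hA _ k1 k3 k2
  have hsub : Icc t1 t2 ⊆ closure (Ioo t1 t2) := by rw [closure_Ioo h12.ne]
  have key : ∀ σ ∈ Icc t1 t2, ∀ τ ∈ Icc t1 t2, Qd T y a c d f b e P σ = {0, 1} →
      Qd T y a c d f b e P τ = {1, 2} → False := by
    intro σ hσ τ hτ qσ qτ
    rcases hcl with hc | hc
    · have k1 : P σ + V - y ∈ closure (Ex T V {a, b}) :=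
        closure_minimal hc hSA (hsub hσ)
      have m0 : (0 : Fin 3) ∈ Qd T y a c d f b e P σ := by rw [qσ]; simp
      have m1 : (1 : Fin 3) ∈ Qd T y a c d f b e P σ := by rw [qσ]; simp
      exact K.endB (A.circ.dst σ) (hne σ hσ) (A.three σ (hI σ hσ)) ((qd0 A.circ).1 m0)
        ((qd1 A.circ).1 m1) (hcon σ hσ) k1
    · have k1 : P τ + V - y ∈ closure (Ex T V {c, d}) ∨ f ∈ T (P τ + V - y) :=
        closure_minimal hc hSC (hsub hτ)
      have m2 : (2 : Fin 3) ∈ Qd T y a c d f b e P τ := by rw [qτ]; simp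
      have m1 : (1 : Fin 3) ∈ Qd T y a c d f b e P τ := by rw [qτ]; simp
      exact K.endC (w := P τ) m2 (hne τ hτ) (A.three τ (hI τ hτ)) ((qd1 A.circ).1 m1)
        (hcon τ hτ) k1
  rcases he with ⟨q1, q2⟩ | ⟨q1, q2⟩
  · exact key t1 ⟨le_rfl, h12.le⟩ t2 ⟨h12.le, le_rfl⟩ q1 q2
  · exact key t2 ⟨h12.le, le_rfl⟩ t1 ⟨le_rfl, h12.le⟩ q2 q1

/-- **row K3** along the arc -/
theorem K3D.main (K : K3D U T V y a b c d e f) (A : Ar U T y a c P α) (hP0 : P 0 = V) : False := by
  have h := K.irr
  have hI := A.intCov K.ctry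
  have hα1 := A.α1
  have hα0 := A.α0
  have hV4 : 4 ≤ (T V).ncard := (card_dpt K.hV).ge
  have hy4 : 4 ≤ (T y).ncard := (card_dpt K.hy).ge
  obtain ⟨heV, hfV⟩ := free_notMem K.hV K.nd
  have n3 : ∀ y1 y2 y3, dist y1 V = 1 → dist y2 V = 1 → dist y3 V = 1 →
      4 ≤ (T y1).ncard → 4 ≤ (T y2).ncard → 4 ≤ (T y3).ncard → y1 = y2 ∨ y1 = y3 ∨ y2 = y3 := by
    rw [← hP0]
    exact A.n3
  have hXd : ∀ u, dist (P u + V - y) V = 1 := fun u => by rw [dist_partner']; exact A.circ.dst u
  -- the label `b` before the end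
  have h6 : ∀ᶠ t in 𝓝[<] (6 : ℝ), Qd T y a c d f b e P t ⊆ {0} := by
    filter_upwards [A.near6] with t k1 l hl
    rw [hP0] at k1
    fin_cases l
    · rfl
    · exact absurd (k1 hl.2) heV
    · exact absurd (k1 (sub_of_closure h (P := {d, f}) hl (by simp))) hfV
  -- the apex
  have h56 : dist (P 5) V = 1 := by
    have k1 := A.circ.one 5
    have k2 := A.circ.six 0
    rw [zero_add] at k2
    rwa [show (5 : ℝ) + 1 = 6 by norm_num, k2, hP0] at k1
  have h5 : (1 : Fin 3) ∈ Qd T y a c d f b e P (6 - 1) := by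
    rw [show (6 : ℝ) - 1 = 5 by norm_num]
    refine (qd1 A.circ).2 (H460.kapex460 h K.hV.swap (v := y) (z := V) ?_ ?_ K.dyV h56
      (A.circ.dst 5) (A.three 5 ⟨by linarith, by norm_num⟩) (e := f) (f := e) (a := c) (b := d)
        (c := a) (d := b))
    · have h1 := K.nd
      simp only [List.nodup_cons, List.mem_cons, List.not_mem_nil, or_false, not_or,
        List.nodup_nil, and_true, not_false_eq_true] at h1 ⊢
      tauto
    · exact K.hy.swap12
  -- the direction
  obtain ⟨φ, hφ, hu⟩ : ∃ φ, (α + 5 < 6 ∨ φ = 6 - 4) ∧ ∀ u ∈ Ioo α 6,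
      4 ≤ (T (P u + V - y)).ncard → P u + V - y ≠ y → u = φ := by
    have hinj : ∀ s s' : ℝ, s ∈ Ioo α 6 → s' ∈ Ioo α 6 → P s = P s' → s = s' := by
      intro s s' hs hs' h2
      rcases lt_trichotomy s s' with h3 | h3 | h3
      · exact absurd h2 (A.circ.inj s s' h3 (by linarith [hs.1, hs'.2]))
      · exact h3
      · exact absurd h2.symm (A.circ.inj s' s h3 (by linarith [hs'.1, hs.2]))
    rcases hα1.lt_or_eq with h1 | h1
    · by_cases hex : ∃ u ∈ Ioo α 6, 4 ≤ (T (P u + V - y)).ncard ∧ P u + V - y ≠ y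
      · obtain ⟨φ, hφ, k1, k2⟩ := hex
        refine ⟨φ, Or.inl (by linarith), fun u hu k3 k4 => hinj u φ hu hφ ?_⟩
        rcases n3 y (P u + V - y) (P φ + V - y) K.dyV (hXd u) (hXd φ) hy4 k3 k1 with h2 | h2 | h2
        · exact absurd h2.symm k4
        · exact absurd h2.symm k2
        · linear_combination h2
      · push Not at hex
        exact ⟨0, Or.inl (by linarith), fun u hu k3 k4 => absurd (hex u hu k3) k4⟩
    · refine ⟨2, Or.inr (by norm_num), fun u hu k3 k4 => ?_⟩
      refine hinj u 2 hu ⟨by linarith, by norm_num⟩ ?_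
      have k5 : dist (P 1) V = 1 := by
        have := A.circ.one 0
        rw [zero_add, hP0] at this
        rw [dist_comm]
        exact this
      have k6 : 4 ≤ (T (P 1)).ncard := h1 ▸ A.fourα
      have k7 := A.circ.sum 0
      rw [zero_add, zero_add, hP0] at k7
      rcases n3 y (P u + V - y) (P 1) K.dyV (hXd u) k5 hy4 k3 k6 with h2 | h2 | h2
      · exact absurd h2.symm k4
      · have h3 := A.circ.dst 1
        rw [← h2, dist_self] at h3
        exact absurd h3 zero_ne_one
      · linear_combination h2 - k7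
  refine a5x' hI (l0 := 0) (l1 := 1) (l2 := 2) (by decide) (by decide) (by decide) (φ := φ)
    (by linarith) hφ h6 h5 fun t1 t2 i1 i2 i3 hm he => ?_
  obtain ⟨u, hu1, hu2, hu3⟩ := K.pl A hP0 i1 i2 i3 hm he
  rw [← hu u ⟨by linarith [hu1.1], by linarith [hu1.2]⟩ hu2 hu3]
  exact hu1

/-- **row K3** -/
theorem k3_961 (h : Irr U T)
    (n3 : ∀ z y1 y2 y3, 4 ≤ (T z).ncard → dist y1 z = 1 → dist y2 z = 1 → dist y3 z = 1 →
      4 ≤ (T y1).ncard → 4 ≤ (T y2).ncard → 4 ≤ (T y3).ncard → y1 = y2 ∨ y1 = y3 ∨ y2 = y3)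
    (hV : DPt T V a b c d) (hnd : [a, b, c, d, e, f].Nodup)
    (hA : ∀ p ∈ closure (Ex T V {a, b}), (T p).ncard ≤ 3 → f ∉ T p)
    (hyV : dist y V = 1) (hy : DPt T y a c d f) (hP : H383.Pf T y a c) : False := by
  have K : K3D U T V y a b c d e f := ⟨h, hV, hnd, hA, hyV, hy⟩
  obtain ⟨s, t, hst, hst1, -, hall, hs, ht, hord⟩ := one_arc169 h hy hP
    fun y1 y2 y3 => n3 y y1 y2 y3 (card_dpt hy).ge
  have key : ∀ θ o : ℝ, ((o = 1 ∧ θ = s) ∨ (o = -1 ∧ θ = t)) → V = pt y θ → False := by
    intro θ o ho hθ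
    have A := ar_of h hy hst hst1 hall hs.1 ht.1 hord ho (by
      rw [← hθ]
      exact fun y1 y2 y3 => n3 V y1 y2 y3 (card_dpt hV).ge)
    have e0 : θ + o * 0 = θ := by ring
    refine K.main A ?_
    show pt y (θ + o * 0) = V
    rw [e0, ← hθ]
  rcases hord V K.dVy (card_dpt hV).ge with h1 | h1
  · exact key s 1 (Or.inl ⟨rfl, rfl⟩) h1
  · exact key t (-1) (Or.inr ⟨rfl, rfl⟩) h1

end Vale.Agent.P032.H961
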