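import Vale.Agent.P032.H961.ZeroP
import Vale.Agent.P032.H802.ChainZ

/-!
# P032: the zero facts of the neighbours along the chain `ChZ` of H802
-/

open Set Filter Topology Metric

noncomputable section

namespace Vale.Agent.P032.H961

open Vale.Agent.P032.Six Vale.Agent.P032.Carr Vale.Agent.P032.S5.H767

variable {U : Fin 6 → Set ℂ} {T : ℂ → Set (Fin 6)} {f : ℂ → Set (Fin 6)} {Z : Set ℂ}
  {c : ℂ} {R δ₀ : ℝ} {V : ℤ → ℂ} {l : ℤ → Fin 6} {name : ℤ → Fin 6 → Fin 6}

/-- the complement of a face in six different colours -/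
theorem compl_face {a b m n e f : Fin 6} (h : [a, b, m, n, e, f].Nodup) :
    ({m, e, f} : Set (Fin 6)) = ({a, b, n} : Set (Fin 6))ᶜ := by
  have hall : ∀ i : Fin 6, i = a ∨ i = b ∨ i = m ∨ i = n ∨ i = e ∨ i = f := by
    intro i
    have h1 : (Finset.univ : Finset (Fin 6)) = [a, b, m, n, e, f].toFinset :=
      (Finset.eq_univ_of_card _ (by rw [List.toFinset_card_of_nodup h]; rfl)).symm
    have h2 := Finset.mem_univ i
    rw [h1] at h2
    simpa using h2
  simp only [List.nodup_cons, List.mem_cons, List.not_mem_nil, or_false, not_or,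
    List.nodup_nil, and_true, not_false_eq_true] at h
  obtain ⟨⟨hab, ham, han, hae, haf⟩, ⟨hbm, hbn, hbe, hbf⟩, ⟨hmn, hme, hmf⟩, ⟨hne, hnf⟩, hef⟩ := h
  ext i
  simp only [mem_compl_iff, mem_insert_iff, mem_singleton_iff, not_or]
  constructor
  · rintro (rfl | rfl | rfl)
    · exact ⟨Ne.symm ham, Ne.symm hbm, hmn⟩
    · exact ⟨Ne.symm hae, Ne.symm hbe, Ne.symm hne⟩
    · exact ⟨Ne.symm haf, Ne.symm hbf, Ne.symm hnf⟩
  · rintro ⟨h1, h2, h3⟩
    rcases hall i with h4 | h4 | h4 | h4 | h4 | h4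
    · exact absurd h4 h1
    · exact absurd h4 h2
    · exact Or.inl h4
    · exact absurd h4 h3
    · exact Or.inr (Or.inl h4)
    · exact Or.inr (Or.inr h4)

/-- the complement of a face of `V k`, in roles -/
theorem face_roles {nx : Fin 6 → Fin 6 → Fin 6} (hC : ChZ nx T V l name) (k : ℤ) {r : Fin 6}
    (hr : r = 2 ∨ r = 3) :
    ({name k r, name k 4, name k 5} : Set (Fin 6)) =
      ({name k 0, name k 1, name k 2} : Set (Fin 6))ᶜ ∨
    ({name k r, name k 4, name k 5} : Set (Fin 6)) =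
      ({name k 0, name k 1, name k 3} : Set (Fin 6))ᶜ := by
  rcases hr with rfl | rfl
  · exact Or.inr (compl_face (hC.qf k).nd)
  · exact Or.inl (compl_face (nodup_cd (hC.qf k).nd))

/-- **the state of `V j` vanishes at the complements of the faces of `V (j + 1)`, `V (j - 1)`** -/
theorem zero_adj {nx : Fin 6 → Fin 6 → Fin 6} (hw : QFW T) (D : DSt U T Z f c R δ₀)
    (G : Gauge758 T f) (hC : ChZ nx T V l name) {j : ℤ} (hx : dist (V j) c < R - 1) {k : ℤ}
    (hk : k = j + 1 ∨ k = j - 1) {r : Fin 6} (hr : r = 2 ∨ r = 3) {t x y : Fin 6}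
    (hs : ({t, x, y} : Set (Fin 6)) = {name k r, name k 4, name k 5}) (ht : t ∈ T (V j)) :
    lamT T Z f δ₀ t (V j) x y = 0 := by
  have hf := face_roles hC k hr
  rw [← hs] at hf
  rcases hk with rfl | rfl
  · have h1 := hC.qf (j + 1)
    rw [add_sub_cancel_right] at h1
    exact hw.zero_nb D G hx (hC.qf j) h1 ht hf
  · have h1 := (hC.qf (j - 1)).mirror
    rw [sub_add_cancel] at h1
    exact hw.zero_nb D G hx (hC.qf j).mirror h1 ht hf.symm

end Vale.Agent.P032.H961
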