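import Vale.Agent.P032.H961.ZeroC
import Vale.Agent.P032.H678.VW6
import Vale.Agent.P032.H802.ChainI
import Vale.Agent.P032.H758.GaugeI

/-!
# P032: the state of a vertex vanishes at the complements of the faces of its neighbours, world `QIW`

The theorems of `ZeroP.lean`, `ZeroC.lean` for quasi-full points `QI0`, `QI` without invisible points.
-/

open Set Filter Topology Metric

noncomputable section

namespace Vale.Agent.P032.H961

open Vale.Agent.P032.Six Vale.Agent.P032.Carr Vale.Agent.P032.S5.H767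

variable {U : Fin 6 → Set ℂ} {T : ℂ → Set (Fin 6)} {Inv : ℂ → ℂ → Prop} {f : ℂ → Set (Fin 6)}
  {Z : Set ℂ} {c : ℂ} {R δ₀ : ℝ} {V V1 V2 W W1 W2 u : ℂ}
  {a b m n e g e0 f0 e1 f1 a1 b1 m1 n1 : Fin 6} {s : Set (Fin 6)}

/-- the contacts of a face complementary to a face of `V` are in the closed arc -/
theorem qi_cv (h : Irr U T) (H : QI0 T Inv V a b m n e0 f0 V1 V2) (hI : ∀ p, ¬ Inv V p) {p : ℂ}
    (F : Six.Fc T u s) (hs : s = ({a, b, m} : Set (Fin 6))ᶜ ∨ s = ({a, b, n} : Set (Fin 6))ᶜ)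
    (hpu : dist p u = 1) (hpV : dist p V = 1) (hne : u + V ≠ 2 * p) :
    p ∈ closure (Ex T V {a, b}) := by
  rcases H.le3 h hpV with h3 | h3 | h3
  · exact h3
  · exact absurd h3 (hI p)
  rcases hs with hs | hs
  · exact H383.contact_fc3 h H.dpt.swap34 F hs hpu hpV hne h3
  · exact H383.contact_fc3 h H.dpt F hs hpu hpV hne h3

/-- a face complementary to a face of `V` is at distance at least root three -/
theorem qi_three (h : Irr U T) (H : QI0 T Inv V a b m n e0 f0 V1 V2) (hI : ∀ p, ¬ Inv V p)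
    (F : Six.Fc T u s)
    (hs : s = ({a, b, m} : Set (Fin 6))ᶜ ∨ s = ({a, b, n} : Set (Fin 6))ᶜ) :
    3 ≤ dist u V ^ 2 := by
  rcases lt_or_ge (dist u V) 2 with h2 | h2
  swap
  · nlinarith
  have hne : u ≠ V := by
    rcases hs with hs | hs
    · exact H383.fc_ne F H.dpt.swap34 hs h
    · exact H383.fc_ne F H.dpt hs h
  obtain ⟨p, p', g1, g2, g3, g4, g5, g6, g7, g8⟩ := H678.two_common h2 hne
  have k1 := qi_cv h H hI F hs g2 g3 g6
  have k2 := qi_cv h H hI F hs g4 g5 g7
  exact H678.far_of_diam g2 g4 g8 (H.diam h k1 k2)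

/-- **the points of the circle beyond the ends of the connecting arc see no complement of a face** -/
theorem far_beyondI (h : Irr U T) (H : QI0 T Inv V a b m n e0 f0 V1 V2) (hI : ∀ p, ¬ Inv V p)
    (F : Six.Fc T u s)
    (hs : s = ({a, b, m} : Set (Fin 6))ᶜ ∨ s = ({a, b, n} : Set (Fin 6))ᶜ) {s0 t0 r : ℝ}
    (hst : t0 ≤ s0 + 1) (hcl : closure (Ex T V {a, b}) = pt V '' Icc s0 t0)
    (hr : t0 < r ∧ r ≤ t0 + 1 ∨ s0 - 1 ≤ r ∧ r < s0) (h2 : dist u V < 2) :
    1 < dist u (pt V r) := by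
  have hne : u ≠ V := by
    rcases hs with hs | hs
    · exact H383.fc_ne F H.dpt.swap34 hs h
    · exact H383.fc_ne F H.dpt hs h
  obtain ⟨p, p', g1, g2, g3, g4, g5, g6, g7, g8⟩ := H678.two_common h2 hne
  have k1 := qi_cv h H hI F hs g2 g3 g6
  have k2 := qi_cv h H hI F hs g4 g5 g7
  rw [hcl] at k1 k2
  obtain ⟨x, hx, rfl⟩ := k1
  obtain ⟨y, hy, rfl⟩ := k2
  have h4 := sq_third g3 g5 (dist_pt V r) g8
  have h5 := sq_chord_lt (V := V) hst hx hy hr
  nlinarith [dist_nonneg (x := u) (y := pt V r)]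

/-- **one colour**: `V2` an end of the connecting arc of `V` (the vertex at which the state is taken),
the circle `S(V)` beyond `V2` carries the colour `t` -/
theorem beyond_zeroI (D : DSt U T Z f c R δ₀) (hx : dist V2 c < R - 1)
    (H : QI0 T Inv V a b m n e0 f0 V1 V2) (hI : ∀ p, ¬ Inv V p) {t x y : Fin 6}
    (hs : ({t, x, y} : Set (Fin 6)) = ({a, b, m} : Set (Fin 6))ᶜ ∨
      ({t, x, y} : Set (Fin 6)) = ({a, b, n} : Set (Fin 6))ᶜ)
    (hb : ∀ᶠ q in 𝓝[sphere V 1] V2, q ∉ closure (Ex T V {a, b}) → t ∈ T q)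
    (hW : ∀ W, (∃ a b c d, DPt T W a b c d) → dist W V2 ≤ 1 → ¬ FcD T f W {t, x, y}) :
    lamT T Z f δ₀ t V2 x y = 0 := by
  by_contra hne
  have h := D.df.irr
  obtain ⟨s0, t0, h1, h2, h3, -, hcl⟩ := H.arc' h
  have hb' := eventually_nhdsWithin_iff.1 hb
  -- an interval of angles beyond the end
  obtain ⟨lo, hi, hlo, hJ, hend⟩ : ∃ lo hi : ℝ, lo < hi ∧ (∀ r ∈ Ioo lo hi,
      (t0 < r ∧ r ≤ t0 + 1 ∨ s0 - 1 ≤ r ∧ r < s0) ∧ t ∈ T (pt V r)) ∧
      (V2 = pt V lo ∨ V2 = pt V hi) := by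
    rcases h3 with ⟨-, h3⟩ | ⟨-, h3⟩
    · rw [h3] at hb'
      have h4 := (continuous_pt V).continuousAt.eventually hb'
      obtain ⟨ε, hε, h5⟩ := Metric.eventually_nhds_iff.1 h4
      refine ⟨s0 - min ε 1, s0, by linarith [lt_min hε one_pos], fun r hr => ?_, Or.inr h3⟩
      have h6 : min ε 1 ≤ 1 := min_le_right _ _
      have h7 : min ε 1 ≤ ε := min_le_left _ _
      have hr1 := hr.1
      have hr2 := hr.2
      refine ⟨Or.inr ⟨by linarith, hr2⟩, h5 ?_ (dist_pt V r) ?_⟩
      · rw [Real.dist_eq, abs_lt]; constructor <;> linarith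
      · rw [hcl]
        rintro ⟨v, hv, hv'⟩
        exact pt_ne (V := V) (s := r) (t := v) (by linarith [hv.1]) (by linarith [hv.2]) hv'.symm
    · rw [h3] at hb'
      have h4 := (continuous_pt V).continuousAt.eventually hb'
      obtain ⟨ε, hε, h5⟩ := Metric.eventually_nhds_iff.1 h4
      refine ⟨t0, t0 + min ε 1, by linarith [lt_min hε one_pos], fun r hr => ?_, Or.inl h3⟩
      have h6 : min ε 1 ≤ 1 := min_le_right _ _
      have h7 : min ε 1 ≤ ε := min_le_left _ _
      have hr1 := hr.1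
      have hr2 := hr.2
      refine ⟨Or.inl ⟨hr1, by linarith⟩, h5 ?_ (dist_pt V r) ?_⟩
      · rw [Real.dist_eq, abs_lt]; constructor <;> linarith
      · rw [hcl]
        rintro ⟨v, hv, hv'⟩
        exact pt_ne (V := V) (s := v) (t := r) (by linarith [hv.2]) (by linarith [hv.1]) hv'
  -- the colour at the end
  have hcard : ({t, x, y} : Set (Fin 6)).ncard = 3 := by
    have key : ∀ d : Fin 6, a ≠ d → b ≠ d → (({a, b, d} : Set (Fin 6))ᶜ).ncard = 3 := by
      intro d had hbd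
      have h5 : ({a, b, d} : Set (Fin 6)).ncard = 3 := by
        rw [Set.ncard_insert_of_notMem, Set.ncard_pair hbd]
        simp only [mem_insert_iff, mem_singleton_iff, not_or]
        exact ⟨H.dpt.ab, had⟩
      have h6 := Set.ncard_add_ncard_compl ({a, b, d} : Set (Fin 6))
      rw [h5, Nat.card_eq_fintype_card, Fintype.card_fin] at h6
      omega
    rcases hs with hs | hs
    · rw [hs]; exact key m H.dpt.ac H.dpt.bc
    · rw [hs]; exact key n H.dpt.ad H.dpt.bd
  have hmem : V2 ∈ closure (pt V '' Ioo lo hi) := by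
    refine image_closure_subset_closure_image (continuous_pt V) ?_
    rw [closure_Ioo hlo.ne]
    rcases hend with h5 | h5
    · exact ⟨lo, left_mem_Icc.2 hlo.le, h5.symm⟩
    · exact ⟨hi, right_mem_Icc.2 hlo.le, h5.symm⟩
  have hfreq := mem_closure_iff_frequently.1 hmem
  have ht : t ∈ T V2 := by
    have h5 : closure (pt V '' Ioo lo hi) ⊆ {q | t ∈ T q} := by
      refine closure_minimal ?_ (h.closed t)
      rintro _ ⟨r, hr, rfl⟩
      exact (hJ r hr).2
    exact h5 hmem
  have hc : ∀ᶠ q in 𝓝 V2, dist q c < R - 1 :=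
    (continuous_id.dist continuous_const).continuousAt.eventually_lt_const hx
  obtain ⟨_, ⟨r, hr, rfl⟩, k1, k2, k3⟩ := (hfreq.and_eventually
    ((D.loc hx.le ht).and (hc.and (two_pair_near D.df V2)))).exists
  obtain ⟨hr1, hr2⟩ := hJ r hr
  have hne' : lamT T Z f δ₀ t (pt V r) x y ≠ 0 := by rwa [k1 hr2]
  obtain ⟨u, hu, hF, hfr⟩ := D.supp k2.le hr2 hne'
  rw [mem_closedBall] at hu
  rcases fc_of_fcd D.df D.ch hF hcard with F | hD
  · rcases lt_or_ge (dist u V) 2 with h5 | h5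
    · have := far_beyondI h H hI F hs h2 hcl hr1 h5
      linarith
    · have h6 := tangent (dist_pt V r) hu h5
      rw [h6] at hfr
      exact no_tangent h hr (fun v hv => (hJ v hv).2) hfr
  · exact hW u hD (k3 u hD hu) hF

/-- the colours of `S(V1)` beyond `V`, STAY -/
theorem pal_beyondI (h : Irr U T) (H : QI0 T Inv V a b m n e0 f0 V1 V2)
    (H1 : QI0 T Inv V1 a m g b e1 f1 W V) : ∀ᶠ q in 𝓝[sphere V1 1] V,
      q ∉ closure (Ex T V1 {a, m}) → n ∈ T q ∧ (g = n → b ∈ T q) := by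
  filter_upwards [mem_nhdsWithin_of_mem_nhds (h.nhd V), self_mem_nhdsWithin] with q h1 h2 h3
  have hTP := H678.TP.of_dpt h H1.dpt
  have hgm : g ≠ m := H1.dpt.bc.symm
  have hga : g ≠ a := H1.dpt.ac.symm
  have hgb : g ≠ b := H1.dpt.cd
  have k1 : T q ⊆ T V1 → g = n ∧ g ∈ T q ∧ b ∈ T q := by
    intro h4
    rcases hTP.near q h2 h4 with h5 | h5
    · exact absurd h5.1 h3
    · have h6 : g ∈ T q := h5.2 (by simp)
      have h7 := h1 h6
      rw [H.pal] at h7
      rcases h7 with h7 | h7 | h7 | h7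
      · exact absurd h7 hga
      · exact absurd h7 hgb
      · exact absurd h7 hgm
      · exact ⟨h7, h6, h5.2 (by simp)⟩
  constructor
  · by_contra hn
    obtain ⟨h4, h5, -⟩ := k1 (by
      intro i hi
      have h6 := h1 hi
      rw [H.pal] at h6
      rw [H1.pal]
      rcases h6 with h6 | h6 | h6 | h6
      · rw [h6]; simp
      · rw [h6]; simp
      · rw [h6]; simp
      · rw [mem_singleton_iff] at h6
        exact absurd (h6 ▸ hi) hn)
    exact hn (h4 ▸ h5)
  · intro hg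
    refine (k1 ?_).2.2
    intro i hi
    have h6 := h1 hi
    rw [H.pal] at h6
    rw [H1.pal, hg]
    rcases h6 with h6 | h6 | h6 | h6
    · rw [h6]; simp
    · rw [h6]; simp
    · rw [h6]; simp
    · rw [mem_singleton_iff] at h6
      rw [h6]; simp

/-- **STAY, all colours** -/
theorem zero_stayI (D : DSt U T Z f c R δ₀) (hx : dist V c < R - 1)
    (H : QI0 T Inv V a b m n e0 f0 V1 V2) (H1 : QI0 T Inv V1 a m g b e1 f1 W V)
    (hI : ∀ p, ¬ Inv V1 p) {s : Set (Fin 6)}
    (hs : s = ({a, m, g} : Set (Fin 6))ᶜ ∨ s = ({a, m, b} : Set (Fin 6))ᶜ)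
    (hW : ∀ W, (∃ a b c d, DPt T W a b c d) → dist W V ≤ 1 → ¬ FcD T f W s)
    (hag : ∀ d, lamT T Z f δ₀ b V n d = lamT T Z f δ₀ n V b d) {t x y : Fin 6}
    (ht : t ∈ T V) (hst : ({t, x, y} : Set (Fin 6)) = s) : lamT T Z f δ₀ t V x y = 0 := by
  have h := D.df.irr
  have hp := pal_beyondI h H H1
  -- the colour `n`
  have hn : ∀ x y : Fin 6, ({n, x, y} : Set (Fin 6)) = s → lamT T Z f δ₀ n V x y = 0 := by
    intro x y hxy
    subst hxy
    exact beyond_zeroI D hx H1 hI hs (hp.mono fun q hq h1 => (hq h1).1) hW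
  have hts : t ∈ s := by rw [← hst]; simp
  rw [H.pal] at ht
  rcases ht with ht | ht | ht | ht
  · exfalso
    rcases hs with rfl | rfl <;> exact hts (by rw [ht]; simp)
  · -- the colour `b`
    by_cases hg : g = n
    · subst hst
      exact beyond_zeroI D hx H1 hI hs (hp.mono fun q hq h1 => by rw [ht]; exact (hq h1).2 hg) hW
    · -- `n` is a colour of `s`
      rcases hs with hs | hs
      · have hns : n ∈ s := by
          rw [hs]
          rintro (h1 | h1 | h1)
          · exact H.dpt.ad h1.symm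
          · exact H.dpt.cd h1.symm
          · exact hg h1.symm
        rw [← hst] at hns
        rcases hns with h1 | h1 | h1
        · exact absurd (h1.trans ht) H.dpt.bd.symm
        · rw [ht, ← h1, hag]
          refine hn b y ?_
          rw [← hst, ht, ← h1]
          exact Set.insert_comm _ _ _
        · rw [mem_singleton_iff] at h1
          rw [ht, ← h1, lamT_symm, hag]
          refine hn b x ?_
          rw [← hst, ht, ← h1]
          ext i
          simp only [mem_insert_iff, mem_singleton_iff]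
          tauto
      · exfalso
        rw [hs] at hts
        exact hts (by rw [ht]; simp)
  · exfalso
    rcases hs with rfl | rfl <;> exact hts (by rw [ht]; simp)
  · rw [mem_singleton_iff] at ht
    rw [ht] at hst ⊢
    exact hn x y hst

/-- the connecting pairs of the two-pair points of `S(V)` inside the palette of `V` meet the
connecting pair of `V1` -/
theorem conn_meetsI (h : Irr U T) (hw : QIW T Inv) (H : QI T Inv V a b m n e0 f0 V1 V2)
    (H1 : QI T Inv V1 a1 b1 m1 n1 e1 f1 W V) {z : ℂ} (hz : dist z V = 1)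
    {a' b' m' n' e' f' : Fin 6} {X Y : ℂ} (K : QI T Inv z a' b' m' n' e' f' X Y)
    (ha : a' ∈ T V) (hb : b' ∈ T V) : (({a1, b1} : Set (Fin 6)) ∩ {a', b'}).Nonempty := by
  rcases H.ord z hz K.ord0.ge with rfl | rfl | h1
  · have h1 := hw.pair_unique h H1 K
    rw [h1, inter_self]
    exact ⟨a1, by simp⟩
  · rcases K.ord V (by rw [dist_comm]; exact hz) H.ord0.ge with h2 | h2 | h2
    · exact four_link (p := V) h hw H1 K H.ne12 (Or.inr rfl) (Or.inl h2)
    · exact four_link (p := V) h hw H1 K H.ne12 (Or.inr rfl) (Or.inr h2)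
    · exfalso
      have h3 : ∃ g e' f' W', QI T Inv z a n g b e' f' W' V ∨ QI T Inv z m b a g e' f' W' V :=
        hw.link H.mirror
      obtain ⟨g, e', f', W', h3 | h3⟩ := h3
      · rcases K.ord V (by rw [dist_comm]; exact hz) H.ord0.ge with h5 | h5 | h5
        · exact hw.inv h2 (by rw [dist_comm]; exact hz) H (by rw [h3.pal]; simp)
            (by rw [h3.pal]; simp)
        · exact hw.inv h2 (by rw [dist_comm]; exact hz) H (by rw [h3.pal]; simp)
            (by rw [h3.pal]; simp)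
        · exact hw.inv h2 (by rw [dist_comm]; exact hz) H (by rw [h3.pal]; simp)
            (by rw [h3.pal]; simp)
      · exact hw.inv h2 (by rw [dist_comm]; exact hz) H (by rw [h3.pal]; simp)
          (by rw [h3.pal]; simp)
  · exact (hw.inv h1 hz K ha hb).elim

/-- agreement at a border which is disjoint from the connecting pair of `V1` -/
theorem agree_offI (D : DSt U T Z f c R δ₀) (hx : dist V c ≤ R - 1) (hw : QIW T Inv)
    (G : GaugeI758 T Inv f) (H : QI T Inv V a b m n e0 f0 V1 V2)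
    (H1 : QI T Inv V1 a1 b1 m1 n1 e1 f1 W V)
    {i i' j j' : Fin 6} (hV : DPt T V i i' j j')
    (hij : ∀ k ∈ ({a1, b1} : Set (Fin 6)), k ∉ ({i, j} : Set (Fin 6))) (d : Fin 6) :
    lamT T Z f δ₀ i V j d = lamT T Z f δ₀ j V i d := by
  refine D.agreeV hx hV (fun z g1 h1 i1 j1 hz hD heq => ?_) d
  obtain ⟨a', b', m', n', e', f', X, Y, K⟩ := hw.qf hD
  rw [G.qi K, K.dpt.diff758] at heq
  have hsub : ({a', b'} : Set (Fin 6)) ⊆ T V := by
    rw [heq, hV.pal]
    rintro k (rfl | hk)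
    · simp
    · rw [mem_singleton_iff] at hk; rw [hk]; simp
  obtain ⟨k, hk, hk'⟩ := conn_meetsI D.df.irr hw H H1 hz K (hsub (by simp)) (hsub (by simp))
  rw [heq] at hk'
  exact hij k hk hk'

/-- the links in the names of a given structure at `V1` -/
theorem QI.uniqI (h : Irr U T) (hw : QIW T Inv) (H : QI T Inv V a b m n e0 f0 V1 V2)
    {a' b' m' n' e' f' : Fin 6} {V1' V2' : ℂ} (H' : QI T Inv V a' b' m' n' e' f' V1' V2') :
    a' = a ∧ b' = b ∧
    (m' = m ∧ n' = n ∧ V1' = V1 ∧ V2' = V2 ∨ m' = n ∧ n' = m ∧ V1' = V2 ∧ V2' = V1) := by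
  obtain ⟨rfl, rfl⟩ := inner_unique h H H' (hw.pair_unique h H H')
  exact ⟨rfl, rfl, QI0.uniq h H.toQI0 H'.toQI0 (H.mem_lnk hw H') (H.mem_lnk hw H'.mirror)⟩

/-- **row V_(±1), final form.** In the world `QIW` without invisible points the state of `V`
vanishes at the complements of the faces of its neighbour `V1` -/
theorem QIW.zero_nb (hw : QIW T Inv) (hI : ∀ V p, ¬ Inv V p) (D : DSt U T Z f c R δ₀)
    (G : GaugeI758 T Inv f) (hx : dist V c < R - 1) (H : QI T Inv V a b m n e0 f0 V1 V2)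
    (H1 : QI T Inv V1 a1 b1 m1 n1 e1 f1 W V) {t x y : Fin 6} (ht : t ∈ T V)
    (hs : ({t, x, y} : Set (Fin 6)) = ({a1, b1, m1} : Set (Fin 6))ᶜ ∨
      ({t, x, y} : Set (Fin 6)) = ({a1, b1, n1} : Set (Fin 6))ᶜ) :
    lamT T Z f δ₀ t V x y = 0 := by
  have h := D.df.irr
  have hW : ∀ z, (∃ a b c d, DPt T z a b c d) → dist z V ≤ 1 → ¬ FcD T f z {t, x, y} := by
    intro z hD hz
    rcases hs with hs | hs
    · have h1 := compl_face (nodup_cd H1.nd)
      rw [hs, ← h1]
      exact H678.oneI678 h hw hI (fun K => G.qi K) H1 (Or.inr rfl) hD hz (Or.inr rfl)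
    · have h1 := compl_face H1.nd
      rw [hs, ← h1]
      exact H678.oneI678 h hw hI (fun K => G.qi K) H1 (Or.inr rfl) hD hz (Or.inl rfl)
  have hnd := H.nd
  simp only [List.nodup_cons, List.mem_cons, List.not_mem_nil, or_false, not_or,
    List.nodup_nil, and_true, not_false_eq_true] at hnd
  obtain ⟨⟨hab, ham, han, -⟩, ⟨hbm, hbn, -⟩, ⟨hmn, -⟩, -⟩ := hnd
  have hlk : ∃ g e' f' W', QI T Inv V1 a m g b e' f' W' V ∨ QI T Inv V1 n b a g e' f' W' V :=
    hw.link H
  obtain ⟨g, e', f', W', hL | hL⟩ := hlk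
  · obtain ⟨h1, h2, h3⟩ := H1.uniqI h hw hL
    have hs' : ({t, x, y} : Set (Fin 6)) = ({a, m, g} : Set (Fin 6))ᶜ ∨
        ({t, x, y} : Set (Fin 6)) = ({a, m, b} : Set (Fin 6))ᶜ := by
      rw [h1, h2]
      rcases h3 with ⟨h3, h4, -⟩ | ⟨h3, h4, -⟩
      · rw [h3, h4]; exact hs
      · rw [h3, h4]; exact hs.symm
    refine zero_stayI D hx H.toQI0 hL.toQI0 (hI V1) hs' hW (fun d => ?_) ht rfl
    refine agree_offI D hx.le hw G H H1 H.dpt.swap12.swap34 (fun k hk hk' => ?_) d
    rw [← h1, ← h2] at hk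
    rcases hk with rfl | hk <;> rcases hk' with hk' | hk'
    · exact hab hk'
    · exact han hk'
    · exact hbm (hk'.symm.trans hk)
    · exact hmn (hk.symm.trans hk')
  · obtain ⟨h1, h2, h3⟩ := H1.uniqI h hw hL
    have hs' : ({t, x, y} : Set (Fin 6)) = ({b, n, g} : Set (Fin 6))ᶜ ∨
        ({t, x, y} : Set (Fin 6)) = ({b, n, a} : Set (Fin 6))ᶜ := by
      have e1 : ∀ k : Fin 6, ({b, n, k} : Set (Fin 6)) = {n, b, k} := fun k =>
        Set.insert_comm _ _ _
      rw [e1, e1, h1, h2]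
      rcases h3 with ⟨h3, h4, -⟩ | ⟨h3, h4, -⟩
      · rw [h3, h4]; exact hs.symm
      · rw [h3, h4]; exact hs
    refine zero_stayI D hx H.toQI0.swapAB hL.toQI0.swapAB (hI V1) hs' hW (fun d => ?_) ht rfl
    refine agree_offI D hx.le hw G H H1 H.dpt (fun k hk hk' => ?_) d
    rw [← h1, ← h2] at hk
    rcases hk with rfl | hk <;> rcases hk' with hk' | hk'
    · exact han hk'.symm
    · exact hmn hk'.symm
    · exact hab (hk'.symm.trans hk)
    · exact hbm (hk.symm.trans hk')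

/-- **the state of `V j` vanishes at the complements of the faces of `V (j + 1)`, `V (j - 1)`** -/
theorem zero_adjI {V : ℤ → ℂ} {l : ℤ → Fin 6} {name : ℤ → Fin 6 → Fin 6}
    {nx : Fin 6 → Fin 6 → Fin 6} (hw : QIW T Inv) (hI : ∀ V p, ¬ Inv V p)
    (D : DSt U T Z f c R δ₀) (G : GaugeI758 T Inv f) (hC : ChI nx T Inv V l name) {j : ℤ}
    (hx : dist (V j) c < R - 1) {k : ℤ} (hk : k = j + 1 ∨ k = j - 1) {r : Fin 6}
    (hr : r = 2 ∨ r = 3) {t x y : Fin 6}
    (hs : ({t, x, y} : Set (Fin 6)) = {name k r, name k 4, name k 5}) (ht : t ∈ T (V j)) :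
    lamT T Z f δ₀ t (V j) x y = 0 := by
  have hf : ({t, x, y} : Set (Fin 6)) = ({name k 0, name k 1, name k 2} : Set (Fin 6))ᶜ ∨
      ({t, x, y} : Set (Fin 6)) = ({name k 0, name k 1, name k 3} : Set (Fin 6))ᶜ := by
    rw [hs]
    rcases hr with rfl | rfl
    · exact Or.inr (compl_face (hC.qf k).nd)
    · exact Or.inl (compl_face (nodup_cd (hC.qf k).nd))
  rcases hk with rfl | rfl
  · have h1 := hC.qf (j + 1)
    rw [add_sub_cancel_right] at h1
    exact hw.zero_nb hI D G hx (hC.qf j) h1 ht hf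
  · have h1 := (hC.qf (j - 1)).mirror
    rw [sub_add_cancel] at h1
    exact hw.zero_nb hI D G hx (hC.qf j).mirror h1 ht hf.symm

end Vale.Agent.P032.H961
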