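import Vale.Agent.P032.H961.Beyond
import Vale.Agent.P032.H678.VW4
import Vale.Agent.P032.H492.Border
import Vale.Agent.P032.H758.Gauge

/-!
# P032: the state of a vertex vanishes at the complements of the faces of its neighbours

`V` quasi-full, `V1` an end of its arc, quasi-full with the end `V`.  The complements of the faces of
`V1` which lie on the circle `S(V)` are seen from outside: the points `y` of `S(V1)` beyond `V` are at
distance more than one from all of them (`far_beyond`); the state is locally constant.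

* `beyond_zero` : one colour which is carried by `S(V1)` beyond `V`;
* `zero_stay` : all colours, under hypotheses on the two-pair points and one agreement;
* `QFW.zero_nb` : the final form in the world `QFW`.
-/

open Set Filter Topology Metric

noncomputable section

namespace Vale.Agent.P032.H961

open Vale.Agent.P032.Six Vale.Agent.P032.Carr Vale.Agent.P032.S5.H767

variable {U : Fin 6 → Set ℂ} {T : ℂ → Set (Fin 6)} {f : ℂ → Set (Fin 6)} {Z : Set ℂ}
  {c : ℂ} {R δ₀ : ℝ} {V V1 V2 W W1 W2 u : ℂ} {a b m n e g e0 f0 e1 f1 a1 b1 m1 n1 : Fin 6}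
  {s : Set (Fin 6)}

/-- a face of the state belongs to a three-point, a harmless point or a two-pair point -/
theorem fc_of_fcd (D : DF U T) (F : ChF T f) (hF : FcD T f u s) (hs : s.ncard = 3) :
    Six.Fc T u s ∨ ∃ a b c d, DPt T u a b c d := by
  rcases le_or_gt (T u).ncard 3 with h3 | h3
  · left
    have e1 : s = T u := Set.eq_of_subset_of_ncard_le hF.1 (by omega) (Set.toFinite _)
    rw [e1]
    exact D.irr.fc_three h3
  · rcases D.harm_or h3 with ⟨A, hA⟩ | h4
    · left
      refine fc_harmless hF.1 hA.h1 ?_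
      have := hF.2 h3
      rwa [F.harm u A hA] at this
    · exact Or.inr h4

/-- the two-pair points near the closed disc are in the closed disc -/
theorem two_pair_near (D : DF U T) (x : ℂ) : ∀ᶠ y in 𝓝 x, ∀ W, (∃ a b c d, DPt T W a b c d) →
    dist W y ≤ 1 → dist W x ≤ 1 := by
  have hfin : ({z | dist z x ≤ 2 ∧ ∃ a b c d, DPt T z a b c d} ∩ {z | 1 < dist z x}).Finite :=
    (D.fin x 2).subset inter_subset_left
  have h1 : ∀ᶠ y in 𝓝 x, ∀ z ∈ ({z | dist z x ≤ 2 ∧ ∃ a b c d, DPt T z a b c d} ∩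
      {z | 1 < dist z x}), 1 < dist z y := by
    refine (Filter.eventually_all_finite hfin).2 fun z hz => ?_
    exact (continuous_const.dist continuous_id).continuousAt.eventually_const_lt hz.2
  filter_upwards [h1, ball_mem_nhds x one_pos] with y h2 h3 W hW hd
  by_contra hcon
  push Not at hcon
  have h4 : dist W x ≤ 2 := by
    have := dist_triangle W y x
    rw [mem_ball] at h3
    linarith
  have := h2 W ⟨⟨h4, hW⟩, hcon⟩
  linarith

/-- **one colour**: `V2` an end of the connecting arc of `V` (the vertex at which the state is taken),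
the circle `S(V)` beyond `V2` carries the colour `t` -/
theorem beyond_zero (D : DSt U T Z f c R δ₀) (hx : dist V2 c < R - 1)
    (H : QF0 T V a b m n e0 f0 V1 V2) {t x y : Fin 6}
    (hs : ({t, x, y} : Set (Fin 6)) = ({a, b, m} : Set (Fin 6))ᶜ ∨
      ({t, x, y} : Set (Fin 6)) = ({a, b, n} : Set (Fin 6))ᶜ)
    (hb : ∀ᶠ q in 𝓝[sphere V 1] V2, q ∉ closure (Ex T V {a, b}) → t ∈ T q)
    (hW : ∀ W, (∃ a b c d, DPt T W a b c d) → dist W V2 ≤ 1 → ¬ FcD T f W {t, x, y}) :
    lamT T Z f δ₀ t V2 x y = 0 := by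
  by_contra hne
  have h := D.df.irr
  obtain ⟨s0, t0, h1, h2, h3, hcl⟩ := H383.qf_closure H
  have hb' := eventually_nhdsWithin_iff.1 hb
  -- an interval of angles beyond the end
  obtain ⟨lo, hi, hlo, hI, hend⟩ : ∃ lo hi : ℝ, lo < hi ∧ (∀ r ∈ Ioo lo hi,
      (t0 < r ∧ r ≤ t0 + 1 ∨ s0 - 1 ≤ r ∧ r < s0) ∧ t ∈ T (pt V r)) ∧
      (V2 = pt V lo ∨ V2 = pt V hi) := by
    rcases h3 with ⟨-, h3⟩ | ⟨-, h3⟩
    · rw [h3] at hb'
      have h4 := (continuous_pt V).continuousAt.eventually hb'
      obtain ⟨ε, hε, h5⟩ := Metric.eventually_nhds_iff.1 h4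
      refine ⟨s0 - min ε 1, s0, by linarith [lt_min hε one_pos], fun r hr => ?_, Or.inr h3⟩
      have h6 : min ε 1 ≤ 1 := min_le_right _ _
      have h7 : min ε 1 ≤ ε := min_le_left _ _
      have hr1 := hr.1
      have hr2 := hr.2
      refine ⟨Or.inr ⟨by linarith, hr2⟩, h5 ?_ (dist_pt V r) ?_⟩
      · rw [Real.dist_eq, abs_lt]; constructor <;> linarith
      · rw [hcl]
        rintro ⟨v, hv, hv'⟩
        exact pt_ne (V := V) (s := r) (t := v) (by linarith [hv.1]) (by linarith [hv.2]) hv'.symm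
    · rw [h3] at hb'
      have h4 := (continuous_pt V).continuousAt.eventually hb'
      obtain ⟨ε, hε, h5⟩ := Metric.eventually_nhds_iff.1 h4
      refine ⟨t0, t0 + min ε 1, by linarith [lt_min hε one_pos], fun r hr => ?_, Or.inl h3⟩
      have h6 : min ε 1 ≤ 1 := min_le_right _ _
      have h7 : min ε 1 ≤ ε := min_le_left _ _
      have hr1 := hr.1
      have hr2 := hr.2
      refine ⟨Or.inl ⟨hr1, by linarith⟩, h5 ?_ (dist_pt V r) ?_⟩
      · rw [Real.dist_eq, abs_lt]; constructor <;> linarith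
      · rw [hcl]
        rintro ⟨v, hv, hv'⟩
        exact pt_ne (V := V) (s := v) (t := r) (by linarith [hv.2]) (by linarith [hv.1]) hv'
  -- the colour at the end
  have hcard : ({t, x, y} : Set (Fin 6)).ncard = 3 := by
    have key : ∀ d : Fin 6, a ≠ d → b ≠ d → (({a, b, d} : Set (Fin 6))ᶜ).ncard = 3 := by
      intro d had hbd
      have h5 : ({a, b, d} : Set (Fin 6)).ncard = 3 := by
        rw [Set.ncard_insert_of_notMem, Set.ncard_pair hbd]
        simp only [mem_insert_iff, mem_singleton_iff, not_or]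
        exact ⟨H.dpt.ab, had⟩
      have h6 := Set.ncard_add_ncard_compl ({a, b, d} : Set (Fin 6))
      rw [h5, Nat.card_eq_fintype_card, Fintype.card_fin] at h6
      omega
    rcases hs with hs | hs
    · rw [hs]; exact key m H.dpt.ac H.dpt.bc
    · rw [hs]; exact key n H.dpt.ad H.dpt.bd
  have hmem : V2 ∈ closure (pt V '' Ioo lo hi) := by
    refine image_closure_subset_closure_image (continuous_pt V) ?_
    rw [closure_Ioo hlo.ne]
    rcases hend with h5 | h5
    · exact ⟨lo, left_mem_Icc.2 hlo.le, h5.symm⟩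
    · exact ⟨hi, right_mem_Icc.2 hlo.le, h5.symm⟩
  have hfreq := mem_closure_iff_frequently.1 hmem
  have ht : t ∈ T V2 := by
    have h5 : closure (pt V '' Ioo lo hi) ⊆ {q | t ∈ T q} := by
      refine closure_minimal ?_ (h.closed t)
      rintro _ ⟨r, hr, rfl⟩
      exact (hI r hr).2
    exact h5 hmem
  have hc : ∀ᶠ q in 𝓝 V2, dist q c < R - 1 :=
    (continuous_id.dist continuous_const).continuousAt.eventually_lt_const hx
  obtain ⟨_, ⟨r, hr, rfl⟩, k1, k2, k3⟩ := (hfreq.and_eventually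
    ((D.loc hx.le ht).and (hc.and (two_pair_near D.df V2)))).exists
  obtain ⟨hr1, hr2⟩ := hI r hr
  have hne' : lamT T Z f δ₀ t (pt V r) x y ≠ 0 := by rwa [k1 hr2]
  obtain ⟨u, hu, hF, hfr⟩ := D.supp k2.le hr2 hne'
  rw [mem_closedBall] at hu
  rcases fc_of_fcd D.df D.ch hF hcard with F | hD
  · rcases lt_or_ge (dist u V) 2 with h5 | h5
    · have := far_beyond h H F hs h2.le hcl hr1 h5
      linarith
    · have h6 := tangent (dist_pt V r) hu h5
      rw [h6] at hfr
      exact no_tangent h hr (fun v hv => (hI v hv).2) hfr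
  · exact hW u hD (k3 u hD hu) hF

/-- the colours of `S(V1)` beyond `V`, STAY -/
theorem pal_beyond (h : Irr U T) (H : QF0 T V a b m n e0 f0 V1 V2)
    (H1 : QF0 T V1 a m g b e1 f1 W V) : ∀ᶠ q in 𝓝[sphere V1 1] V,
      q ∉ closure (Ex T V1 {a, m}) → n ∈ T q ∧ (g = n → b ∈ T q) := by
  filter_upwards [mem_nhdsWithin_of_mem_nhds (h.nhd V), self_mem_nhdsWithin] with q h1 h2 h3
  have hTP := H678.TP.of_dpt h H1.dpt
  have hgm : g ≠ m := H1.dpt.bc.symm
  have hga : g ≠ a := H1.dpt.ac.symm
  have hgb : g ≠ b := H1.dpt.cd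
  have k1 : T q ⊆ T V1 → g = n ∧ g ∈ T q ∧ b ∈ T q := by
    intro h4
    rcases hTP.near q h2 h4 with h5 | h5
    · exact absurd h5.1 h3
    · have h6 : g ∈ T q := h5.2 (by simp)
      have h7 := h1 h6
      rw [H.pal] at h7
      rcases h7 with h7 | h7 | h7 | h7
      · exact absurd h7 hga
      · exact absurd h7 hgb
      · exact absurd h7 hgm
      · exact ⟨h7, h6, h5.2 (by simp)⟩
  constructor
  · by_contra hn
    obtain ⟨h4, h5, -⟩ := k1 (by
      intro i hi
      have h6 := h1 hi
      rw [H.pal] at h6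
      rw [H1.pal]
      rcases h6 with h6 | h6 | h6 | h6
      · rw [h6]; simp
      · rw [h6]; simp
      · rw [h6]; simp
      · rw [mem_singleton_iff] at h6
        exact absurd (h6 ▸ hi) hn)
    exact hn (h4 ▸ h5)
  · intro hg
    refine (k1 ?_).2.2
    intro i hi
    have h6 := h1 hi
    rw [H.pal] at h6
    rw [H1.pal, hg]
    rcases h6 with h6 | h6 | h6 | h6
    · rw [h6]; simp
    · rw [h6]; simp
    · rw [h6]; simp
    · rw [mem_singleton_iff] at h6
      rw [h6]; simp

/-- **STAY, all colours** -/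
theorem zero_stay (D : DSt U T Z f c R δ₀) (hx : dist V c < R - 1)
    (H : QF0 T V a b m n e0 f0 V1 V2) (H1 : QF0 T V1 a m g b e1 f1 W V) {s : Set (Fin 6)}
    (hs : s = ({a, m, g} : Set (Fin 6))ᶜ ∨ s = ({a, m, b} : Set (Fin 6))ᶜ)
    (hW : ∀ W, (∃ a b c d, DPt T W a b c d) → dist W V ≤ 1 → ¬ FcD T f W s)
    (hag : ∀ d, lamT T Z f δ₀ b V n d = lamT T Z f δ₀ n V b d) {t x y : Fin 6}
    (ht : t ∈ T V) (hst : ({t, x, y} : Set (Fin 6)) = s) : lamT T Z f δ₀ t V x y = 0 := by
  have h := D.df.irr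
  have hp := pal_beyond h H H1
  -- the colour `n`
  have hn : ∀ x y : Fin 6, ({n, x, y} : Set (Fin 6)) = s → lamT T Z f δ₀ n V x y = 0 := by
    intro x y hxy
    subst hxy
    exact beyond_zero D hx H1 hs (hp.mono fun q hq h1 => (hq h1).1) hW
  have hts : t ∈ s := by rw [← hst]; simp
  rw [H.pal] at ht
  rcases ht with ht | ht | ht | ht
  · exfalso
    rcases hs with rfl | rfl <;> exact hts (by rw [ht]; simp)
  · -- the colour `b`
    by_cases hg : g = n
    · subst hst
      exact beyond_zero D hx H1 hs (hp.mono fun q hq h1 => by rw [ht]; exact (hq h1).2 hg) hW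
    · -- `n` is a colour of `s`
      rcases hs with hs | hs
      · have hns : n ∈ s := by
          rw [hs]
          rintro (h1 | h1 | h1)
          · exact H.dpt.ad h1.symm
          · exact H.dpt.cd h1.symm
          · exact hg h1.symm
        rw [← hst] at hns
        rcases hns with h1 | h1 | h1
        · exact absurd (h1.trans ht) H.dpt.bd.symm
        · rw [ht, ← h1, hag]
          refine hn b y ?_
          rw [← hst, ht, ← h1]
          exact Set.insert_comm _ _ _
        · rw [mem_singleton_iff] at h1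
          rw [ht, ← h1, lamT_symm, hag]
          refine hn b x ?_
          rw [← hst, ht, ← h1]
          ext i
          simp only [mem_insert_iff, mem_singleton_iff]
          tauto
      · exfalso
        rw [hs] at hts
        exact hts (by rw [ht]; simp)
  · exfalso
    rcases hs with rfl | rfl <;> exact hts (by rw [ht]; simp)
  · rw [mem_singleton_iff] at ht
    rw [ht] at hst ⊢
    exact hn x y hst

/-- a face of a quasi-full point in the gauge contains the connecting pair -/
theorem fcd_face (G : Gauge758 T f) (H : QF0 T V a b m n e0 f0 V1 V2) (hF : FcD T f V s)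
    (hs : s.ncard = 3) : s = {a, b, m} ∨ s = {a, b, n} := by
  have h1 := hF.2 H.ord0.ge
  rw [G.qf H] at h1
  obtain ⟨i, hi, his⟩ := not_subset.1 h1
  have key : ∀ i j : Fin 6, T V = {a, b, i, j} → a ≠ i → b ≠ i → i ∉ s → s = {a, b, j} := by
    intro i j hT ha hb hi
    refine Set.eq_of_subset_of_ncard_le ?_ ?_ (Set.toFinite _)
    · intro k hk
      have h2 := hF.1 hk
      rw [hT] at h2
      rcases h2 with h2 | h2 | h2 | h2
      · exact Or.inl h2
      · exact Or.inr (Or.inl h2)
      · exact absurd (h2 ▸ hk) hi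
      · exact Or.inr (Or.inr h2)
    · rw [hs]
      refine (Set.ncard_insert_le _ _).trans ?_
      refine (Nat.succ_le_succ (Set.ncard_insert_le _ _)).trans ?_
      simp
  rcases hi with hi | hi
  · right
    exact key m n H.pal H.dpt.ac H.dpt.bc (hi ▸ his)
  · left
    rw [mem_singleton_iff] at hi
    refine key n m ?_ H.dpt.ad H.dpt.bd (hi ▸ his)
    rw [H.pal, Set.pair_comm m n]

/-- the connecting pairs of the order-four points of `S(V)` meet the connecting pair of `V1` -/
theorem conn_meets (h : Irr U T) (hw : QFW T) (H : QF T V a b m n e0 f0 V1 V2)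
    (H1 : QF T V1 a1 b1 m1 n1 e1 f1 W V) {z : ℂ} (hz : dist z V = 1) (h4 : 4 ≤ (T z).ncard)
    {a' b' m' n' e' f' : Fin 6} {X Y : ℂ} (K : QF T z a' b' m' n' e' f' X Y) :
    (({a1, b1} : Set (Fin 6)) ∩ {a', b'}).Nonempty := by
  rcases H.ord z hz h4 with rfl | rfl
  · have h1 := H1.toQF0.pair_unique h K.toQF0
    rw [h1, inter_self]
    exact ⟨a1, by simp⟩
  · exact fourF_link (p := V) h hw H1 K H.ne12 (Or.inr rfl)
      (K.ord V (by rw [dist_comm]; exact hz) H.ord0.ge)

/-- no face of a two-pair point of the closed disc of `V` is complementary to a face of `V1` -/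
theorem no_two_pair (h : Irr U T) (hw : QFW T) (G : Gauge758 T f)
    (H : QF T V a b m n e0 f0 V1 V2) (H1 : QF T V1 a1 b1 m1 n1 e1 f1 W V)
    (hs : s = ({a1, b1, m1} : Set (Fin 6))ᶜ ∨ s = ({a1, b1, n1} : Set (Fin 6))ᶜ)
    {z : ℂ} (hD : ∃ a b c d, DPt T z a b c d) (hz : dist z V ≤ 1) (hF : FcD T f z s) : False := by
  obtain ⟨_, _, _, _, hD⟩ := hD
  have h4 : 4 ≤ (T z).ncard := (card4 hD).ge
  obtain ⟨a', b', m', n', e', f', X, Y, K⟩ := hw.qf z h4
  have hsc : s.ncard = 3 := by
    have key : ∀ d : Fin 6, a1 ≠ d → b1 ≠ d → (({a1, b1, d} : Set (Fin 6))ᶜ).ncard = 3 := by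
      intro d had hbd
      have h5 : ({a1, b1, d} : Set (Fin 6)).ncard = 3 := by
        rw [Set.ncard_insert_of_notMem, Set.ncard_pair hbd]
        simp only [mem_insert_iff, mem_singleton_iff, not_or]
        exact ⟨H1.dpt.ab, had⟩
      have h6 := Set.ncard_add_ncard_compl ({a1, b1, d} : Set (Fin 6))
      rw [h5, Nat.card_eq_fintype_card, Fintype.card_fin] at h6
      omega
    rcases hs with hs | hs
    · rw [hs]; exact key m1 H1.dpt.ac H1.dpt.bc
    · rw [hs]; exact key n1 H1.dpt.ad H1.dpt.bd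
  have hface := fcd_face G K.toQF0 hF hsc
  have hdisj : ∀ i ∈ ({a1, b1} : Set (Fin 6)), i ∉ s := by
    intro i hi
    rcases hs with rfl | rfl
    · rw [notMem_compl_iff]
      rcases hi with rfl | hi
      · simp
      · rw [mem_singleton_iff] at hi; rw [hi]; simp
    · rw [notMem_compl_iff]
      rcases hi with rfl | hi
      · simp
      · rw [mem_singleton_iff] at hi; rw [hi]; simp
  have hsub : ({a', b'} : Set (Fin 6)) ⊆ s := by
    rintro i (rfl | hi)
    · rcases hface with h5 | h5 <;> rw [h5] <;> simp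
    · rw [mem_singleton_iff] at hi
      rw [hi]
      rcases hface with h5 | h5 <;> rw [h5] <;> simp
  rcases eq_or_lt_of_le hz with hz1 | hz1
  · obtain ⟨i, hi, hi'⟩ := conn_meets h hw H H1 hz1 h4 K
    exact hdisj i hi (hsub hi')
  · -- the lemma of H678
    have hQW := QFW.toQW h hw
    have hQ : QQF T V1 {a1, b1} {m1, n1} := ⟨_, _, _, _, _, _, _, _, rfl, rfl, H1⟩
    have hQ' : QQF T z {a', b'} {m', n'} := ⟨_, _, _, _, _, _, _, _, rfl, rfl, K⟩
    obtain ⟨α, α', X', g', -, -, hX, -, -, hQv⟩ := hQW.link V1 _ _ V hQ (H1.toQF0.mem2 h) H.ord0.ge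
    have key : ∀ r r' : Fin 6, r ∈ ({m1, n1} : Set (Fin 6)) → r' ∈ ({m', n'} : Set (Fin 6)) →
        s = ({a1, b1, r} : Set (Fin 6))ᶜ → s = {a', b', r'} → False := by
      intro r r' hr hr' h5 h6
      refine hQW.zero_one h hQ (H1.toQF0.mem2 h) H.ord0.ge hX hQv hQ' hz1 hr hr' ?_
      have e1 : insert r' ({a', b'} : Set (Fin 6)) = s := by
        rw [h6]; ext i; simp only [mem_insert_iff, mem_singleton_iff]; tauto
      have e2 : (insert r ({a1, b1} : Set (Fin 6))) = {a1, b1, r} := by
        ext i; simp only [mem_insert_iff, mem_singleton_iff]; tauto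
      rw [e1, e2, h5]
    rcases hs with h5 | h5 <;> rcases hface with h6 | h6
    · exact key m1 m' (by simp) (by simp) h5 h6
    · exact key m1 n' (by simp) (by simp) h5 h6
    · exact key n1 m' (by simp) (by simp) h5 h6
    · exact key n1 n' (by simp) (by simp) h5 h6

/-- agreement at a border which is disjoint from the connecting pair of `V1` -/
theorem agree_off (D : DSt U T Z f c R δ₀) (hx : dist V c ≤ R - 1) (hw : QFW T)
    (G : Gauge758 T f) (H : QF T V a b m n e0 f0 V1 V2) (H1 : QF T V1 a1 b1 m1 n1 e1 f1 W V)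
    {i i' j j' : Fin 6} (hV : DPt T V i i' j j')
    (hij : ∀ k ∈ ({a1, b1} : Set (Fin 6)), k ∉ ({i, j} : Set (Fin 6))) (d : Fin 6) :
    lamT T Z f δ₀ i V j d = lamT T Z f δ₀ j V i d := by
  refine D.agreeV hx hV (fun z g1 h1 i1 j1 hz hD heq => ?_) d
  have h4 : 4 ≤ (T z).ncard := (card4 hD).ge
  obtain ⟨a', b', m', n', e', f', X, Y, K⟩ := hw.qf z h4
  obtain ⟨k, hk, hk'⟩ := conn_meets D.df.irr hw H H1 hz h4 K
  rw [G.qf K.toQF0, K.dpt.diff758] at heq
  rw [heq] at hk'
  exact hij k hk hk'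

/-- **row V_(±1), final form.** In the world `QFW` the state of `V` vanishes at the complements of the
faces of its neighbour `V1` -/
theorem QFW.zero_nb (hw : QFW T) (D : DSt U T Z f c R δ₀) (G : Gauge758 T f)
    (hx : dist V c < R - 1) (H : QF T V a b m n e0 f0 V1 V2)
    (H1 : QF T V1 a1 b1 m1 n1 e1 f1 W V) {t x y : Fin 6} (ht : t ∈ T V)
    (hs : ({t, x, y} : Set (Fin 6)) = ({a1, b1, m1} : Set (Fin 6))ᶜ ∨
      ({t, x, y} : Set (Fin 6)) = ({a1, b1, n1} : Set (Fin 6))ᶜ) :
    lamT T Z f δ₀ t V x y = 0 := by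
  have h := D.df.irr
  have hW : ∀ z, (∃ a b c d, DPt T z a b c d) → dist z V ≤ 1 → ¬ FcD T f z {t, x, y} :=
    fun z hD hz hF => no_two_pair h hw G H H1 hs hD hz hF
  have hnd := H.nd
  simp only [List.nodup_cons, List.mem_cons, List.not_mem_nil, or_false, not_or,
    List.nodup_nil, and_true, not_false_eq_true] at hnd
  obtain ⟨⟨hab, ham, han, -⟩, ⟨hbm, hbn, -⟩, ⟨hmn, -⟩, -⟩ := hnd
  obtain ⟨g, e', f', W', hL | hL⟩ := hw.link H
  · obtain ⟨h1, h2, h3⟩ := H1.uniq h hL
    have hs' : ({t, x, y} : Set (Fin 6)) = ({a, m, g} : Set (Fin 6))ᶜ ∨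
        ({t, x, y} : Set (Fin 6)) = ({a, m, b} : Set (Fin 6))ᶜ := by
      rw [h1, h2]
      rcases h3 with ⟨h3, h4, -⟩ | ⟨h3, h4, -⟩
      · rw [h3, h4]; exact hs
      · rw [h3, h4]; exact hs.symm
    refine zero_stay D hx H.toQF0 hL.toQF0 hs' hW (fun d => ?_) ht rfl
    refine agree_off D hx.le hw G H H1 H.dpt.swap12.swap34 (fun k hk hk' => ?_) d
    rw [← h1, ← h2] at hk
    rcases hk with rfl | hk <;> rcases hk' with hk' | hk'
    · exact hab hk'
    · exact han hk'
    · exact hbm (hk'.symm.trans hk)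
    · exact hmn (hk.symm.trans hk')
  · obtain ⟨h1, h2, h3⟩ := H1.uniq h hL
    have hs' : ({t, x, y} : Set (Fin 6)) = ({b, n, g} : Set (Fin 6))ᶜ ∨
        ({t, x, y} : Set (Fin 6)) = ({b, n, a} : Set (Fin 6))ᶜ := by
      have e1 : ∀ k : Fin 6, ({b, n, k} : Set (Fin 6)) = {n, b, k} := fun k =>
        Set.insert_comm _ _ _
      rw [e1, e1, h1, h2]
      rcases h3 with ⟨h3, h4, -⟩ | ⟨h3, h4, -⟩
      · rw [h3, h4]; exact hs.symm
      · rw [h3, h4]; exact hs
    refine zero_stay D hx H.toQF0.swapAB hL.toQF0.swapAB hs' hW (fun d => ?_) ht rfl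
    refine agree_off D hx.le hw G H H1 H.dpt (fun k hk hk' => ?_) d
    rw [← h1, ← h2] at hk
    rcases hk with rfl | hk <;> rcases hk' with hk' | hk'
    · exact han hk'.symm
    · exact hmn hk'.symm
    · exact hab (hk'.symm.trans hk)
    · exact hbm (hk.symm.trans hk')

end Vale.Agent.P032.H961
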